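import Vale.Agent.P184.R2.H270M.Comm

set_option linter.all false

/-!
# Isometries of Banach spaces with positive translation length
-/

noncomputable section

open Filter Topology

namespace Vale.Agent.P184.M

universe u v

variable {G : Type u} [Group G] {E : Type v} [NormedAddCommGroup E] [NormedSpace ℝ E]
  [MulAction G E]

/-- The isometry given by `g`. -/
def isoE (hiso : ∀ (g : G) (a b : E), dist (g • a) (g • b) = dist a b) (g : G) : E ≃ᵢ E where
  toEquiv := MulAction.toPerm g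
  isometry_toFun := Isometry.of_dist_eq (hiso g)

/-- The linear part of `g`. -/
def lin (hiso : ∀ (g : G) (a b : E), dist (g • a) (g • b) = dist a b) (g : G) : E ≃ₗᵢ[ℝ] E :=
  (isoE hiso g).toRealLinearIsometryEquiv

theorem lin_apply (hiso : ∀ (g : G) (a b : E), dist (g • a) (g • b) = dist a b) (g : G) (v : E) :
    lin hiso g v = g • v - g • (0 : E) := by
  unfold lin
  rw [IsometryEquiv.toRealLinearIsometryEquiv_apply]
  rfl

theorem smul_eq (hiso : ∀ (g : G) (a b : E), dist (g • a) (g • b) = dist a b) (g : G) (v : E) :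
    g • v = lin hiso g v + g • (0 : E) := by
  rw [lin_apply]
  abel

/-- Functionals of norm at most one increasing at rate `τ` along `x`. -/
def Fun (x : G) (τ : ℝ) (φ : StrongDual ℝ E) : Prop :=
  ‖φ‖ ≤ 1 ∧ ∀ v, φ (x • v) = φ v + τ

theorem Fun.pow {x : G} {τ : ℝ} {φ : StrongDual ℝ E} (h : Fun x τ φ) (n : ℕ) (v : E) :
    φ (x ^ n • v) = φ v + n * τ := by
  induction n with
  | zero => simp
  | succ n ih =>
    rw [pow_succ', mul_smul, h.2, ih]
    push_cast
    ring

theorem Fun.norm_eq {x : G} {τ : ℝ} (hτ : 0 < τ)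
    (hlim : Tendsto (fun n : ℕ => ‖x ^ n • (0 : E)‖ / n) atTop (𝓝 τ)) {φ : StrongDual ℝ E}
    (h : Fun x τ φ) : ‖φ‖ = 1 := by
  refine le_antisymm h.1 ?_
  have h1 : Tendsto (fun n : ℕ => ‖φ‖ * (‖x ^ n • (0 : E)‖ / n)) atTop (𝓝 (‖φ‖ * τ)) :=
    hlim.const_mul _
  have h2 : τ ≤ ‖φ‖ * τ := by
    refine ge_of_tendsto h1 ?_
    filter_upwards [eventually_gt_atTop 0] with n hn
    have hn' : (0 : ℝ) < n := by exact_mod_cast hn
    rw [← mul_div_assoc, le_div_iff₀ hn']
    have h3 := h.pow n 0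
    rw [map_zero, zero_add] at h3
    calc τ * n = φ (x ^ n • (0 : E)) := by rw [h3]; ring
      _ ≤ ‖φ (x ^ n • (0 : E))‖ := Real.le_norm_self _
      _ ≤ ‖φ‖ * ‖x ^ n • (0 : E)‖ := φ.le_opNorm _
  by_contra hcon
  push Not at hcon
  nlinarith

theorem Fun.unique [StrictConvexSpace ℝ (StrongDual ℝ E)] {x : G} {τ : ℝ} (hτ : 0 < τ)
    (hlim : Tendsto (fun n : ℕ => ‖x ^ n • (0 : E)‖ / n) atTop (𝓝 τ)) {φ ψ : StrongDual ℝ E}
    (h : Fun x τ φ) (h' : Fun x τ ψ) : φ = ψ := by
  have h1 := h.norm_eq hτ hlim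
  have h2 := h'.norm_eq hτ hlim
  have h3 : Fun x τ ((1 / 2 : ℝ) • (φ + ψ)) := by
    refine ⟨?_, fun v => ?_⟩
    · rw [norm_smul]
      have := norm_add_le φ ψ
      rw [h1, h2] at this
      norm_num
      linarith
    · simp only [ContinuousLinearMap.smul_apply, ContinuousLinearMap.add_apply, smul_eq_mul]
      rw [h.2, h'.2]
      ring
  have h4 := h3.norm_eq hτ hlim
  refine eq_of_norm_eq_of_norm_add_eq (h1.trans h2.symm) ?_
  rw [norm_smul] at h4
  norm_num at h4
  rw [h1, h2]
  linarith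

theorem exists_fun (hiso : ∀ (g : G) (a b : E), dist (g • a) (g • b) = dist a b) (x : G)
    {τ : ℝ} (hlim : Tendsto (fun n : ℕ => ‖x ^ n • (0 : E)‖ / n) atTop (𝓝 τ)) :
    ∃ φ : StrongDual ℝ E, Fun x τ φ := by
  have hθ : ∀ N : ℕ, ∃ θ : StrongDual ℝ E, ‖θ‖ ≤ 1 ∧
      θ (x ^ N • (0 : E)) = ‖x ^ N • (0 : E)‖ := fun N => exists_dual_vector'' ℝ _
  choose θ hθ1 hθ2 using hθ
  have hθb : ∀ N v, |θ N v| ≤ ‖v‖ := by
    intro N v
    have := (θ N).le_opNorm v
    rw [Real.norm_eq_abs] at this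
    exact this.trans (mul_le_of_le_one_left (norm_nonneg _) (hθ1 N))
  let F : ℕ → E → ℝ := fun N v =>
    (∑ k ∈ Finset.range N, θ N (lin hiso (x ^ k) v)) / N
  have hbd : ∀ N v, |F N v| ≤ ‖v‖ := by
    intro N v
    simp only [F]
    rw [abs_div, Nat.abs_cast]
    rcases Nat.eq_zero_or_pos N with h0 | h0
    · subst h0
      simp
    · have hN : (0 : ℝ) < N := by exact_mod_cast h0
      rw [div_le_iff₀ hN]
      refine (Finset.abs_sum_le_sum_abs _ _).trans ?_
      refine (Finset.sum_le_sum (g := fun _ => ‖v‖) fun k _ => ?_).trans ?_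
      · refine (hθb N _).trans ?_
        rw [LinearIsometryEquiv.norm_map]
      · rw [Finset.sum_const, Finset.card_range, nsmul_eq_mul, mul_comm]
  have hcpt : IsCompact (Set.pi Set.univ fun v : E => Set.Icc (-‖v‖) ‖v‖) :=
    isCompact_univ_pi fun v => isCompact_Icc
  let 𝒰 : Ultrafilter ℕ := Filter.hyperfilter ℕ
  have hle : (𝒰 : Filter ℕ) ≤ atTop := by
    rw [← Nat.cofinite_eq_atTop]
    exact Filter.hyperfilter_le_cofinite
  obtain ⟨h, hmem, hh⟩ := hcpt.ultrafilter_le_nhds (𝒰.map F) (by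
    rw [le_principal_iff]
    refine Filter.mem_map.2 (Filter.univ_mem' fun N => ?_)
    intro v _
    exact abs_le.1 (hbd N v))
  have hF : ∀ v, Tendsto (fun N => F N v) 𝒰 (𝓝 (h v)) := fun v =>
    (tendsto_pi_nhds.1 (show Tendsto F 𝒰 (𝓝 h) from hh)) v
  -- the limit is linear
  have hadd : ∀ v w, h (v + w) = h v + h w := by
    intro v w
    refine tendsto_nhds_unique (hF (v + w)) ?_
    have h1 : (fun N => F N (v + w)) = fun N => F N v + F N w := by
      funext N
      simp only [F, map_add, Finset.sum_add_distrib, add_div]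
    rw [h1]
    exact (hF v).add (hF w)
  have hsmul : ∀ (r : ℝ) v, h (r • v) = r * h v := by
    intro r v
    refine tendsto_nhds_unique (hF (r • v)) ?_
    have h1 : (fun N => F N (r • v)) = fun N => r * F N v := by
      funext N
      simp only [F, map_smul, smul_eq_mul, ← Finset.mul_sum, mul_div_assoc]
    rw [h1]
    exact (hF v).const_mul r
  have hbound : ∀ v, |h v| ≤ ‖v‖ := fun v => abs_le.2 (hmem v (Set.mem_univ v))
  let L : E →ₗ[ℝ] ℝ :=
    { toFun := h
      map_add' := hadd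
      map_smul' := fun r v => by simp [hsmul] }
  let φ : StrongDual ℝ E := L.mkContinuous 1 fun v => by
    rw [one_mul]
    exact hbound v
  refine ⟨φ, LinearMap.mkContinuous_norm_le _ zero_le_one _, fun v => ?_⟩
  change h (x • v) = h v + τ
  -- `F N (x • v) - F N v` tends to `τ`
  have h1 : ∀ N : ℕ, F N (x • v) - F N v =
      (θ N (x ^ N • v) - θ N v) / N := by
    intro N
    simp only [F]
    rw [← sub_div, ← Finset.sum_sub_distrib]
    congr 1
    have h2 : ∀ k ∈ Finset.range N, θ N (lin hiso (x ^ k) (x • v)) -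
        θ N (lin hiso (x ^ k) v) = θ N (x ^ (k + 1) • v) - θ N (x ^ k • v) := by
      intro k _
      rw [lin_apply, lin_apply, ← mul_smul, ← pow_succ, map_sub, map_sub]
      ring
    rw [Finset.sum_congr rfl h2, Finset.sum_range_sub (fun k => θ N (x ^ k • v))]
    simp
  have h2 : Tendsto (fun N : ℕ => (θ N (x ^ N • v) - θ N v) / (N : ℝ)) atTop (𝓝 τ) := by
    have h3 : Tendsto (fun n : ℕ => (2 * ‖v‖) / (n : ℝ)) atTop (𝓝 0) :=
      tendsto_const_div_atTop_nhds_zero_nat _
    have h4 : Tendsto (fun n : ℕ => ‖x ^ n • (0 : E)‖ / n - (2 * ‖v‖) / (n : ℝ)) atTop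
        (𝓝 τ) := by simpa using hlim.sub h3
    have h5 : Tendsto (fun n : ℕ => ‖x ^ n • (0 : E)‖ / n + (2 * ‖v‖) / (n : ℝ)) atTop
        (𝓝 τ) := by simpa using hlim.add h3
    have h6 : ∀ n : ℕ, |θ n (x ^ n • v) - θ n v - ‖x ^ n • (0 : E)‖| ≤ 2 * ‖v‖ := by
      intro n
      have h7 : θ n (x ^ n • v) - θ n v - ‖x ^ n • (0 : E)‖ =
          θ n (lin hiso (x ^ n) v) - θ n v := by
        rw [← hθ2 n, lin_apply, map_sub]
        ring
      rw [h7]
      refine (abs_sub _ _).trans ?_
      have h8 := hθb n (lin hiso (x ^ n) v)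
      rw [LinearIsometryEquiv.norm_map] at h8
      have h9 := hθb n v
      linarith
    refine tendsto_of_tendsto_of_tendsto_of_le_of_le h4 h5 (fun n => ?_) (fun n => ?_)
    · simp only
      rw [← sub_div]
      refine div_le_div_of_nonneg_right ?_ (Nat.cast_nonneg n)
      have := (abs_le.1 (h6 n)).1
      linarith
    · simp only
      rw [← add_div]
      refine div_le_div_of_nonneg_right ?_ (Nat.cast_nonneg n)
      have := (abs_le.1 (h6 n)).2
      linarith
  have h3 : Tendsto (fun N => F N (x • v) - F N v) 𝒰 (𝓝 (h (x • v) - h v)) :=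
    (hF (x • v)).sub (hF v)
  have h4 : Tendsto (fun N => F N (x • v) - F N v) 𝒰 (𝓝 τ) := by
    simp only [h1]
    exact h2.mono_left hle
  have h5 := tendsto_nhds_unique h3 h4
  linarith

/-- Elements with positive translation length in Banach spaces with strictly convex dual are
charged. -/
theorem charged_of_banach [StrictConvexSpace ℝ (StrongDual ℝ E)]
    (hiso : ∀ (g : G) (a b : E), dist (g • a) (g • b) = dist a b) (x : G) (o : E) {ε : ℝ}
    (hε : 0 < ε) (hx : ∀ n : ℕ, ε * n ≤ dist o (x ^ n • o)) :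
    CharLe x fun g => dist o (g • o) := by
  have hsub : Subadditive fun n : ℕ => ‖x ^ n • (0 : E)‖ := by
    intro m n
    simp only [← dist_zero_left]
    have h1 := dist_triangle 0 (x ^ m • (0 : E)) (x ^ (m + n) • (0 : E))
    have h2 : dist (x ^ m • (0 : E)) (x ^ (m + n) • (0 : E)) = dist 0 (x ^ n • (0 : E)) := by
      rw [pow_add, mul_smul, hiso]
    rw [h2] at h1
    exact h1
  have hbdd : BddBelow (Set.range fun n : ℕ => ‖x ^ n • (0 : E)‖ / n) :=
    ⟨0, by rintro _ ⟨n, rfl⟩; positivity⟩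
  have hlim := hsub.tendsto_lim hbdd
  set τ := hsub.lim with hτdef
  have hτ : 0 < τ := by
    refine lt_of_lt_of_le hε ?_
    have h3 : Tendsto (fun n : ℕ => (2 * ‖o‖) / (n : ℝ)) atTop (𝓝 0) :=
      tendsto_const_div_atTop_nhds_zero_nat _
    have h4 : Tendsto (fun n : ℕ => ‖x ^ n • (0 : E)‖ / n + (2 * ‖o‖) / (n : ℝ)) atTop
        (𝓝 τ) := by simpa using hlim.add h3
    refine ge_of_tendsto h4 ?_
    filter_upwards [eventually_gt_atTop 0] with n hn
    have hn' : (0 : ℝ) < n := by exact_mod_cast hn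
    rw [← add_div, le_div_iff₀ hn']
    refine (hx n).trans ?_
    have h5 := dist_triangle4 o 0 (x ^ n • (0 : E)) (x ^ n • o)
    rw [hiso, dist_zero_right, dist_zero_left, dist_zero_left] at h5
    linarith
  obtain ⟨φ, hφ⟩ := exists_fun hiso x hlim
  -- invariance under the centralizer
  have hcen : ∀ c : G, Commute c x → ∀ v, φ (c • v) = φ v + φ (c • (0 : E)) := by
    intro c hc v
    let ψ : StrongDual ℝ E := φ.comp (lin hiso c).toContinuousLinearEquiv.toContinuousLinearMap
    have hψ : ∀ v, ψ v = φ (c • v) - φ (c • (0 : E)) := by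
      intro v
      change φ (lin hiso c v) = _
      rw [lin_apply, map_sub]
    have h1 : Fun x τ ψ := by
      refine ⟨?_, fun v => ?_⟩
      · refine ContinuousLinearMap.opNorm_le_bound _ zero_le_one fun v => ?_
        change ‖φ (lin hiso c v)‖ ≤ _
        refine (φ.le_opNorm _).trans ?_
        rw [LinearIsometryEquiv.norm_map]
        exact mul_le_mul_of_nonneg_right hφ.1 (norm_nonneg _)
      · rw [hψ, hψ, ← mul_smul, hc.eq, mul_smul, hφ.2]
        ring
    have h2 := Fun.unique hτ hlim h1 hφ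
    have h3 := hψ v
    rw [h2] at h3
    linarith
  refine ⟨fun g => φ (g • (0 : E)), fun g k hg hk => ?_, fun g hg => ?_, ?_⟩
  · simp only
    rw [mul_smul, hcen g hg]
    ring
  · simp only
    have h1 : φ (g • (0 : E)) = φ (g • o - o) := by
      rw [map_sub, hcen g hg o]
      ring
    rw [h1, dist_comm, dist_eq_norm]
    refine (Real.le_norm_self _).trans ((φ.le_opNorm _).trans ?_)
    exact mul_le_of_le_one_left (norm_nonneg _) hφ.1
  · simp only
    rw [hφ.2, map_zero, zero_add]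
    exact hτ.ne'

end Vale.Agent.P184.M
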