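import Vale.Agent.P184.R2.H270M.Comm

set_option linter.all false

/-!
# Isometries of `CAT(0)` spaces with positive translation length
-/

noncomputable section

open Filter Topology

namespace Vale.Agent.P184.M

universe u v

/-- `m` is a midpoint of `p` and `q`, in the sense of the inequality of Bruhat and Tits. -/
def Mid {X : Type v} [PseudoMetricSpace X] (p q m : X) : Prop :=
  ∀ z, dist z m ^ 2 ≤ (dist z p ^ 2 + dist z q ^ 2) / 2 - dist p q ^ 2 / 4

section Space

variable {X : Type v} [PseudoMetricSpace X]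

theorem Mid.dist_le {p q m : X} (h : Mid p q m) (z : X) :
    dist z m ≤ (dist z p + dist z q) / 2 := by
  have h1 := h z
  have h2 : |dist z p - dist z q| ≤ dist p q := by
    rw [dist_comm z p, dist_comm z q]
    exact abs_dist_sub_le p q z
  have h3 : (dist z p - dist z q) ^ 2 ≤ dist p q ^ 2 := by
    rw [← sq_abs (dist z p - dist z q)]
    exact pow_le_pow_left₀ (abs_nonneg _) h2 2
  have h4 : dist z m ^ 2 ≤ ((dist z p + dist z q) / 2) ^ 2 := by nlinarith
  exact (pow_le_pow_iff_left₀ dist_nonneg (by positivity) two_ne_zero).1 h4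

/-- Points on the geodesic from `p` to `q`, at dyadic distances. -/
theorem exists_dyadic (hX : ∀ p q : X, ∃ m, Mid p q m) (p q : X) (k : ℕ) :
    ∃ z : X, (∀ o, dist o z ^ 2 ≤ (1 - (1 / 2 : ℝ) ^ k) * dist o p ^ 2 +
        (1 / 2 : ℝ) ^ k * dist o q ^ 2 -
        (1 / 2 : ℝ) ^ k * (1 - (1 / 2 : ℝ) ^ k) * dist p q ^ 2) ∧
      dist p z = (1 / 2 : ℝ) ^ k * dist p q ∧
      ∀ h : X → ℝ, (∀ a b m, Mid a b m → h m ≤ (h a + h b) / 2) →
        h z ≤ (1 - (1 / 2 : ℝ) ^ k) * h p + (1 / 2 : ℝ) ^ k * h q := by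
  induction k with
  | zero => exact ⟨q, fun o => by simp, by simp, fun h _ => by simp⟩
  | succ k ih =>
    obtain ⟨z, h1, h2, h3⟩ := ih
    obtain ⟨m, hm⟩ := hX p z
    have hc0 : 0 < (1 / 2 : ℝ) ^ k := by positivity
    have hc1 : (1 / 2 : ℝ) ^ k ≤ 1 := pow_le_one₀ (by norm_num) (by norm_num)
    have hc2 : (1 / 2 : ℝ) ^ (k + 1) = (1 / 2 : ℝ) ^ k / 2 := by rw [pow_succ]; ring
    set c := (1 / 2 : ℝ) ^ k with hc
    have hkey : ∀ o, dist o m ^ 2 ≤ (1 - c / 2) * dist o p ^ 2 + c / 2 * dist o q ^ 2 -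
        c / 2 * (1 - c / 2) * dist p q ^ 2 := by
      intro o
      have h4 := hm o
      have h5 := h1 o
      rw [h2] at h4
      nlinarith
    refine ⟨m, by rw [hc2]; exact hkey, ?_, ?_⟩
    · rw [hc2]
      -- upper bounds for the distances to `p` and `q`
      have h4 : dist p m ≤ c / 2 * dist p q := by
        have h5 := hkey p
        rw [dist_self] at h5
        have h6 : dist p m ^ 2 ≤ (c / 2 * dist p q) ^ 2 := by nlinarith
        exact (pow_le_pow_iff_left₀ dist_nonneg (by positivity) two_ne_zero).1 h6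
      have h7 : dist q m ≤ (1 - c / 2) * dist p q := by
        have h5 := hkey q
        rw [dist_self, dist_comm q p] at h5
        have h6 : dist q m ^ 2 ≤ ((1 - c / 2) * dist p q) ^ 2 := by nlinarith
        exact (pow_le_pow_iff_left₀ dist_nonneg
          (mul_nonneg (by linarith) dist_nonneg) two_ne_zero).1 h6
      have h8 : dist p q ≤ dist p m + dist q m := dist_triangle_right p q m
      linarith
    · intro h hh
      rw [hc2]
      have h4 := hh p z m hm
      have h5 := h3 h hh
      nlinarith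

end Space

section Action

variable {G : Type u} [Group G] {X : Type v} [PseudoMetricSpace X] [MulAction G X]

/-- Convex functions decreasing at rate `τ` along `x`. -/
def Horo (x : G) (τ : ℝ) (h : X → ℝ) : Prop :=
  (∀ a b, h a - h b ≤ dist a b) ∧ (∀ a, h (x • a) = h a - τ) ∧
    ∀ a b m, Mid a b m → h m ≤ (h a + h b) / 2

theorem Horo.pow {x : G} {τ : ℝ} {h : X → ℝ} (hh : Horo x τ h) (a : X) (n : ℕ) :
    h (x ^ n • a) = h a - n * τ := by
  induction n with
  | zero => simp
  | succ n ih =>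
    rw [pow_succ', mul_smul, hh.2.1, ih]
    push_cast
    ring

/-- The horofunction is the limit of the distances to the points of the orbit. -/
theorem Horo.upper (hX : ∀ p q : X, ∃ m, Mid p q m) {x : G} {τ : ℝ} (hτ : 0 < τ) {o : X}
    (hlim : Tendsto (fun n : ℕ => dist o (x ^ n • o) / n) atTop (𝓝 τ)) {h : X → ℝ}
    (hh : Horo x τ h) (a b : X) {ε : ℝ} (hε : 0 < ε) :
    ∀ᶠ n : ℕ in atTop, h a - h b ≤ dist a (x ^ n • o) - dist b (x ^ n • o) + ε := by
  set r := dist a b with hr
  have hr0 : 0 ≤ r := dist_nonneg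
  -- the scale
  obtain ⟨s, hs1, hs2⟩ : ∃ s : ℝ, r + 1 < s ∧ r ^ 2 / (2 * (s - r)) < ε / 2 := by
    refine ⟨r + 2 + r ^ 2 / ε, ?_, ?_⟩
    · have : 0 ≤ r ^ 2 / ε := by positivity
      linarith
    · have h1 : 0 ≤ r ^ 2 / ε := by positivity
      have h2 : 0 < 2 * (r + 2 + r ^ 2 / ε - r) := by linarith
      rw [div_lt_iff₀ h2]
      have h3 : r ^ 2 = r ^ 2 / ε * ε := by field_simp
      nlinarith
  have hs0 : 0 < s := by linarith
  -- the growth of the distances
  have hD : Tendsto (fun n : ℕ => dist b (x ^ n • o) / n) atTop (𝓝 τ) := by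
    have h1 : Tendsto (fun n : ℕ => dist b o / (n : ℝ)) atTop (𝓝 0) :=
      tendsto_const_div_atTop_nhds_zero_nat _
    have h2 : Tendsto (fun n : ℕ => dist o (x ^ n • o) / n - dist b o / (n : ℝ)) atTop (𝓝 τ) := by
      simpa using hlim.sub h1
    have h3 : Tendsto (fun n : ℕ => dist o (x ^ n • o) / n + dist b o / (n : ℝ)) atTop (𝓝 τ) := by
      simpa using hlim.add h1
    refine tendsto_of_tendsto_of_tendsto_of_le_of_le h2 h3 (fun n => ?_) (fun n => ?_)
    · simp only
      rw [← sub_div]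
      refine div_le_div_of_nonneg_right ?_ (Nat.cast_nonneg n)
      have := dist_triangle_left o (x ^ n • o) b
      linarith
    · simp only
      rw [← add_div]
      refine div_le_div_of_nonneg_right ?_ (Nat.cast_nonneg n)
      have := dist_triangle b o (x ^ n • o)
      linarith
  have hE : Tendsto (fun n : ℕ => (dist b (x ^ n • o) - n * τ - h b + h o) /
      dist b (x ^ n • o)) atTop (𝓝 0) := by
    have h1 : Tendsto (fun n : ℕ => (h o - h b) / (n : ℝ)) atTop (𝓝 0) :=
      tendsto_const_div_atTop_nhds_zero_nat _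
    have h2 : Tendsto (fun n : ℕ => (dist b (x ^ n • o) / n - τ + (h o - h b) / (n : ℝ)) /
        (dist b (x ^ n • o) / n)) atTop (𝓝 0) := by
      have h3 : Tendsto (fun n : ℕ => (dist b (x ^ n • o) / n - τ + (h o - h b) / (n : ℝ)) /
          (dist b (x ^ n • o) / n)) atTop (𝓝 ((τ - τ + 0) / τ)) :=
        ((hD.sub_const τ).add h1).div hD hτ.ne'
      rwa [sub_self, add_zero, zero_div] at h3
    refine h2.congr' ?_
    filter_upwards [eventually_gt_atTop 0] with n hn
    have hn' : (n : ℝ) ≠ 0 := by exact_mod_cast hn.ne'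
    rw [← div_div_div_cancel_right₀ hn' (dist b (x ^ n • o) - n * τ - h b + h o)]
    congr 1
    field_simp
    ring
  have hDinf : Tendsto (fun n : ℕ => dist b (x ^ n • o)) atTop atTop := by
    have h1 : Tendsto (fun n : ℕ => dist b (x ^ n • o) / n * n) atTop atTop :=
      hD.pos_mul_atTop hτ tendsto_natCast_atTop_atTop
    refine h1.congr' ?_
    filter_upwards [eventually_gt_atTop 0] with n hn
    have hn' : (n : ℝ) ≠ 0 := by exact_mod_cast hn.ne'
    field_simp
  have hE' : ∀ᶠ n : ℕ in atTop, (dist b (x ^ n • o) - n * τ - h b + h o) /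
      dist b (x ^ n • o) < ε / (4 * s) := (tendsto_order.1 hE).2 _ (by positivity)
  filter_upwards [hE', hDinf.eventually_ge_atTop s] with n h1 h2
  set D := dist b (x ^ n • o) with hDdef
  set D' := dist a (x ^ n • o) with hD'def
  have hD0 : 0 < D := by linarith
  obtain ⟨k, hk1, hk2⟩ := exists_nat_pow_near (x := D / s) (y := 2)
    (by rw [le_div_iff₀ hs0]; linarith) (by norm_num)
  obtain ⟨z, hz1, hz2, hz3⟩ := exists_dyadic hX b (x ^ n • o) k
  have hck : (1 / 2 : ℝ) ^ k = 1 / 2 ^ k := by rw [one_div_pow]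
  set c := (1 / 2 : ℝ) ^ k with hc
  have hc0 : 0 < c := by positivity
  have hc1 : c ≤ 1 := pow_le_one₀ (by norm_num) (by norm_num)
  have h2k : (0 : ℝ) < 2 ^ k := by positivity
  have hcD1 : s ≤ c * D := by
    rw [le_div_iff₀ hs0] at hk1
    rw [hck, one_div, inv_mul_eq_div, le_div_iff₀ h2k]
    linarith
  have hcD2 : c * D ≤ 2 * s := by
    rw [div_lt_iff₀ hs0, pow_succ] at hk2
    rw [hck, one_div, inv_mul_eq_div, div_le_iff₀ h2k]
    linarith
  have hδ : |D' - D| ≤ r := by
    rw [hDdef, hD'def, hr]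
    exact abs_dist_sub_le a b (x ^ n • o)
  have hδ1 := (abs_le.1 hδ).1
  have hδ2 := (abs_le.1 hδ).2
  have h4 := hz1 a
  rw [← hr, ← hDdef, ← hD'def] at h4
  have h5 : dist a z ^ 2 ≤ (c * D + (D' - D)) ^ 2 + r ^ 2 := by
    have h6 : (D' - D) ^ 2 ≥ 0 := sq_nonneg _
    nlinarith [mul_nonneg (sub_nonneg.2 hc1) h6, mul_nonneg hc0.le (sq_nonneg r)]
  have hpos : s - r ≤ c * D + (D' - D) := by linarith
  have hsr : 0 < s - r := by linarith
  set t := c * D + (D' - D) with ht
  have ht0 : 0 < t := by linarith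
  have h6 : dist a z ≤ t + r ^ 2 / (2 * t) := by
    have h7 : dist a z ^ 2 ≤ (t + r ^ 2 / (2 * t)) ^ 2 := by
      have h8 : (t + r ^ 2 / (2 * t)) ^ 2 = t ^ 2 + r ^ 2 + (r ^ 2 / (2 * t)) ^ 2 := by
        field_simp
        ring
      rw [h8]
      have h9 : 0 ≤ (r ^ 2 / (2 * t)) ^ 2 := sq_nonneg _
      linarith
    exact (pow_le_pow_iff_left₀ dist_nonneg (by positivity) two_ne_zero).1 h7
  have h7 : r ^ 2 / (2 * t) ≤ r ^ 2 / (2 * (s - r)) := by
    refine div_le_div_of_nonneg_left (by positivity) (by positivity) (by linarith)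
  have h8 := hz3 h hh.2.2
  rw [hh.pow o n] at h8
  have h9 := hh.1 a z
  have h10 : c * (D - n * τ - h b + h o) ≤ ε / 2 := by
    have h11 : c * (D - n * τ - h b + h o) = c * D * ((D - n * τ - h b + h o) / D) := by
      field_simp
    rw [h11]
    rcases le_or_gt ((D - n * τ - h b + h o) / D) 0 with h12 | h12
    · have : c * D * ((D - n * τ - h b + h o) / D) ≤ 0 :=
        mul_nonpos_of_nonneg_of_nonpos (by positivity) h12
      linarith
    · calc c * D * ((D - n * τ - h b + h o) / D) ≤ 2 * s * (ε / (4 * s)) :=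
          mul_le_mul hcD2 h1.le h12.le (by positivity)
        _ = ε / 2 := by field_simp; norm_num
  have h13 : h a - h b ≤ t + ε / 2 + c * (h o - n * τ - h b) := by nlinarith
  have h14 : t + ε / 2 + c * (h o - n * τ - h b) =
      D' - D + ε / 2 + c * (D - n * τ - h b + h o) := by rw [ht]; ring
  linarith

theorem Horo.tendsto (hX : ∀ p q : X, ∃ m, Mid p q m) {x : G} {τ : ℝ} (hτ : 0 < τ) {o : X}
    (hlim : Tendsto (fun n : ℕ => dist o (x ^ n • o) / n) atTop (𝓝 τ)) {h : X → ℝ}
    (hh : Horo x τ h) (a b : X) :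
    Tendsto (fun n : ℕ => dist a (x ^ n • o) - dist b (x ^ n • o)) atTop (𝓝 (h a - h b)) := by
  rw [Metric.tendsto_atTop']
  intro ε hε
  have h1 := hh.upper hX hτ hlim a b (half_pos hε)
  have h2 := hh.upper hX hτ hlim b a (half_pos hε)
  obtain ⟨N, hN⟩ := (h1.and h2).exists_forall_of_atTop
  refine ⟨N, fun n hn => ?_⟩
  obtain ⟨h3, h4⟩ := hN n hn.le
  rw [Real.dist_eq, abs_lt]
  constructor <;> linarith

/-- Existence of the horofunction. -/
theorem exists_horo (hiso : ∀ (g : G) (a b : X), dist (g • a) (g • b) = dist a b) (x : G) (o : X)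
    {τ : ℝ} (hlim : Tendsto (fun n : ℕ => dist o (x ^ n • o) / n) atTop (𝓝 τ)) :
    ∃ h : X → ℝ, Horo x τ h := by
  let F : ℕ → X → ℝ := fun N p =>
    (∑ k ∈ Finset.range N, (dist p (x ^ (k + 1) • o) - dist o (x ^ (k + 1) • o))) / N
  have hbd : ∀ N p, |F N p| ≤ dist p o := by
    intro N p
    simp only [F]
    rw [abs_div, Nat.abs_cast]
    rcases Nat.eq_zero_or_pos N with h0 | h0
    · subst h0
      simp
    · have hN : (0 : ℝ) < N := by exact_mod_cast h0
      rw [div_le_iff₀ hN]
      refine (Finset.abs_sum_le_sum_abs _ _).trans ?_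
      refine (Finset.sum_le_sum fun k _ => abs_dist_sub_le p o (x ^ (k + 1) • o)).trans ?_
      rw [Finset.sum_const, Finset.card_range, nsmul_eq_mul, mul_comm]
  have hcpt : IsCompact (Set.pi Set.univ fun p : X => Set.Icc (-dist p o) (dist p o)) :=
    isCompact_univ_pi fun p => isCompact_Icc
  let 𝒰 : Ultrafilter ℕ := Filter.hyperfilter ℕ
  have hle : (𝒰 : Filter ℕ) ≤ atTop := by
    rw [← Nat.cofinite_eq_atTop]
    exact Filter.hyperfilter_le_cofinite
  obtain ⟨h, -, hh⟩ := hcpt.ultrafilter_le_nhds (𝒰.map F) (by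
    rw [le_principal_iff]
    refine Filter.mem_map.2 (Filter.univ_mem' fun N => ?_)
    intro p _
    exact abs_le.1 (hbd N p))
  have hF : ∀ p, Tendsto (fun N => F N p) 𝒰 (𝓝 (h p)) := fun p =>
    (tendsto_pi_nhds.1 (show Tendsto F 𝒰 (𝓝 h) from hh)) p
  refine ⟨h, fun a b => ?_, fun a => ?_, fun a b m hm => ?_⟩
  · refine le_of_tendsto ((hF a).sub (hF b)) (Filter.Eventually.of_forall fun N => ?_)
    simp only [F]
    rw [← sub_div, ← Finset.sum_sub_distrib]
    rcases Nat.eq_zero_or_pos N with h0 | h0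
    · subst h0
      simp
    · have hN : (0 : ℝ) < N := by exact_mod_cast h0
      rw [div_le_iff₀ hN]
      refine (Finset.sum_le_sum fun k _ => ?_).trans
        (by rw [Finset.sum_const, Finset.card_range, nsmul_eq_mul, mul_comm])
      have := dist_triangle a b (x ^ (k + 1) • o)
      linarith
  · -- `F N (x • a) - F N a` tends to `- τ`
    have h1 : ∀ N : ℕ, F N (x • a) - F N a =
        (dist a o - dist a (x ^ N • o)) / N := by
      intro N
      simp only [F]
      rw [← sub_div, ← Finset.sum_sub_distrib]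
      congr 1
      have h2 : ∀ k ∈ Finset.range N, (dist (x • a) (x ^ (k + 1) • o) - dist o (x ^ (k + 1) • o)) -
          (dist a (x ^ (k + 1) • o) - dist o (x ^ (k + 1) • o)) =
          dist a (x ^ k • o) - dist a (x ^ (k + 1) • o) := by
        intro k _
        have h3 : dist (x • a) (x ^ (k + 1) • o) = dist a (x ^ k • o) := by
          rw [pow_succ', mul_smul, hiso]
        rw [h3]
        ring
      rw [Finset.sum_congr rfl h2, Finset.sum_range_sub' (fun k => dist a (x ^ k • o))]
      simp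
    have h2 : Tendsto (fun N : ℕ => (dist a o - dist a (x ^ N • o)) / (N : ℝ)) atTop
        (𝓝 (-τ)) := by
      have h3 : Tendsto (fun n : ℕ => dist a o / (n : ℝ)) atTop (𝓝 0) :=
        tendsto_const_div_atTop_nhds_zero_nat _
      have h4 : Tendsto (fun n : ℕ => - (dist o (x ^ n • o) / n) - dist a o / (n : ℝ)) atTop
          (𝓝 (-τ)) := by simpa using hlim.neg.sub h3
      have h5 : Tendsto (fun n : ℕ => - (dist o (x ^ n • o) / n) + 2 * (dist a o / (n : ℝ))) atTop
          (𝓝 (-τ)) := by simpa using hlim.neg.add (h3.const_mul 2)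
      refine tendsto_of_tendsto_of_tendsto_of_le_of_le h4 h5 (fun n => ?_) (fun n => ?_)
      · simp only
        rw [← neg_div, ← sub_div]
        refine div_le_div_of_nonneg_right ?_ (Nat.cast_nonneg n)
        have := dist_triangle a o (x ^ n • o)
        have := dist_nonneg (x := a) (y := o)
        linarith
      · simp only
        rw [← neg_div, ← mul_div_assoc, ← add_div]
        refine div_le_div_of_nonneg_right ?_ (Nat.cast_nonneg n)
        have := dist_triangle_left o (x ^ n • o) a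
        linarith
    have h3 : Tendsto (fun N => F N (x • a) - F N a) 𝒰 (𝓝 (h (x • a) - h a)) :=
      (hF (x • a)).sub (hF a)
    have h4 : Tendsto (fun N => F N (x • a) - F N a) 𝒰 (𝓝 (-τ)) := by
      simp only [h1]
      exact h2.mono_left hle
    have h5 := tendsto_nhds_unique h3 h4
    linarith
  · have h1 : Tendsto (fun N => (F N a + F N b) / 2) 𝒰 (𝓝 ((h a + h b) / 2)) :=
      ((hF a).add (hF b)).div_const 2
    refine le_of_tendsto_of_tendsto (hF m) h1 (Filter.Eventually.of_forall fun N => ?_)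
    simp only [F]
    rw [← add_div, ← Finset.sum_add_distrib, div_div, mul_comm (N : ℝ) 2, ← div_div]
    refine div_le_div_of_nonneg_right ?_ (Nat.cast_nonneg N)
    rw [Finset.sum_div]
    refine Finset.sum_le_sum fun k _ => ?_
    have := hm.dist_le (x ^ (k + 1) • o)
    rw [dist_comm _ m, dist_comm _ a, dist_comm _ b] at this
    linarith

/-- Elements with positive translation length in `CAT(0)` spaces are charged. -/
theorem charged_of_cat (hX : ∀ p q : X, ∃ m, Mid p q m)
    (hiso : ∀ (g : G) (a b : X), dist (g • a) (g • b) = dist a b) (x : G) (o : X) {ε : ℝ}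
    (hε : 0 < ε) (hx : ∀ n : ℕ, ε * n ≤ dist o (x ^ n • o)) :
    CharLe x fun g => dist o (g • o) := by
  -- the translation length
  have hsub : Subadditive fun n : ℕ => dist o (x ^ n • o) := by
    intro m n
    have h1 := dist_triangle o (x ^ m • o) (x ^ (m + n) • o)
    have h2 : dist (x ^ m • o) (x ^ (m + n) • o) = dist o (x ^ n • o) := by
      rw [pow_add, mul_smul, hiso]
    rw [h2] at h1
    exact h1
  have hbdd : BddBelow (Set.range fun n : ℕ => dist o (x ^ n • o) / n) :=
    ⟨0, by rintro _ ⟨n, rfl⟩; positivity⟩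
  have hlim := hsub.tendsto_lim hbdd
  set τ := hsub.lim with hτdef
  have hτ : 0 < τ := by
    refine lt_of_lt_of_le hε (ge_of_tendsto hlim ?_)
    filter_upwards [eventually_gt_atTop 0] with n hn
    have hn' : (0 : ℝ) < n := by exact_mod_cast hn
    rw [le_div_iff₀ hn']
    exact hx n
  obtain ⟨h, hh⟩ := exists_horo hiso x o hlim
  -- uniqueness
  have huniq : ∀ h' : X → ℝ, Horo x τ h' → ∀ a b, h' a - h' b = h a - h b := by
    intro h' hh' a b
    exact tendsto_nhds_unique (hh'.tendsto hX hτ hlim a b) (hh.tendsto hX hτ hlim a b)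
  have hcen : ∀ c : G, Commute c x → Horo x τ fun a => h (c • a) := by
    intro c hc
    refine ⟨fun a b => ?_, fun a => ?_, fun a b m hm => ?_⟩
    · rw [← hiso c a b]
      exact hh.1 _ _
    · simp only
      rw [← mul_smul, hc.eq, mul_smul, hh.2.1]
    · refine hh.2.2 _ _ _ fun z => ?_
      have h1 := hm (c⁻¹ • z)
      have h2 : ∀ p : X, dist (c⁻¹ • z) p = dist z (c • p) := by
        intro p
        rw [← hiso c (c⁻¹ • z) p, smul_inv_smul]
      rw [h2, h2, h2] at h1
      rwa [hiso]
  refine ⟨fun g => h (g • o) - h o, fun g k hg hk => ?_,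
    fun g _ => ?_, ?_⟩
  · have h1 := huniq _ (hcen g hg) (k • o) o
    simp only [mul_smul] at h1 ⊢
    linarith
  · simp only
    rw [dist_comm]
    exact hh.1 _ _
  · simp only
    rw [hh.2.1]
    linarith

end Action

end Vale.Agent.P184.M
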