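import Vale.Agent.P184.Defs

/-!
# P184: elements with a hyperbolic periodic point on the circle are charged
-/

set_option autoImplicit false
set_option linter.unusedVariables false

open Set Filter Topology

noncomputable section

namespace Vale.Agent.P184.M

universe u

variable {G : Type u} [Group G] [MulAction G (AddCircle (1 : ℝ))]

namespace Circ

/-- A continuous real function with integer values is constant. -/
theorem int_const {f : ℝ → ℝ} (hf : Continuous f) (h : ∀ t, ∃ n : ℤ, f t = n) (s t : ℝ) :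
    f s = f t := by
  have h1 : IsPreconnected (range f) := isPreconnected_range hf
  by_contra hne
  obtain ⟨n, hn⟩ := h s
  obtain ⟨m, hm⟩ := h t
  wlog hlt : f s < f t generalizing s t n m
  · exact this t s (Ne.symm hne) m hm n hn (lt_of_le_of_ne (not_lt.1 hlt) (Ne.symm hne))
  have h2 : f s + 1 / 2 ∈ range f := by
    refine h1.Icc_subset (mem_range_self s) (mem_range_self t) ⟨by linarith, ?_⟩
    rw [hn, hm] at hlt ⊢
    have : n + 1 ≤ m := by exact_mod_cast hlt
    have : (n : ℝ) + 1 ≤ m := by exact_mod_cast this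
    linarith
  obtain ⟨r, hr⟩ := h2
  obtain ⟨p, hp⟩ := h r
  rw [hp, hn] at hr
  have h3 : (2 * p : ℝ) = 2 * n + 1 := by linarith
  have h4 : 2 * p = 2 * n + 1 := by exact_mod_cast h3
  omega

/-- Two reals with the same class differ by an integer. -/
theorem ex_int {s t : ℝ} (h : (s : AddCircle (1 : ℝ)) = t) : ∃ n : ℤ, s - t = n := by
  rw [← sub_eq_zero, ← AddCircle.coe_sub, AddCircle.coe_eq_zero_iff] at h
  obtain ⟨n, hn⟩ := h
  refine ⟨n, ?_⟩
  rw [← hn]
  simp

theorem coe_add_int (t : ℝ) (n : ℤ) : ((t + n : ℝ) : AddCircle (1 : ℝ)) = t := by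
  rw [AddCircle.coe_add]
  have : ((n : ℝ) : AddCircle (1 : ℝ)) = 0 := by
    rw [AddCircle.coe_eq_zero_iff]
    exact ⟨n, by simp⟩
  rw [this, add_zero]

/-- The data. -/
structure Dat (F : G → ℝ → ℝ) : Prop where
  hF : ∀ g (t : ℝ), ((F g t : ℝ) : AddCircle (1 : ℝ)) = g • (t : AddCircle (1 : ℝ))
  hF1 : ∀ g, ContDiff ℝ 1 (F g)
  hF0 : ∀ g t, deriv (F g) t ≠ 0

variable {F : G → ℝ → ℝ}

/-- The logarithm of the derivative. -/
def lg (F : G → ℝ → ℝ) (g : G) (t : ℝ) : ℝ := Real.log |deriv (F g) t|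

theorem Dat.diff (d : Dat F) (g : G) : Differentiable ℝ (F g) :=
  (d.hF1 g).differentiable one_ne_zero

theorem Dat.shift (d : Dat F) (g : G) (n : ℤ) (t : ℝ) :
    deriv (F g) (t + n) = deriv (F g) t := by
  have hc : Continuous fun s => F g (s + n) - F g s :=
    ((d.hF1 g).continuous.comp (continuous_id.add continuous_const)).sub (d.hF1 g).continuous
  have h1 := int_const hc (fun s => ex_int (by rw [d.hF, d.hF, coe_add_int]))
  have h2 : (fun s => F g (s + n)) = fun s => F g s + (F g (0 + n) - F g 0) := by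
    funext s
    have := h1 s 0
    linarith
  have h3 : deriv (fun s => F g (s + n)) t = deriv (F g) (t + n) := deriv_comp_add_const ..
  rw [← h3, h2, deriv_add_const]

theorem Dat.chain (d : Dat F) (g h : G) (t : ℝ) :
    deriv (F (g * h)) t = deriv (F g) (F h t) * deriv (F h) t := by
  have hc : Continuous fun s => F (g * h) s - F g (F h s) :=
    (d.hF1 _).continuous.sub ((d.hF1 g).continuous.comp (d.hF1 h).continuous)
  have h1 := int_const hc (fun s => ex_int (by rw [d.hF, d.hF, d.hF, mul_smul]))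
  have h2 : F (g * h) = fun s => F g (F h s) + (F (g * h) 0 - F g (F h 0)) := by
    funext s
    have := h1 s 0
    linarith
  rw [h2, deriv_add_const]
  exact deriv_comp t (d.diff g _) (d.diff h t)

theorem Dat.lg_shift (d : Dat F) (g : G) (n : ℤ) (t : ℝ) : lg F g (t + n) = lg F g t := by
  unfold lg
  rw [d.shift]

theorem Dat.lg_mul (d : Dat F) (g h : G) (t : ℝ) :
    lg F (g * h) t = lg F g (F h t) + lg F h t := by
  unfold lg
  rw [d.chain, abs_mul, Real.log_mul (abs_ne_zero.2 (d.hF0 _ _)) (abs_ne_zero.2 (d.hF0 _ _))]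

theorem Dat.lg_cont (d : Dat F) (g : G) : Continuous (lg F g) := by
  unfold lg
  exact ((d.hF1 g).continuous_deriv le_rfl).abs.log fun t => abs_ne_zero.2 (d.hF0 g t)

theorem Dat.lg_congr (d : Dat F) (g : G) {s t : ℝ} (h : (s : AddCircle (1 : ℝ)) = t) :
    lg F g s = lg F g t := by
  obtain ⟨n, hn⟩ := ex_int h
  have : s = t + n := by linarith
  rw [this, d.lg_shift]

/-- A representative. -/
def rep (s : AddCircle (1 : ℝ)) : ℝ := Quotient.out s

theorem rep_coe (s : AddCircle (1 : ℝ)) : ((rep s : ℝ) : AddCircle (1 : ℝ)) = s :=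
  Quotient.out_eq s

/-- The logarithm of the derivative on the circle. -/
def Lg (F : G → ℝ → ℝ) (g : G) (s : AddCircle (1 : ℝ)) : ℝ := lg F g (rep s)

theorem Dat.Lg_coe (d : Dat F) (g : G) (t : ℝ) : Lg F g (t : AddCircle (1 : ℝ)) = lg F g t :=
  d.lg_congr g (rep_coe _)

theorem Dat.Lg_mul (d : Dat F) (g h : G) (s : AddCircle (1 : ℝ)) :
    Lg F (g * h) s = Lg F g (h • s) + Lg F h s := by
  unfold Lg
  rw [d.lg_mul]
  congr 1
  refine d.lg_congr g ?_
  rw [d.hF, rep_coe, rep_coe]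

/-- The bound. -/
def Mx (F : G → ℝ → ℝ) (g : G) : ℝ := sSup (range fun s => |Lg F g s|)

theorem Dat.bdd (d : Dat F) (g : G) : BddAbove (range fun s => |Lg F g s|) := by
  obtain ⟨C, hC⟩ := (isCompact_Icc (a := (0 : ℝ)) (b := 1)).exists_bound_of_continuousOn
    (d.lg_cont g).continuousOn
  refine ⟨C, ?_⟩
  rintro _ ⟨s, rfl⟩
  simp only
  have h1 : Lg F g s = lg F g (Int.fract (rep s)) := by
    refine d.lg_congr g ?_
    have : rep s = Int.fract (rep s) + (⌊rep s⌋ : ℤ) := by
      rw [Int.fract]; ring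
    rw [this, coe_add_int, Int.fract_add_intCast, Int.fract_fract]
  rw [h1, ← Real.norm_eq_abs]
  exact hC _ ⟨Int.fract_nonneg _, (Int.fract_lt_one _).le⟩

theorem Dat.le_Mx (d : Dat F) (g : G) (s : AddCircle (1 : ℝ)) : |Lg F g s| ≤ Mx F g :=
  le_csSup (d.bdd g) (mem_range_self s)

theorem Dat.Mx_mul (d : Dat F) (g h : G) : Mx F (g * h) ≤ Mx F g + Mx F h := by
  refine csSup_le ⟨_, mem_range_self (0 : AddCircle (1 : ℝ))⟩ ?_
  rintro _ ⟨s, rfl⟩
  simp only
  rw [d.Lg_mul]
  exact (abs_add_le _ _).trans (add_le_add (d.le_Mx _ _) (d.le_Mx _ _))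

/-- The hyperbolic periodic points of multiplier `exp b`. -/
def Ex (F : G → ℝ → ℝ) (y : G) (b : ℝ) : Set (AddCircle (1 : ℝ)) := {s | y • s = s ∧ Lg F y s = b}

theorem Dat.fin (d : Dat F) (y : G) {b : ℝ} (hb : b ≠ 0) : (Ex F y b).Finite := by
  set A : Set ℝ := {t | t ∈ Icc (0 : ℝ) 1 ∧ (t : AddCircle (1 : ℝ)) ∈ Ex F y b} with hA
  have himg : Ex F y b ⊆ (fun t : ℝ => (t : AddCircle (1 : ℝ))) '' A := by
    intro s hs
    refine ⟨Int.fract (rep s), ⟨⟨Int.fract_nonneg _, (Int.fract_lt_one _).le⟩, ?_⟩, ?_⟩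
    all_goals
      have h1 : ((Int.fract (rep s) : ℝ) : AddCircle (1 : ℝ)) = s := by
        have : Int.fract (rep s) = rep s + ((-⌊rep s⌋ : ℤ) : ℝ) := by
          rw [Int.fract]; push_cast; ring
        rw [this, coe_add_int, rep_coe]
    · rw [h1]; exact hs
    · exact h1
  refine Set.Finite.subset (Set.Finite.image _ ?_) himg
  by_contra hinf
  obtain ⟨t, -, ht⟩ := Set.Infinite.exists_accPt_of_subset_isCompact hinf isCompact_Icc
    (fun t ht => ht.1 : A ⊆ Icc (0 : ℝ) 1)
  -- the filter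
  set l : Filter ℝ := 𝓝[≠] t ⊓ 𝓟 A with hl
  have : l.NeBot := ht
  have hl1 : l ≤ 𝓝[≠] t := inf_le_left
  have hl2 : l ≤ 𝓝 t := hl1.trans nhdsWithin_le_nhds
  have hlA : ∀ᶠ r in l, r ∈ A := by
    rw [hl]
    exact mem_inf_of_right (mem_principal_self A)
  -- the integer
  have hcF : Continuous fun r => F y r - r := (d.hF1 y).continuous.sub continuous_id
  have hint : ∀ r ∈ A, ∃ n : ℤ, F y r - r = n := by
    rintro r ⟨-, h1, -⟩
    exact ex_int (by rw [d.hF, h1])
  have hlim : Tendsto (fun r => F y r - r) l (𝓝 (F y t - t)) := (hcF.tendsto t).mono_left hl2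
  have hclosed : IsClosed (range ((↑) : ℤ → ℝ)) := Int.isClosedEmbedding_coe_real.isClosed_range
  obtain ⟨m, hm⟩ : F y t - t ∈ range ((↑) : ℤ → ℝ) := by
    refine hclosed.mem_of_tendsto hlim ?_
    filter_upwards [hlA] with r hr
    obtain ⟨n, hn⟩ := hint r hr
    exact ⟨n, hn.symm⟩
  have hev : ∀ᶠ r in l, F y r - r = m := by
    have h1 : ∀ᶠ r in l, |(F y r - r) - (F y t - t)| < 1 / 2 := by
      have := (tendsto_iff_norm_sub_tendsto_zero.1 hlim).eventually_lt_const
        (by norm_num : (0 : ℝ) < 1 / 2)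
      simpa [Real.norm_eq_abs] using this
    filter_upwards [h1, hlA] with r h2 h3
    obtain ⟨n, hn⟩ := hint r h3
    rw [hn, ← hm] at h2
    have h4 : |((n - m : ℤ) : ℝ)| < 1 := by push_cast; linarith
    have h5 : |n - m| < 1 := by exact_mod_cast h4
    have h6 : n - m = 0 := Int.abs_lt_one_iff.1 h5
    rw [hn]
    have : n = m := by omega
    rw [this]
  have hslope : Tendsto (slope (F y) t) l (𝓝 (deriv (F y) t)) :=
    (hasDerivAt_iff_tendsto_slope.1 (d.diff y t).hasDerivAt).mono_left hl1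
  have hone : Tendsto (slope (F y) t) l (𝓝 1) := by
    refine tendsto_const_nhds.congr' ?_
    have hne : ∀ᶠ r in l, r ≠ t := hl1 self_mem_nhdsWithin
    filter_upwards [hev, hne] with r h1 h2
    rw [slope_def_field]
    have h3 : F y t = t + m := by linarith
    have h4 : F y r = r + m := by linarith
    rw [h3, h4]
    have : r - t ≠ 0 := sub_ne_zero.2 h2
    field_simp
    ring
  have hd : deriv (F y) t = 1 := tendsto_nhds_unique hslope hone
  have hlg : Tendsto (lg F y) l (𝓝 (lg F y t)) := ((d.lg_cont y).tendsto t).mono_left hl2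
  have hb2 : Tendsto (lg F y) l (𝓝 b) := by
    refine tendsto_const_nhds.congr' ?_
    filter_upwards [hlA] with r hr
    rw [← hr.2.2, d.Lg_coe]
  have h7 : lg F y t = b := tendsto_nhds_unique hlg hb2
  apply hb
  rw [← h7]
  unfold lg
  rw [hd]
  simp

theorem Dat.smul_mem (d : Dat F) {x c : G} (hc : Commute c x) {k : ℕ} {b : ℝ}
    {s : AddCircle (1 : ℝ)} (hs : s ∈ Ex F (x ^ k) b) : c • s ∈ Ex F (x ^ k) b := by
  obtain ⟨h1, h2⟩ := hs
  have hcom : x ^ k * c = c * x ^ k := ((hc.symm).pow_left k).eq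
  refine ⟨?_, ?_⟩
  · rw [← mul_smul, hcom, mul_smul, h1]
  · have h3 := d.Lg_mul (x ^ k) c s
    rw [hcom, d.Lg_mul, h1, h2] at h3
    linarith

end Circ

open Circ in
/-- **An element of a group acting on the circle by `C¹` diffeomorphisms, a power of which has a
fixed point of multiplier `≠ ±1`, is charged.** -/
theorem circ_charged {G : Type u} [Group G] [MulAction G (AddCircle (1 : ℝ))] (F : G → ℝ → ℝ)
    (hF : ∀ g (t : ℝ), ((F g t : ℝ) : AddCircle (1 : ℝ)) = g • (t : AddCircle (1 : ℝ)))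
    (hF1 : ∀ g, ContDiff ℝ 1 (F g)) (hF0 : ∀ g t, deriv (F g) t ≠ 0) (x : G) {k : ℕ}
    (hk : 0 < k) (t0 : ℝ) (hfix : x ^ k • (t0 : AddCircle (1 : ℝ)) = t0)
    (hne : |deriv (F (x ^ k)) t0| ≠ 1) : Charged x := by
  classical
  have d : Dat F := ⟨hF, hF1, hF0⟩
  set b : ℝ := lg F (x ^ k) t0 with hbdef
  have hb : b ≠ 0 := by
    rw [hbdef]
    unfold lg
    refine Real.log_ne_zero_of_pos_of_ne_one (abs_pos.2 (hF0 _ _)) hne
  have hfin := d.fin (x ^ k) hb
  set T : Finset (AddCircle (1 : ℝ)) := hfin.toFinset with hT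
  have hmem : ∀ s, s ∈ T ↔ s ∈ Ex F (x ^ k) b := fun s => by rw [hT, Set.Finite.mem_toFinset]
  have h0 : (t0 : AddCircle (1 : ℝ)) ∈ T := (hmem _).2 ⟨hfix, d.Lg_coe _ _⟩
  set φ : G → ℝ := fun g => ∑ s ∈ T, Lg F g s with hφ
  have hmul : ∀ g h, Commute g x → Commute h x → φ (g * h) = φ g + φ h := by
    intro g h _ hh
    have h1 : φ (g * h) = ∑ s ∈ T, Lg F g (h • s) + φ h := by
      rw [hφ]
      simp only
      rw [← Finset.sum_add_distrib]
      exact Finset.sum_congr rfl fun s _ => d.Lg_mul g h s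
    rw [h1]
    congr 1
    refine Finset.sum_nbij' (fun s => h • s) (fun s => h⁻¹ • s) ?_ ?_ ?_ ?_ ?_
    · intro s hs
      exact (hmem _).2 (d.smul_mem hh ((hmem _).1 hs))
    · intro s hs
      exact (hmem _).2 (d.smul_mem hh.inv_left ((hmem _).1 hs))
    · intro s _
      exact inv_smul_smul h s
    · intro s _
      exact smul_inv_smul h s
    · intro s _
      rfl
  have hpow : ∀ m : ℕ, φ (x ^ m) = m * φ x := by
    intro m
    induction m with
    | zero =>
      have h1 := hmul 1 1 (Commute.one_left x) (Commute.one_left x)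
      rw [mul_one] at h1
      rw [pow_zero, Nat.cast_zero, zero_mul]
      linarith
    | succ m ih =>
      rw [pow_succ, hmul _ _ ((Commute.refl x).pow_left m) (Commute.refl x), ih]
      push_cast
      ring
  refine ⟨fun g => T.card * Mx F g, φ, ?_, hmul, ?_, ?_⟩
  · intro g h
    have := mul_le_mul_of_nonneg_left (d.Mx_mul g h) (Nat.cast_nonneg T.card)
    simp only
    linarith
  · intro g _
    have h1 : φ g ≤ ∑ _s ∈ T, Mx F g :=
      Finset.sum_le_sum fun s _ => (le_abs_self _).trans (d.le_Mx g s)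
    rw [Finset.sum_const, nsmul_eq_mul] at h1
    exact h1
  · intro h1
    have h2 := hpow k
    rw [h1, mul_zero] at h2
    have h3 : φ (x ^ k) = T.card * b := by
      rw [hφ]
      simp only
      rw [Finset.sum_congr rfl fun s hs => ((hmem s).1 hs).2, Finset.sum_const, nsmul_eq_mul]
    rw [h3] at h2
    rcases mul_eq_zero.1 h2 with h4 | h4
    · have : T.card = 0 := by exact_mod_cast h4
      rw [Finset.card_eq_zero] at this
      rw [this] at h0
      simp at h0
    · exact hb h4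

end Vale.Agent.P184.M
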