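import Vale.Agent.P184.Defs

set_option linter.all false

/-!
# Commensurated subsets

`G` acts on a set `S` and commensurates the subset `A`. If the cardinality of the symmetric
difference of `x ^ n • A` and `A` is unbounded, then `x` is charged.
-/

noncomputable section

namespace Vale.Agent.P184.M

universe u v

/-- The centralizer of `x` has a real character bounded by `D` and not vanishing at `x`. -/
def CharLe {G : Type u} [Group G] (x : G) (D : G → ℝ) : Prop :=
  ∃ φ : G → ℝ, (∀ g h, Commute g x → Commute h x → φ (g * h) = φ g + φ h) ∧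
    (∀ g, Commute g x → φ g ≤ D g) ∧ φ x ≠ 0

theorem CharLe.charged {G : Type u} [Group G] {x : G} {D : G → ℝ} (h : CharLe x D)
    (hD : ∀ g h, D (g * h) ≤ D g + D h) : Charged x := by
  obtain ⟨φ, h1, h2, h3⟩ := h
  exact ⟨D, φ, hD, h1, h2, h3⟩

theorem CharLe.mono {G : Type u} [Group G] {x : G} {D D' : G → ℝ} (h : CharLe x D)
    (hD : ∀ g, Commute g x → D g ≤ D' g) : CharLe x D' := by
  obtain ⟨φ, h1, h2, h3⟩ := h
  exact ⟨φ, h1, fun g hg => (h2 g hg).trans (hD g hg), h3⟩

variable {G : Type u} [Group G] {S : Type v} [MulAction G S]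

/-- The set of the points `s` such that exactly one of `s`, `g • s` belongs to `A`. -/
def dset (A : Set S) (g : G) : Set S := {s | ¬ (s ∈ A ↔ g • s ∈ A)}

/-- The indicator function of `A`. -/
def ind (A : Set S) (s : S) : ℝ := by
  classical exact if s ∈ A then 1 else 0

theorem ind_mem {A : Set S} {s : S} (h : s ∈ A) : ind A s = 1 := by
  classical
  simp [ind, h]

theorem ind_not_mem {A : Set S} {s : S} (h : s ∉ A) : ind A s = 0 := by
  classical
  simp [ind, h]

theorem ind_diff_abs (A : Set S) (s t : S) : |ind A s - ind A t| ≤ 1 := by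
  by_cases h1 : s ∈ A <;> by_cases h2 : t ∈ A <;> simp [ind_mem, ind_not_mem, h1, h2]

theorem ind_eq_of {A : Set S} {s t : S} (h : s ∈ A ↔ t ∈ A) : ind A s = ind A t := by
  classical
  simp [ind, h]

theorem dset_mul (A : Set S) (g h : G) :
    dset A (g * h) ⊆ dset A h ∪ (fun s => h • s) ⁻¹' dset A g := by
  intro s hs
  simp only [dset, Set.mem_setOf_eq, mul_smul, Set.mem_union, Set.mem_preimage] at hs ⊢
  by_contra hcon
  push Not at hcon
  tauto

/-- The length function. -/
def clen (A : Set S) (g : G) : ℝ := (dset A g).ncard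

theorem clen_mul {A : Set S} (hA : ∀ g : G, (dset A g).Finite) (g h : G) :
    clen A (g * h) ≤ clen A g + clen A h := by
  have h1 : ((fun s => h • s) ⁻¹' dset A g).Finite :=
    (hA g).preimage (MulAction.injective h).injOn
  have h2 := Set.ncard_le_ncard (dset_mul A g h) ((hA h).union h1)
  have h3 := Set.ncard_union_le (dset A h) ((fun s => h • s) ⁻¹' dset A g)
  have h4 : ((fun s : S => h • s) ⁻¹' dset A g).ncard = (dset A g).ncard := by
    have h5 := Set.ncard_image_of_injective ((fun s : S => h • s) ⁻¹' dset A g)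
      (MulAction.injective h (β := S))
    rw [Set.image_preimage_eq _ (MulAction.surjective h)] at h5
    exact h5.symm
  unfold clen
  rw [h4] at h3
  have h6 : (dset A (g * h)).ncard ≤ (dset A g).ncard + (dset A h).ncard := by omega
  exact_mod_cast h6

variable (x : G) (A : Set S)

/-- The points whose orbit under `x` comes from outside of `A` and ends in `A`. -/
def Asc : Set S :=
  {s | (∃ N : ℕ, ∀ n : ℕ, N ≤ n → x ^ n • s ∈ A) ∧ ∃ N : ℕ, ∀ n : ℕ, N ≤ n → x⁻¹ ^ n • s ∉ A}

variable {x A}

theorem Asc.inj {s : S} (hs : s ∈ Asc x A) : Function.Injective fun n : ℤ => x ^ n • s := by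
  have key : ∀ m : ℤ, 0 < m → x ^ m • s ≠ s := by
    intro m hm hms
    obtain ⟨⟨N, hN⟩, N', hN'⟩ := hs
    obtain ⟨k, rfl⟩ := Int.eq_ofNat_of_zero_le hm.le
    have hk : 0 < k := by exact_mod_cast hm
    rw [zpow_natCast] at hms
    have h1 : ∀ j : ℕ, (x ^ k) ^ j • s = s := by
      intro j
      induction j with
      | zero => simp
      | succ j ih => rw [pow_succ, mul_smul, hms, ih]
    have h2 : ∀ j : ℕ, (x⁻¹ ^ k) ^ j • s = s := by
      intro j
      have h3 : (x⁻¹ ^ k) ^ j = ((x ^ k) ^ j)⁻¹ := by rw [inv_pow, inv_pow]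
      rw [h3, inv_smul_eq_iff, h1]
    have h3 := hN (k * N) (Nat.le_mul_of_pos_left N hk)
    have h4 := hN' (k * N') (Nat.le_mul_of_pos_left N' hk)
    rw [pow_mul, h1] at h3
    rw [pow_mul, h2] at h4
    exact h4 h3
  intro m n hmn
  simp only at hmn
  by_contra hne
  rcases lt_or_gt_of_ne hne with h | h
  · refine key (n - m) (by omega) ?_
    have h5 : x ^ (n - m) • s = (x ^ m)⁻¹ • x ^ n • s := by
      rw [← mul_smul, ← zpow_neg, ← zpow_add]
      congr 2
      ring
    rw [h5, ← hmn, inv_smul_smul]
  · refine key (m - n) (by omega) ?_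
    have h5 : x ^ (m - n) • s = (x ^ n)⁻¹ • x ^ m • s := by
      rw [← mul_smul, ← zpow_neg, ← zpow_add]
      congr 2
      ring
    rw [h5, hmn, inv_smul_smul]

/-- Along an injective sequence, the points leave a finite set. -/
theorem eventually_not_mem {f : ℕ → S} (hf : Function.Injective f) {F : Set S} (hF : F.Finite) :
    ∃ N, ∀ n, N ≤ n → f n ∉ F := by
  have h1 : (f ⁻¹' F).Finite := hF.preimage hf.injOn
  obtain ⟨N, hN⟩ := h1.bddAbove
  refine ⟨N + 1, fun n hn hmem => ?_⟩
  have := hN (show n ∈ f ⁻¹' F from hmem)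
  omega

theorem Asc.smul {c : G} (hc : Commute c x) (hA : (dset A c).Finite) {s : S}
    (hs : s ∈ Asc x A) : c • s ∈ Asc x A := by
  have hinj := Asc.inj hs
  have hp : Function.Injective fun n : ℕ => x ^ n • s := by
    intro m n hmn
    have := @hinj (m : ℤ) (n : ℤ) (by simpa using hmn)
    exact_mod_cast this
  have hm : Function.Injective fun n : ℕ => x⁻¹ ^ n • s := by
    intro m n hmn
    have := @hinj (-(m : ℤ)) (-(n : ℤ)) (by simpa [zpow_neg] using hmn)
    omega
  obtain ⟨N1, h1⟩ := eventually_not_mem hp hA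
  obtain ⟨N2, h2⟩ := eventually_not_mem hm hA
  obtain ⟨⟨N, hN⟩, N', hN'⟩ := hs
  refine ⟨⟨max N N1, fun n hn => ?_⟩, ⟨max N' N2, fun n hn => ?_⟩⟩
  · have h3 := h1 n (le_trans (le_max_right _ _) hn)
    have h4 := hN n (le_trans (le_max_left _ _) hn)
    simp only [dset, Set.mem_setOf_eq, not_not] at h3
    have h5 : x ^ n • c • s = c • x ^ n • s := by
      rw [← mul_smul, ← mul_smul, (hc.pow_right n).eq]
    rw [h5]
    exact h3.1 h4
  · have h3 := h2 n (le_trans (le_max_right _ _) hn)
    have h4 := hN' n (le_trans (le_max_left _ _) hn)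
    simp only [dset, Set.mem_setOf_eq, not_not] at h3
    have h5 : x⁻¹ ^ n • c • s = c • x⁻¹ ^ n • s := by
      rw [← mul_smul, ← mul_smul, (hc.inv_right.pow_right n).eq]
    rw [h5]
    exact fun h => h4 (h3.2 h)

theorem Asc.smul_iff {c : G} (hc : Commute c x) (hA : ∀ g : G, (dset A g).Finite) {s : S} :
    c • s ∈ Asc x A ↔ s ∈ Asc x A := by
  constructor
  · intro h
    have h1 := Asc.smul (c := c⁻¹) hc.inv_left (hA _) h
    rwa [inv_smul_smul] at h1
  · exact Asc.smul hc (hA _)

/-- The flow of `g` through the ascending points. -/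
def flow (x : G) (A : Set S) (g : G) : ℝ :=
  ∑ᶠ s : S, ind (Asc x A) s * (ind A (g • s) - ind A s)

theorem flow_support {A : Set S} (B : Set S) (g : G) :
    (Function.support fun s => ind B s * (ind A (g • s) - ind A s)) ⊆ dset A g := by
  intro s hs
  by_contra hcon
  simp only [dset, Set.mem_setOf_eq, not_not] at hcon
  apply hs
  simp only
  rw [ind_eq_of hcon, sub_self, mul_zero]

theorem flow_mul (hA : ∀ g : G, (dset A g).Finite) {g h : G} (hg : Commute g x)
    (hh : Commute h x) : flow x A (g * h) = flow x A g + flow x A h := by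
  have hf1 : (Function.support fun s => ind (Asc x A) s * (ind A (h • s) - ind A s)).Finite :=
    (hA h).subset (flow_support _ h)
  have hf2 : (Function.support fun s => ind (Asc x A) s * (ind A (g • s) - ind A s)).Finite :=
    (hA g).subset (flow_support _ g)
  have hf3 : (Function.support fun s =>
      ind (Asc x A) (h • s) * (ind A (g • (h • s)) - ind A (h • s))).Finite := by
    have h1 : (Function.support fun s =>
        ind (Asc x A) (h • s) * (ind A (g • (h • s)) - ind A (h • s))) ⊆
        (fun s => h • s) ⁻¹' (Function.support fun s =>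
          ind (Asc x A) s * (ind A (g • s) - ind A s)) := fun s hs => hs
    exact (hf2.preimage (MulAction.injective h).injOn).subset h1
  have h2 : flow x A g = ∑ᶠ s : S, ind (Asc x A) (h • s) * (ind A (g • (h • s)) - ind A (h • s)) := by
    unfold flow
    exact (finsum_comp_equiv (MulAction.toPerm h)
      (f := fun s => ind (Asc x A) s * (ind A (g • s) - ind A s))).symm
  rw [h2]
  unfold flow
  rw [← finsum_add_distrib hf3 hf1]
  refine finsum_congr fun s => ?_
  have h3 : ind (Asc x A) (h • s) = ind (Asc x A) s := ind_eq_of (Asc.smul_iff hh hA)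
  rw [h3, mul_smul]
  ring

theorem finsum_abs_le {f : S → ℝ} {F : Set S} (hF : F.Finite) (hsub : Function.support f ⊆ F)
    (hf : ∀ s, |f s| ≤ 1) : |∑ᶠ s, f s| ≤ F.ncard := by
  classical
  rw [finsum_eq_sum_of_support_subset f (s := hF.toFinset) (by simpa using hsub)]
  refine (Finset.abs_sum_le_sum_abs _ _).trans ?_
  refine (Finset.sum_le_sum fun s _ => hf s).trans ?_
  rw [Finset.sum_const, Set.ncard_eq_toFinset_card F hF, nsmul_eq_mul, mul_one]

theorem flow_le (hA : ∀ g : G, (dset A g).Finite) (g : G) : |flow x A g| ≤ clen A g := by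
  refine finsum_abs_le (hA g) (flow_support _ g) fun s => ?_
  rw [abs_mul]
  have h1 : |ind (Asc x A) s| ≤ 1 := by
    by_cases h : s ∈ Asc x A <;> simp [ind_mem, ind_not_mem, h]
  have h2 := ind_diff_abs A (g • s) s
  calc |ind (Asc x A) s| * |ind A (g • s) - ind A s| ≤ 1 * 1 :=
        mul_le_mul h1 h2 (abs_nonneg _) zero_le_one
    _ = 1 := one_mul 1

/-- The points which stay in `A`. -/
def Stay (x : G) (A : Set S) : Set S := {s | ∀ n : ℕ, x ^ n • s ∈ A}

theorem stay_finite (hA : (dset A x).Finite) :
    {s | s ∈ Asc x A ∧ s ∈ A ∧ s ∉ Stay x A}.Finite := by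
  classical
  -- the exit points
  have h1 : {s | s ∈ Asc x A ∧ s ∈ A ∧ s ∉ Stay x A} ⊆
      ⋃ t ∈ dset A x ∩ Asc x A, {s | ∃ n : ℕ, s = x⁻¹ ^ n • t ∧ s ∈ A} := by
    rintro s ⟨h1, h2, h3⟩
    obtain ⟨⟨N, hN⟩, -⟩ := id h1
    simp only [Stay, Set.mem_setOf_eq, not_forall] at h3
    obtain ⟨n0, hn0⟩ := h3
    have h4 : ∃ n, x ^ n • s ∉ A ∧ x ^ (n + 1) • s ∈ A := by
      by_contra hcon
      push Not at hcon
      have h5 : ∀ k, x ^ (n0 + k) • s ∉ A := by
        intro k
        induction k with
        | zero => exact hn0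
        | succ k ih => exact hcon _ ih
      exact h5 N (hN (n0 + N) (by omega))
    obtain ⟨n, hn1, hn2⟩ := h4
    have hmem : x ^ n • s ∈ Asc x A := by
      constructor
      · refine ⟨N, fun m hm => ?_⟩
        rw [← mul_smul, ← pow_add]
        exact hN _ (by omega)
      · obtain ⟨-, N', hN'⟩ := h1
        refine ⟨N' + n, fun m hm => ?_⟩
        have h6 : x⁻¹ ^ m • x ^ n • s = x⁻¹ ^ (m - n) • s := by
          have h7 : m = (m - n) + n := by omega
          rw [← mul_smul]
          congr 1
          conv_lhs => rw [h7, pow_add]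
          rw [mul_assoc, inv_pow x n, inv_mul_cancel, mul_one]
        rw [h6]
        exact hN' _ (by omega)
    refine Set.mem_biUnion (x := x ^ n • s) ⟨?_, hmem⟩ ?_
    · simp only [dset, Set.mem_setOf_eq]
      rw [← mul_smul, ← pow_succ']
      tauto
    · refine ⟨n, ?_, h2⟩
      rw [← mul_smul, inv_pow, inv_mul_cancel, one_smul]
  refine Set.Finite.subset (Set.Finite.biUnion (hA.inter_of_left _) ?_) h1
  rintro t ⟨-, ht⟩
  obtain ⟨-, N', hN'⟩ := ht
  refine ((Finset.range N').finite_toSet.image fun n => x⁻¹ ^ n • t).subset ?_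
  rintro s ⟨n, rfl, hs⟩
  refine ⟨n, ?_, rfl⟩
  simp only [Finset.coe_range, Set.mem_Iio]
  by_contra hcon
  exact hN' n (by omega) hs

theorem flow_pos (hA : ∀ g : G, (dset A g).Finite) (hne : (Asc x A).Nonempty) :
    0 < flow x A x := by
  classical
  -- replace `A` by the points which stay
  set E : Set S := Asc x A ∩ Stay x A with hE
  have hEsub : ∀ s, s ∈ Stay x A → s ∈ A := fun s hs => by simpa using hs 0
  let r : S → ℝ := fun s => ind (Asc x A) s * (ind A s - ind (Stay x A) s)
  have hr : (Function.support r).Finite := by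
    refine (stay_finite (x := x) (hA x)).subset ?_
    intro s hs
    have h1 : s ∈ Asc x A := by
      by_contra h
      exact hs (by simp [r, ind_not_mem h])
    refine ⟨h1, ?_⟩
    by_cases h2 : s ∈ A
    · refine ⟨h2, fun h3 => ?_⟩
      exact hs (by simp [r, ind_mem h2, ind_mem h3])
    · exact absurd (by simp [r, ind_not_mem h2, ind_not_mem fun h => h2 (hEsub s h)]) hs
  have hcx : Commute x x := Commute.refl x
  have hr2 : ∑ᶠ s, r (x • s) = ∑ᶠ s, r s :=
    finsum_comp_equiv (MulAction.toPerm x) (f := r)
  have hrx : (Function.support fun s => r (x • s)).Finite :=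
    (hr.preimage (MulAction.injective x).injOn).subset fun s hs => hs
  have h0 : (Function.support fun s => ind (Asc x A) s * (ind A (x • s) - ind A s)).Finite :=
    (hA x).subset (flow_support _ x)
  -- the flow in terms of the staying points
  let q : S → ℝ := fun s =>
    ind (Asc x A) s * (ind (Stay x A) (x • s) - ind (Stay x A) s)
  have hq : ∀ s, q s = ind (Asc x A) s * (ind A (x • s) - ind A s) - (r (x • s) - r s) := by
    intro s
    have h3 : ind (Asc x A) (x • s) = ind (Asc x A) s := ind_eq_of (Asc.smul_iff hcx hA)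
    simp only [q, r, h3]
    ring
  have hqf : (Function.support q).Finite := by
    have h1 : Function.support q ⊆
        (Function.support fun s => ind (Asc x A) s * (ind A (x • s) - ind A s)) ∪
          ((Function.support fun s => r (x • s)) ∪ Function.support r) := by
      intro s hs
      by_contra hcon
      simp only [Set.mem_union, Function.mem_support, not_or, not_not] at hcon
      apply hs
      rw [hq, hcon.1, hcon.2.1, hcon.2.2]
      ring
    exact (h0.union (hrx.union hr)).subset h1
  have hflow : flow x A x = ∑ᶠ s, q s := by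
    have h1 : (fun s => q s) = fun s =>
        ind (Asc x A) s * (ind A (x • s) - ind A s) - (r (x • s) - r s) := funext hq
    rw [h1, finsum_sub_distrib h0, finsum_sub_distrib hrx hr, hr2, sub_self, sub_zero]
    · rfl
    · refine (hrx.union hr).subset ?_
      intro s hs
      by_contra hcon
      simp only [Set.mem_union, Function.mem_support, not_or, not_not] at hcon
      apply hs
      simp only
      rw [hcon.1, hcon.2, sub_zero]
  rw [hflow]
  have hnn : ∀ s, 0 ≤ q s := by
    intro s
    by_cases h1 : s ∈ Asc x A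
    · simp only [q, ind_mem h1, one_mul]
      by_cases h2 : s ∈ Stay x A
      · have h3 : x • s ∈ Stay x A := by
          intro n
          have := h2 (n + 1)
          rwa [pow_succ, mul_smul] at this
        rw [ind_mem h2, ind_mem h3, sub_self]
      · rw [ind_not_mem h2, sub_zero]
        by_cases h3 : x • s ∈ Stay x A
        · rw [ind_mem h3]
          exact zero_le_one
        · rw [ind_not_mem h3]
    · simp [q, ind_not_mem h1]
  obtain ⟨s, hs⟩ := hne
  -- a crossing point
  obtain ⟨⟨N, hN⟩, N', hN'⟩ := id hs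
  have hcross : ∃ t ∈ Asc x A, t ∉ Stay x A ∧ x • t ∈ Stay x A := by
    by_contra hcon
    push Not at hcon
    have h1 : ∀ k : ℕ, ∀ t, t ∈ Asc x A → t ∉ Stay x A → x ^ k • t ∉ Stay x A := by
      intro k
      induction k with
      | zero => intro t _ ht; simpa using ht
      | succ k ih =>
        intro t ht1 ht2
        rw [pow_succ', mul_smul]
        refine hcon _ ?_ (ih t ht1 ht2)
        exact (Asc.smul_iff ((Commute.refl x).pow_left k) hA).2 ht1
    have h2 : x⁻¹ ^ N' • s ∉ Stay x A := by
      intro h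
      exact hN' N' le_rfl (hEsub _ h)
    have h3 : x⁻¹ ^ N' • s ∈ Asc x A :=
      (Asc.smul_iff (((Commute.refl x).inv_left).pow_left N') hA).2 hs
    have h4 := h1 (N' + N) _ h3 h2
    apply h4
    intro n
    have h5 : x ^ n • x ^ (N' + N) • x⁻¹ ^ N' • s = x ^ (n + N) • s := by
      rw [← mul_smul, ← mul_smul]
      congr 1
      rw [inv_pow, add_comm N' N, pow_add x N N']
      group
    rw [h5]
    exact hN _ (by omega)
  obtain ⟨t, ht1, ht2, ht3⟩ := hcross
  have hqt : q t = 1 := by
    simp only [q, ind_mem ht1, ind_mem ht3, ind_not_mem ht2]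
    norm_num
  exact finsum_pos hnn ⟨t, by rw [hqt]; exact one_pos⟩ hqf

/-- Ascending points: `x` is charged. -/
theorem charged_of_asc (hA : ∀ g : G, (dset A g).Finite) (hne : (Asc x A).Nonempty) :
    CharLe x (clen A) :=
  ⟨flow x A, fun g h hg hh => flow_mul hA hg hh,
    fun g _ => (le_abs_self _).trans (flow_le hA g), (flow_pos hA hne).ne'⟩

theorem dset_compl (A : Set S) (g : G) : dset Aᶜ g = dset A g := by
  ext s
  simp only [dset, Set.mem_setOf_eq, Set.mem_compl_iff]
  tauto

/-- Either `x` is charged, or the points of `A` outside of a finite set `R` stay in `A` or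
pass through `R`. -/
theorem charged_or (x : G) (A : Set S) (hA : ∀ g : G, (dset A g).Finite) :
    CharLe x (clen A) ∨ ∃ R : Set S, R.Finite ∧ ∀ s, s ∉ R → ∀ n : ℤ,
      (s ∈ A ↔ x ^ n • s ∈ A) ∨ x ^ n • s ∈ R := by
  classical
  by_cases h1 : (Asc x A).Nonempty
  · exact Or.inl (charged_of_asc hA h1)
  by_cases h2 : (Asc x Aᶜ).Nonempty
  · have h3 : clen (Aᶜ) = (clen A : G → ℝ) := by
      funext g
      rw [clen, clen, dset_compl]
    refine Or.inl ?_
    rw [← h3]
    exact charged_of_asc (fun g => by rw [dset_compl]; exact hA g) h2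
  right
  rw [Set.not_nonempty_iff_eq_empty] at h1 h2
  -- finite exceptional sets in the orbits of the elements of `dset A x`
  have key : ∀ t : S, ∃ R : Set S, R.Finite ∧ ∃ ε : Prop, ∀ n : ℤ, x ^ n • t ∉ R →
      (x ^ n • t ∈ A ↔ ε) := by
    intro t
    by_cases hinj : Function.Injective fun n : ℤ => x ^ n • t
    · have hp : Function.Injective fun n : ℕ => x ^ n • t := by
        intro m n hmn
        have := @hinj (m : ℤ) (n : ℤ) (by simpa using hmn)
        exact_mod_cast this
      have hm : Function.Injective fun n : ℕ => x⁻¹ ^ n • t := by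
        intro m n hmn
        have := @hinj (-(m : ℤ)) (-(n : ℤ)) (by simpa [zpow_neg] using hmn)
        omega
      obtain ⟨N1, h3⟩ := eventually_not_mem hp (hA x)
      obtain ⟨N2, h4⟩ := eventually_not_mem hm (hA x⁻¹)
      have h5 : ∀ k : ℕ, (x ^ (N1 + k) • t ∈ A ↔ x ^ N1 • t ∈ A) := by
        intro k
        induction k with
        | zero => rfl
        | succ k ih =>
          rw [← ih]
          have h6 := h3 (N1 + k) (by omega)
          simp only [dset, Set.mem_setOf_eq, not_not] at h6
          rw [← mul_smul, ← pow_succ'] at h6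
          exact h6.symm
      have h6 : ∀ k : ℕ, (x⁻¹ ^ (N2 + k) • t ∈ A ↔ x⁻¹ ^ N2 • t ∈ A) := by
        intro k
        induction k with
        | zero => rfl
        | succ k ih =>
          rw [← ih]
          have h7 := h4 (N2 + k) (by omega)
          simp only [dset, Set.mem_setOf_eq, not_not] at h7
          rw [← mul_smul, ← pow_succ'] at h7
          exact h7.symm
      -- the two limits agree
      have h7 : (x ^ N1 • t ∈ A ↔ x⁻¹ ^ N2 • t ∈ A) := by
        constructor
        · intro h8
          by_contra h9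
          have h10 : t ∈ Asc x A := by
            refine ⟨⟨N1, fun n hn => ?_⟩, ⟨N2, fun n hn => ?_⟩⟩
            · have := (h5 (n - N1)).2 h8
              rwa [show N1 + (n - N1) = n by omega] at this
            · intro h11
              have h12 := (h6 (n - N2)).1
              rw [show N2 + (n - N2) = n by omega] at h12
              exact h9 (h12 h11)
          rw [h1] at h10
          exact h10
        · intro h8
          by_contra h9
          have h10 : t ∈ Asc x Aᶜ := by
            refine ⟨⟨N1, fun n hn => ?_⟩, ⟨N2, fun n hn => ?_⟩⟩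
            · intro h11
              have h12 := (h5 (n - N1)).1
              rw [show N1 + (n - N1) = n by omega] at h12
              exact h9 (h12 h11)
            · have := (h6 (n - N2)).2 h8
              rw [show N2 + (n - N2) = n by omega] at this
              exact fun h => h this
          rw [h2] at h10
          exact h10
      refine ⟨(fun n : ℤ => x ^ n • t) '' (Set.Icc (-(N2 : ℤ)) N1),
        (Set.finite_Icc _ _).image _, x ^ N1 • t ∈ A, fun n hn => ?_⟩
      have h8 : n ∉ Set.Icc (-(N2 : ℤ)) N1 := fun h => hn ⟨n, h, rfl⟩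
      rw [Set.mem_Icc, not_and_or, not_le, not_le] at h8
      rcases h8 with h8 | h8
      · obtain ⟨k, hk⟩ := Int.eq_ofNat_of_zero_le (show 0 ≤ -n - N2 by omega)
        have h9 : n = -((N2 + k : ℕ) : ℤ) := by push_cast; omega
        have h10 : x ^ n • t = x⁻¹ ^ (N2 + k) • t := by
          rw [h9, zpow_neg, zpow_natCast, inv_pow]
        rw [h10, h6 k, h7]
      · obtain ⟨k, hk⟩ := Int.eq_ofNat_of_zero_le (show 0 ≤ n - N1 by omega)
        have h9 : n = ((N1 + k : ℕ) : ℤ) := by push_cast; omega
        have h10 : x ^ n • t = x ^ (N1 + k) • t := by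
          rw [h9, zpow_natCast]
        rw [h10, h5 k]
    · -- finite orbit
      refine ⟨Set.range fun n : ℤ => x ^ n • t, ?_, True, fun n hn => absurd ⟨n, rfl⟩ hn⟩
      have h3 : ∃ m : ℤ, 0 < m ∧ x ^ m • t = t := by
        simp only [Function.Injective, not_forall] at hinj
        obtain ⟨a, b, hab, hne⟩ := hinj
        rcases lt_or_gt_of_ne hne with h | h
        · refine ⟨b - a, by omega, ?_⟩
          have h5 : x ^ (b - a) • t = (x ^ a)⁻¹ • x ^ b • t := by
            rw [← mul_smul, ← zpow_neg, ← zpow_add]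
            congr 2
            ring
          rw [h5, ← hab, inv_smul_smul]
        · refine ⟨a - b, by omega, ?_⟩
          have h5 : x ^ (a - b) • t = (x ^ b)⁻¹ • x ^ a • t := by
            rw [← mul_smul, ← zpow_neg, ← zpow_add]
            congr 2
            ring
          rw [h5, hab, inv_smul_smul]
      obtain ⟨m, hm, hmt⟩ := h3
      have h4 : ∀ k : ℤ, (x ^ m) ^ k • t = t := by
        intro k
        have h5 : x ^ m ∈ MulAction.stabilizer G t := hmt
        exact (MulAction.stabilizer G t).zpow_mem h5 k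
      refine ((Set.finite_Ico (0 : ℤ) m).image fun n : ℤ => x ^ n • t).subset ?_
      rintro _ ⟨n, rfl⟩
      refine ⟨n % m, ⟨Int.emod_nonneg _ hm.ne', Int.emod_lt_of_pos _ hm⟩, ?_⟩
      simp only
      conv_rhs => rw [← Int.emod_add_mul_ediv n m, zpow_add, zpow_mul, mul_smul, h4]
  choose R hR ε hε using key
  refine ⟨⋃ t ∈ dset A x, R t, (hA x).biUnion fun t _ => hR t, fun s hs n => ?_⟩
  by_cases h3 : x ^ n • s ∈ ⋃ t ∈ dset A x, R t
  · exact Or.inr h3
  left
  -- is there a change in the orbit?
  by_cases h4 : ∃ k : ℤ, x ^ k • s ∈ dset A x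
  · obtain ⟨k, hk⟩ := h4
    have h5 : x ^ (-k) • (x ^ k • s) = s := by
      rw [← mul_smul, ← zpow_add, neg_add_cancel, zpow_zero, one_smul]
    have h6 : x ^ (n - k) • (x ^ k • s) = x ^ n • s := by
      rw [← mul_smul, ← zpow_add, sub_add_cancel]
    have h7 := hε (x ^ k • s) (-k) (by
      rw [h5]
      exact fun h => hs (Set.mem_biUnion hk h))
    have h8 := hε (x ^ k • s) (n - k) (by
      rw [h6]
      exact fun h => h3 (Set.mem_biUnion hk h))
    rw [h5] at h7
    rw [h6] at h8
    rw [h7, h8]
  · push Not at h4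
    have h5 : ∀ k : ℤ, (x ^ k • s ∈ A ↔ x ^ (k + 1) • s ∈ A) := by
      intro k
      have h6 := h4 k
      simp only [dset, Set.mem_setOf_eq, not_not] at h6
      rw [← mul_smul, ← zpow_one_add, add_comm] at h6
      exact h6
    have h6 : ∀ k : ℤ, (s ∈ A ↔ x ^ k • s ∈ A) := by
      intro k
      induction k using Int.induction_on with
      | zero => simp
      | succ k ih => rw [ih, h5]
      | pred k ih =>
        rw [ih]
        have := h5 (-(k : ℤ) - 1)
        rw [sub_add_cancel] at this
        exact this.symm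
    exact h6 n

/-- The main theorem on commensurated subsets. -/
theorem charged_of_unbounded (x : G) (A : Set S) (hA : ∀ g : G, (dset A g).Finite)
    (hunb : ∀ N : ℕ, ∃ n : ℕ, N < (dset A (x ^ n)).ncard) : CharLe x (clen A) := by
  rcases charged_or x A hA with h | ⟨R, hR, h⟩
  · exact h
  exfalso
  obtain ⟨n, hn⟩ := hunb (R.ncard + R.ncard)
  have h1 : dset A (x ^ n) ⊆ R ∪ (fun s => x ^ n • s) ⁻¹' R := by
    intro s hs
    by_cases h2 : s ∈ R
    · exact Or.inl h2
    · right
      rcases h s h2 n with h3 | h3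
      · rw [zpow_natCast] at h3
        exact absurd h3 hs
      · rw [zpow_natCast] at h3
        exact h3
  have h2 : ((fun s : S => x ^ n • s) ⁻¹' R).ncard = R.ncard := by
    have h5 := Set.ncard_image_of_injective ((fun s : S => x ^ n • s) ⁻¹' R)
      (MulAction.injective (x ^ n) (β := S))
    rw [Set.image_preimage_eq _ (MulAction.surjective (x ^ n))] at h5
    exact h5.symm
  have h3 := Set.ncard_le_ncard h1
    (hR.union (hR.preimage (MulAction.injective (x ^ n)).injOn))
  have h4 := Set.ncard_union_le R ((fun s => x ^ n • s) ⁻¹' R)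
  omega

end Vale.Agent.P184.M
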