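import Vale.Agent.P184.R2.H270M.Stab

set_option linter.all false

/-!
# Cocycles with values in the isometries of a space satisfying the inequality of Bruhat and Tits
-/

noncomputable section

open MeasureTheory

namespace Vale.Agent.P184.M

universe u v w

section Midpoint

variable {Y : Type w} [MetricSpace Y]

theorem Mid.symm {p q m : Y} (h : Mid p q m) : Mid q p m := by
  intro z
  have := h z
  rw [dist_comm q p]
  linarith

/-- The midpoint map. -/
def mp (hY : ∀ p q : Y, ∃ m, Mid p q m) (a : Y × Y) : Y := (hY a.1 a.2).choose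

theorem mp_spec (hY : ∀ p q : Y, ∃ m, Mid p q m) (p q : Y) : Mid p q (mp hY (p, q)) :=
  (hY p q).choose_spec

theorem mp_dist (hY : ∀ p q : Y, ∃ m, Mid p q m) (a b : Y × Y) :
    dist (mp hY a) (mp hY b) ≤ dist a b := by
  obtain ⟨p, q⟩ := a
  obtain ⟨r, s⟩ := b
  have h1 := mid_mid (mp_spec hY p q) (mp_spec hY r q).symm
  have h2 := mid_mid (mp_spec hY r q).symm.symm.symm (mp_spec hY r s)
  have h3 := dist_triangle (mp hY (p, q)) (mp hY (r, q)) (mp hY (r, s))
  have h4 : dist p r ≤ dist (p, q) (r, s) := by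
    rw [Prod.dist_eq]
    exact le_max_left _ _
  have h5 : dist q s ≤ dist (p, q) (r, s) := by
    rw [Prod.dist_eq]
    exact le_max_right _ _
  linarith

theorem mp_continuous (hY : ∀ p q : Y, ∃ m, Mid p q m) : Continuous (mp hY) :=
  LipschitzWith.continuous (K := 1) (LipschitzWith.of_dist_le_mul fun a b => by
    simpa using mp_dist hY a b)

end Midpoint

section Field

variable {G : Type u} [Group G] {S : Type v} [MeasurableSpace S] [MulAction G S]
  {Y : Type w} [MetricSpace Y] [SecondCountableTopology Y] [MeasurableSpace Y] [BorelSpace Y]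

/-- An isometric cocycle. -/
structure Fld (μ : Measure S) (β : G → S → Y → Y) (o : Y) : Prop where
  mp : ∀ g : G, MeasurePreserving (fun s : S => g • s) μ μ
  one : ∀ s y, β 1 s y = y
  mul : ∀ g h s y, β (g * h) s y = β g (h • s) (β h s y)
  iso : ∀ g s a b, dist (β g s a) (β g s b) = dist a b
  meas : ∀ g, Measurable fun q : S × Y => β g q.1 q.2
  int : ∀ g, Integrable (fun s => dist o (β g s o) ^ 2) μ

variable {μ : Measure S} {β : G → S → Y → Y} {o : Y}

/-- The space of square integrable maps. -/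
def L2 (h : Fld μ β o) : Type (max v w) :=
  {f : S → Y // Measurable f ∧ Integrable (fun s => dist o (f s) ^ 2) μ}

namespace L2

variable {h : Fld μ β o}

theorem meas_dist {f f' : S → Y} (hf : Measurable f) (hf' : Measurable f') :
    Measurable fun s => dist (f s) (f' s) := hf.dist hf'

theorem int_sq (f f' : L2 h) : Integrable (fun s => dist (f.1 s) (f'.1 s) ^ 2) μ := by
  refine Integrable.mono' ((f.2.2.const_mul 2).add (f'.2.2.const_mul 2))
    ((meas_dist f.2.1 f'.2.1).pow_const 2).aestronglyMeasurable (ae_of_all _ fun s => ?_)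
  rw [Real.norm_of_nonneg (sq_nonneg _)]
  have h1 := dist_triangle_left (f.1 s) (f'.1 s) o
  have h2 : (0 : ℝ) ≤ dist (f.1 s) (f'.1 s) := dist_nonneg
  have h3 : dist (f.1 s) (f'.1 s) ^ 2 ≤ (dist o (f.1 s) + dist o (f'.1 s)) ^ 2 :=
    pow_le_pow_left₀ h2 h1 2
  simp only [Pi.add_apply]
  nlinarith [sq_nonneg (dist o (f.1 s) - dist o (f'.1 s))]

theorem memLp (f f' : L2 h) : MemLp (fun s => dist (f.1 s) (f'.1 s)) 2 μ := by
  rw [memLp_two_iff_integrable_sq (meas_dist f.2.1 f'.2.1).aestronglyMeasurable]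
  exact int_sq f f'

instance : PseudoMetricSpace (L2 h) where
  dist f f' := (eLpNorm (fun s => dist (f.1 s) (f'.1 s)) 2 μ).toReal
  dist_self f := by simp
  dist_comm f f' := by simp only [dist_comm]
  dist_triangle f f' f'' := by
    rw [← ENNReal.toReal_add (memLp f f').eLpNorm_ne_top (memLp f' f'').eLpNorm_ne_top]
    refine ENNReal.toReal_mono (ENNReal.add_ne_top.2
      ⟨(memLp f f').eLpNorm_ne_top, (memLp f' f'').eLpNorm_ne_top⟩) ?_
    refine le_trans (eLpNorm_mono_real (g := fun s => dist (f.1 s) (f'.1 s) +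
      dist (f'.1 s) (f''.1 s)) fun s => ?_)
      (eLpNorm_add_le (memLp f f').aestronglyMeasurable (memLp f' f'').aestronglyMeasurable
        one_le_two)
    rw [Real.norm_of_nonneg dist_nonneg]
    exact dist_triangle _ _ _

theorem dist_sq (f f' : L2 h) : dist f f' ^ 2 = ∫ s, dist (f.1 s) (f'.1 s) ^ 2 ∂μ := by
  have h1 : dist f f' = (eLpNorm (fun s => dist (f.1 s) (f'.1 s)) 2 μ).toReal := rfl
  have h2 := (memLp f f').eLpNorm_eq_integral_rpow_norm two_ne_zero ENNReal.ofNat_ne_top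
  rw [h1, h2, ENNReal.toReal_ofReal (Real.rpow_nonneg (integral_nonneg fun s =>
    Real.rpow_nonneg (norm_nonneg _) _) _)]
  simp only [ENNReal.toReal_ofNat, Real.rpow_ofNat]
  rw [← Real.rpow_natCast, ← Real.rpow_mul (integral_nonneg fun s => sq_nonneg _)]
  simp [abs_of_nonneg]

theorem dist_eq (f f' : L2 h) : dist f f' = √(∫ s, dist (f.1 s) (f'.1 s) ^ 2 ∂μ) := by
  rw [← dist_sq, Real.sqrt_sq dist_nonneg]

variable (h) in
/-- The constant map. -/
def base : L2 h := ⟨fun _ => o, measurable_const, by simp⟩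

theorem smul_meas (h : Fld μ β o) (g : G) {f : S → Y} (hf : Measurable f) :
    Measurable fun s => β g (g⁻¹ • s) (f (g⁻¹ • s)) :=
  (h.meas g).comp ((h.mp g⁻¹).measurable.prodMk (hf.comp (h.mp g⁻¹).measurable))

instance : MulAction G (L2 h) where
  smul g f := ⟨fun s => β g (g⁻¹ • s) (f.1 (g⁻¹ • s)), smul_meas h g f.2.1, by
    have h1 : Integrable (fun s : S => dist o (β g (g⁻¹ • s) o) ^ 2) μ :=
      (h.mp g⁻¹).integrable_comp_of_integrable (h.int g)
    have h2 : Integrable (fun s : S => dist o (f.1 (g⁻¹ • s)) ^ 2) μ :=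
      (h.mp g⁻¹).integrable_comp_of_integrable f.2.2
    refine Integrable.mono' ((h1.const_mul 2).add (h2.const_mul 2))
      ((measurable_const.dist (smul_meas h g f.2.1)).pow_const 2).aestronglyMeasurable
      (ae_of_all _ fun s => ?_)
    rw [Real.norm_of_nonneg (sq_nonneg _)]
    have h3 := dist_triangle o (β g (g⁻¹ • s) o) (β g (g⁻¹ • s) (f.1 (g⁻¹ • s)))
    rw [h.iso] at h3
    have h4 := pow_le_pow_left₀ dist_nonneg h3 2
    simp only [Pi.add_apply]
    nlinarith [sq_nonneg (dist o (β g (g⁻¹ • s) o) - dist o (f.1 (g⁻¹ • s)))]⟩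
  one_smul f := by
    refine Subtype.ext (funext fun s => ?_)
    change β 1 ((1 : G)⁻¹ • s) (f.1 ((1 : G)⁻¹ • s)) = f.1 s
    rw [h.one, inv_one, one_smul]
  mul_smul g k f := by
    refine Subtype.ext (funext fun s => ?_)
    change β (g * k) ((g * k)⁻¹ • s) (f.1 ((g * k)⁻¹ • s)) =
      β g (g⁻¹ • s) (β k (k⁻¹ • g⁻¹ • s) (f.1 (k⁻¹ • g⁻¹ • s)))
    rw [h.mul, mul_inv_rev, mul_smul, smul_inv_smul]

theorem smul_apply (g : G) (f : L2 h) (s : S) :
    (g • f).1 s = β g (g⁻¹ • s) (f.1 (g⁻¹ • s)) := rfl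

theorem int_comp (h : Fld μ β o) (g : G) (F : S → ℝ) : ∫ s, F (g • s) ∂μ = ∫ s, F s ∂μ := by
  let e : S ≃ᵐ S :=
    { toFun := fun s => g • s
      invFun := fun s => g⁻¹ • s
      left_inv := inv_smul_smul g
      right_inv := smul_inv_smul g
      measurable_toFun := (h.mp g).measurable
      measurable_invFun := (h.mp g⁻¹).measurable }
  exact (h.mp g).integral_comp e.measurableEmbedding F

theorem iso (g : G) (f f' : L2 h) : dist (g • f) (g • f') = dist f f' := by
  rw [dist_eq, dist_eq]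
  congr 1
  simp only [smul_apply, h.iso]
  exact int_comp h g⁻¹ fun s => dist (f.1 s) (f'.1 s) ^ 2

theorem mid (hY : ∀ p q : Y, ∃ m, Mid p q m) (f f' : L2 h) : ∃ m, Mid f f' m := by
  have hm : Measurable fun s => M.mp hY (f.1 s, f'.1 s) :=
    (mp_continuous hY).measurable.comp (f.2.1.prodMk f'.2.1)
  have hle : ∀ s, ∀ z : Y, dist z (M.mp hY (f.1 s, f'.1 s)) ^ 2 ≤
      (dist z (f.1 s) ^ 2 + dist z (f'.1 s) ^ 2) / 2 - dist (f.1 s) (f'.1 s) ^ 2 / 4 :=
    fun s z => mp_spec hY (f.1 s) (f'.1 s) z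
  have hint : Integrable (fun s => dist o (M.mp hY (f.1 s, f'.1 s)) ^ 2) μ := by
    refine Integrable.mono' ((f.2.2.add f'.2.2).div_const 2)
      ((measurable_const.dist hm).pow_const 2).aestronglyMeasurable (ae_of_all _ fun s => ?_)
    rw [Real.norm_of_nonneg (sq_nonneg _)]
    have h1 := hle s o
    have h2 := sq_nonneg (dist (f.1 s) (f'.1 s))
    simp only [Pi.add_apply]
    linarith
  obtain ⟨m, hmm⟩ : ∃ m : L2 h, ∀ s, m.1 s = M.mp hY (f.1 s, f'.1 s) :=
    ⟨(⟨_, hm, hint⟩ : {f : S → Y // Measurable f ∧ Integrable (fun s => dist o (f s) ^ 2) μ}),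
      fun s => rfl⟩
  refine ⟨m, fun z => ?_⟩
  rw [dist_sq, dist_sq, dist_sq, dist_sq]
  have hA : Integrable (fun s => (dist (z.1 s) (f.1 s) ^ 2 + dist (z.1 s) (f'.1 s) ^ 2) / 2) μ :=
    ((int_sq z f).add (int_sq z f')).div_const 2
  have hB : Integrable (fun s => dist (f.1 s) (f'.1 s) ^ 2 / 4) μ := (int_sq f f').div_const 4
  have h1 : ∫ s, dist (z.1 s) (m.1 s) ^ 2 ∂μ ≤
      ∫ s, ((dist (z.1 s) (f.1 s) ^ 2 + dist (z.1 s) (f'.1 s) ^ 2) / 2 -
        dist (f.1 s) (f'.1 s) ^ 2 / 4) ∂μ := by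
    refine integral_mono_of_nonneg (ae_of_all _ fun s => sq_nonneg _) (hA.sub hB)
      (ae_of_all _ fun s => ?_)
    have h1 := hle s (z.1 s)
    rw [← hmm] at h1
    exact h1
  refine h1.trans_eq ?_
  have h2 := integral_sub hA hB
  have h3 := integral_add (int_sq z f) (int_sq z f')
  rw [h2, integral_div, integral_div]
  congr 2

end L2

/-- Isometric cocycles of linear growth. -/
theorem charged_of_field (h : Fld μ β o) (hY : ∀ p q : Y, ∃ m, Mid p q m) (x : G) {ε : ℝ}
    (hε : 0 < ε) (hx : ∀ n : ℕ, ε * n ≤ √(∫ s, dist o (β (x ^ n) s o) ^ 2 ∂μ)) :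
    CharLe x fun g => √(∫ s, dist o (β g s o) ^ 2 ∂μ) := by
  have key : ∀ g : G, dist (L2.base h) (g • L2.base h) = √(∫ s, dist o (β g s o) ^ 2 ∂μ) := by
    intro g
    rw [L2.dist_eq]
    congr 1
    exact L2.int_comp h g⁻¹ fun s => dist o (β g s o) ^ 2
  have h1 := charged_of_cat (X := L2 h) (fun f f' => L2.mid hY f f')
    (fun g a b => L2.iso g a b) x (L2.base h) hε fun n => by
      rw [key]
      exact hx n
  simpa only [key] using h1

/-- The norm is subadditive. -/
theorem field_len (h : Fld μ β o) (g k : G) : √(∫ s, dist o (β (g * k) s o) ^ 2 ∂μ) ≤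
    √(∫ s, dist o (β g s o) ^ 2 ∂μ) + √(∫ s, dist o (β k s o) ^ 2 ∂μ) := by
  have key : ∀ g : G, dist (L2.base h) (g • L2.base h) = √(∫ s, dist o (β g s o) ^ 2 ∂μ) := by
    intro g
    rw [L2.dist_eq]
    congr 1
    exact L2.int_comp h g⁻¹ fun s => dist o (β g s o) ^ 2
  rw [← key, ← key, ← key, mul_smul]
  refine (dist_triangle (L2.base h) (g • L2.base h) _).trans ?_
  rw [L2.iso]

end Field

end Vale.Agent.P184.M
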