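import Vale.Agent.P184.R2.H270M.Comm

set_option linter.all false

/-!
# Interval exchange transformations and the pairs of one-sided germs
-/

noncomputable section

open Filter Topology Set

namespace Vale.Agent.P184.M

universe u v

/-- `T` is an interval exchange transformation of some interval `[a, b)`, extended by the
identity to a permutation of `ℝ`: `T` is a translation on each of the finitely many intervals
between the consecutive points of a finite set `P`, which are closed on the left and open on the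
right. -/
def IsIET (T : Equiv.Perm ℝ) : Prop :=
  (∃ a b : ℝ, ∀ p, p ∉ Set.Ico a b → T p = p) ∧
    ∃ P : Finset ℝ, ∀ p q, p ≤ q → (∀ z ∈ P, ¬ (p < z ∧ z ≤ q)) → T q - q = T p - p

/-- The translation of `T` at `p`. -/
def tr (T : Equiv.Perm ℝ) (p : ℝ) : ℝ := T p - p

/-- `P` contains the discontinuities. -/
def Disc (T : Equiv.Perm ℝ) (P : Finset ℝ) : Prop :=
  ∀ p q, p ≤ q → (∀ z ∈ P, ¬ (p < z ∧ z ≤ q)) → tr T q = tr T p

/-- The left neighbour of `z` with respect to `P` and a lower bound. -/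
theorem exists_left (P : Finset ℝ) (p z : ℝ) (h : p < z) :
    ∃ y, p ≤ y ∧ y < z ∧ ∀ w ∈ P, ¬ (y < w ∧ w < z) := by
  classical
  let Q : Finset ℝ := insert p (P.filter fun w => w < z ∧ p ≤ w)
  have hQ : Q.Nonempty := ⟨p, Finset.mem_insert_self _ _⟩
  refine ⟨Q.max' hQ, Finset.le_max' _ _ (Finset.mem_insert_self _ _), ?_, ?_⟩
  · rw [Finset.max'_lt_iff]
    intro w hw
    rcases Finset.mem_insert.1 hw with rfl | hw
    · exact h
    · exact (Finset.mem_filter.1 hw).2.1
  · rintro w hw ⟨h1, h2⟩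
    have h3 : p ≤ Q.max' hQ := Finset.le_max' _ _ (Finset.mem_insert_self _ _)
    have h4 : w ∈ Q := Finset.mem_insert_of_mem
      (Finset.mem_filter.2 ⟨hw, h2, h3.trans h1.le⟩)
    exact absurd (Finset.le_max' _ _ h4) (not_le.2 h1)

/-- The value of the translation on the left of `z`. -/
def trl (T : Equiv.Perm ℝ) (z : ℝ) : ℝ := limUnder (𝓝[<] z) (tr T)

theorem trl_eq {T : Equiv.Perm ℝ} {P : Finset ℝ} (hP : Disc T P) {y z : ℝ} (hy : y < z)
    (hyz : ∀ w ∈ P, ¬ (y < w ∧ w < z)) {w : ℝ} (hw1 : y ≤ w) (hw2 : w < z) :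
    tr T w = trl T z := by
  have h1 : ∀ v, y ≤ v → v < z → tr T v = tr T y := by
    intro v hv1 hv2
    refine hP y v hv1 fun u hu h => ?_
    exact hyz u hu ⟨h.1, h.2.trans_lt hv2⟩
  have h2 : Tendsto (tr T) (𝓝[<] z) (𝓝 (tr T y)) := by
    refine Tendsto.congr' ?_ tendsto_const_nhds
    filter_upwards [Ioo_mem_nhdsLT hy] with v hv
    exact (h1 v hv.1.le hv.2).symm
  rw [trl, h2.limUnder_eq, h1 w hw1 hw2]

/-- The jump of the translation at `z`. -/
def jmp (T : Equiv.Perm ℝ) (z : ℝ) : ℝ := tr T z - trl T z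

/-- The increments are the sums of the jumps. -/
theorem incr {T : Equiv.Perm ℝ} {P : Finset ℝ} (hP : Disc T P) :
    ∀ (n : ℕ) (p q : ℝ), p ≤ q → (P.filter fun z => p < z ∧ z ≤ q).card = n →
      tr T q - tr T p = ∑ z ∈ P.filter (fun z => p < z ∧ z ≤ q), jmp T z := by
  classical
  intro n
  induction n with
  | zero =>
    intro p q hpq hn
    rw [Finset.card_eq_zero] at hn
    rw [hn, Finset.sum_empty, sub_eq_zero]
    refine hP p q hpq fun z hz h => ?_
    have : z ∈ P.filter fun z => p < z ∧ z ≤ q := Finset.mem_filter.2 ⟨hz, h⟩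
    rw [hn] at this
    simp at this
  | succ n ih =>
    intro p q hpq hn
    have hne : (P.filter fun z => p < z ∧ z ≤ q).Nonempty := by
      rw [← Finset.card_pos, hn]
      exact Nat.succ_pos n
    set z := (P.filter fun z => p < z ∧ z ≤ q).max' hne with hz
    have hzmem := Finset.max'_mem _ hne
    rw [← hz] at hzmem
    have hz1 := Finset.mem_filter.1 hzmem
    obtain ⟨y, hy1, hy2, hy3⟩ := exists_left P p z hz1.2.1
    have h1 : tr T q = tr T z := by
      refine hP z q hz1.2.2 fun w hw h => ?_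
      have h2 : w ∈ P.filter fun z => p < z ∧ z ≤ q :=
        Finset.mem_filter.2 ⟨hw, hz1.2.1.trans h.1, h.2⟩
      exact absurd (Finset.le_max' _ _ h2) (not_le.2 h.1)
    have h2 : tr T y = trl T z := trl_eq hP hy2 hy3 le_rfl hy2
    have h3 : P.filter (fun w => p < w ∧ w ≤ y) =
        (P.filter fun w => p < w ∧ w ≤ q).erase z := by
      ext w
      simp only [Finset.mem_filter, Finset.mem_erase]
      constructor
      · rintro ⟨hw, hw1, hw2⟩
        exact ⟨(hw2.trans_lt hy2).ne, hw, hw1, (hw2.trans_lt hy2).le.trans hz1.2.2⟩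
      · rintro ⟨hwz, hw, hw1, hw2⟩
        refine ⟨hw, hw1, ?_⟩
        by_contra hcon
        push Not at hcon
        have h4 : w ≤ z := Finset.le_max' _ _ (Finset.mem_filter.2 ⟨hw, hw1, hw2⟩)
        exact hy3 w hw ⟨hcon, lt_of_le_of_ne h4 hwz⟩
    have h4 : (P.filter fun w => p < w ∧ w ≤ y).card = n := by
      rw [h3, Finset.card_erase_of_mem hzmem, hn, Nat.add_sub_cancel]
    have h5 := ih p y hy1 h4
    rw [h3] at h5
    have h6 := Finset.add_sum_erase _ (fun w => jmp T w) hzmem
    rw [← h6, ← h5, jmp, h1, h2]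
    ring

/-- Pairs consisting of a filter and a point. -/
@[reducible] def Germ : Type := Filter ℝ × ℝ

/-- The action of the permutations on the pairs. -/
@[reducible] def gact {G : Type u} [Group G] (ρ : G →* Equiv.Perm ℝ) : MulAction G Germ where
  smul g s := (Filter.map (ρ g) s.1, ρ g s.2)
  one_smul s := by
    change (Filter.map (ρ 1) s.1, ρ 1 s.2) = s
    rw [map_one]
    exact Prod.ext (Filter.map_id) rfl
  mul_smul g h s := by
    change (Filter.map (ρ (g * h)) s.1, ρ (g * h) s.2) =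
      (Filter.map (ρ g) (Filter.map (ρ h) s.1), ρ g (ρ h s.2))
    rw [map_mul, Filter.map_map]
    rfl

/-- The pair of the left and the right germ at `p`. -/
def germ (p : ℝ) : Germ := (𝓝[<] p, p)

theorem map_add_nhds (p c : ℝ) : Filter.map (fun y => y + c) (𝓝[<] p) = 𝓝[<] (p + c) := by
  have h1 := (Homeomorph.addRight c).isEmbedding.map_nhdsWithin_eq (Iio p) p
  have h2 : (Homeomorph.addRight c) '' Iio p = Iio (p + c) := by
    ext w
    simp only [Homeomorph.coe_addRight, mem_image, mem_Iio]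
    constructor
    · rintro ⟨v, hv, rfl⟩
      linarith
    · intro hw
      exact ⟨w - c, by linarith, by ring⟩
  rw [h2] at h1
  exact h1

theorem map_left {T : Equiv.Perm ℝ} {P : Finset ℝ} (hP : Disc T P) (p : ℝ) :
    Filter.map T (𝓝[<] p) = 𝓝[<] (p + trl T p) := by
  obtain ⟨y, hy1, hy2, hy3⟩ := exists_left P (p - 1) p (by linarith)
  rw [← map_add_nhds]
  refine Filter.map_congr ?_
  filter_upwards [Ioo_mem_nhdsLT hy2] with v hv
  have h1 := trl_eq hP hy2 hy3 hv.1.le hv.2
  rw [← h1, tr]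
  ring

theorem lim_left (p : ℝ) : lim (𝓝[<] p) = p := by
  have : (𝓝[<] p).NeBot := inferInstance
  exact lim_eq nhdsWithin_le_nhds

/-- The gap between the two components of a pair. -/
def gap (s : Germ) : ℝ := s.2 - lim s.1

theorem gap_smul {T : Equiv.Perm ℝ} {P : Finset ℝ} (hP : Disc T P) (p : ℝ) :
    gap (Filter.map T (𝓝[<] p), T p) = jmp T p := by
  rw [gap]
  simp only
  rw [map_left hP, lim_left, jmp, tr]
  ring

theorem gap_germ (p : ℝ) : gap (germ p) = 0 := by
  rw [gap, germ]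
  simp only
  rw [lim_left, sub_self]

/-- A jump means leaving the diagonal. -/
theorem mem_range_of {T : Equiv.Perm ℝ} {P : Finset ℝ} (hP : Disc T P) {p : ℝ} (hp : p ∉ P) :
    (Filter.map T (𝓝[<] p), T p) ∈ Set.range germ := by
  refine ⟨T p, ?_⟩
  have h1 : trl T p = tr T p := by
    obtain ⟨y, hy1, hy2, hy3⟩ := exists_left P (p - 1) p (by linarith)
    rw [← trl_eq hP hy2 hy3 le_rfl hy2]
    refine (hP y p hy2.le fun w hw h => ?_).symm
    rcases lt_or_eq_of_le h.2 with h4 | h4
    · exact hy3 w hw ⟨h.1, h4⟩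
    · exact hp (h4 ▸ hw)
  have h2 : p + tr T p = T p := by
    rw [tr]
    ring
  rw [map_left hP, h1, germ, h2]

section Group

variable {G : Type u} [Group G] (ρ : G →* Equiv.Perm ℝ)

theorem exists_disc (hρ : ∀ g, IsIET (ρ g)) (g : G) : ∃ P : Finset ℝ, Disc (ρ g) P := by
  obtain ⟨-, P, hP⟩ := hρ g
  exact ⟨P, hP⟩

theorem germ_inj : Function.Injective germ := fun p q h => (Prod.ext_iff.1 h).2

theorem dset_finite (hρ : ∀ g, IsIET (ρ g)) (g : G) :
    letI := gact ρ
    (dset (Set.range germ) g).Finite := by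
  classical
  letI := gact ρ
  obtain ⟨P, hP⟩ := exists_disc ρ hρ g
  obtain ⟨Q, hQ⟩ := exists_disc ρ hρ g⁻¹
  refine ((P.finite_toSet.image germ).union
    (((Q.finite_toSet.image germ).image fun s => g⁻¹ • s))).subset ?_
  intro s hs
  simp only [dset, mem_setOf_eq] at hs
  by_cases h : s ∈ Set.range germ
  · left
    obtain ⟨p, rfl⟩ := h
    refine ⟨p, ?_, rfl⟩
    by_contra hp
    exact hs ⟨fun _ => mem_range_of hP hp, fun _ => ⟨p, rfl⟩⟩
  · right
    have h2 : g • s ∈ Set.range germ := by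
      by_contra h3
      exact hs ⟨fun h4 => absurd h4 h, fun h4 => absurd h4 h3⟩
    obtain ⟨p, hp⟩ := h2
    refine ⟨germ p, ⟨p, ?_, rfl⟩, ?_⟩
    · by_contra hpQ
      apply h
      have h3 := mem_range_of hQ hpQ
      have h4 : g⁻¹ • germ p = s := by rw [hp, inv_smul_smul]
      rw [← h4]
      exact h3
    · simp only
      rw [hp, inv_smul_smul]

/-- Either `x` is charged, or the increments of the translations of the powers of `x` on the
intervals between the points of a finite set belong to a finite set. -/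
theorem charged_or_incr (hρ : ∀ g, IsIET (ρ g)) (x : G) :
    Charged x ∨ ∃ P D : Finset ℝ, ∀ (n : ℤ) (p q : ℝ), p ≤ q →
      (∀ z ∈ P, ¬ (p < z ∧ z ≤ q)) → tr (ρ (x ^ n)) q - tr (ρ (x ^ n)) p ∈ D := by
  classical
  letI := gact ρ
  rcases charged_or x (Set.range germ) (dset_finite ρ hρ) with h | ⟨R, hR, h⟩
  · exact Or.inl (h.charged (clen_mul (dset_finite ρ hρ)))
  right
  refine ⟨hR.toFinset.image Prod.snd,
    hR.toFinset.powerset.image fun R' => ∑ r ∈ R', gap r, fun n p q hpq hz => ?_⟩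
  obtain ⟨P, hP⟩ := exists_disc ρ hρ (x ^ n)
  rw [incr hP _ p q hpq rfl]
  have hmem : ∀ z, p < z ∧ z ≤ q → germ z ∉ R := by
    intro z hz1 hz2
    exact hz z (Finset.mem_image.2 ⟨germ z, hR.mem_toFinset.2 hz2, rfl⟩) hz1
  have hgap : ∀ z, gap (x ^ n • germ z) = jmp (ρ (x ^ n)) z := fun z => gap_smul hP z
  -- the jumps come from the exceptional pairs
  set Z := P.filter fun z => p < z ∧ z ≤ q with hZ
  have h1 : ∑ z ∈ Z, jmp (ρ (x ^ n)) z =
      ∑ z ∈ Z.filter (fun z => x ^ n • germ z ∈ R), jmp (ρ (x ^ n)) z := by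
    refine (Finset.sum_filter_of_ne fun z hz1 hz2 => ?_).symm
    rcases h (germ z) (hmem z (Finset.mem_filter.1 hz1).2) n with h2 | h2
    · exfalso
      apply hz2
      obtain ⟨w, hw⟩ := h2.1 ⟨z, rfl⟩
      rw [← hgap, ← hw, gap_germ]
    · exact h2
  rw [h1]
  refine Finset.mem_image.2 ⟨(Z.filter fun z => x ^ n • germ z ∈ R).image
    (fun z => x ^ n • germ z), ?_, ?_⟩
  · rw [Finset.mem_powerset]
    intro r hr
    obtain ⟨z, hz1, rfl⟩ := Finset.mem_image.1 hr
    exact hR.mem_toFinset.2 (Finset.mem_filter.1 hz1).2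
  · rw [Finset.sum_image]
    · exact Finset.sum_congr rfl fun z _ => hgap z
    · intro a _ b _ hab
      exact germ_inj (MulAction.injective (x ^ n) hab)

end Group

end Vale.Agent.P184.M
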