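import Vale.Agent.P184.R2.H270M.Meas
import Vale.Agent.P184.R2.H270M.Iet1

set_option linter.all false

/-!
# Interval exchange transformations preserve the Lebesgue measure
-/

noncomputable section

open Filter Topology Set MeasureTheory

namespace Vale.Agent.P184.M

universe u v

/-- The points of `P` on the left of `p`. -/
def kap (P : Finset ℝ) (p : ℝ) : Finset ℝ := P.filter fun z => z ≤ p

theorem kap_mem (P : Finset ℝ) (p : ℝ) : kap P p ∈ P.powerset :=
  Finset.mem_powerset.2 (Finset.filter_subset _ _)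

theorem kap_eq {P : Finset ℝ} {p q : ℝ} (h : kap P p = kap P q) :
    ∀ z ∈ P, ¬ (p < z ∧ z ≤ q) := by
  rintro z hz ⟨h1, h2⟩
  have h3 : z ∈ kap P q := Finset.mem_filter.2 ⟨hz, h2⟩
  rw [← h] at h3
  exact absurd (Finset.mem_filter.1 h3).2 (not_le.2 h1)

theorem kap_level (P K : Finset ℝ) : MeasurableSet {p | kap P p = K} := by
  classical
  by_cases hK : K ⊆ P
  · have h1 : {p | kap P p = K} = ⋂ z ∈ P, {p | z ≤ p ↔ z ∈ K} := by
      ext p
      simp only [mem_setOf_eq, mem_iInter]
      constructor
      · intro h z hz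
        rw [← h, kap, Finset.mem_filter]
        tauto
      · intro h
        ext z
        rw [kap, Finset.mem_filter]
        constructor
        · rintro ⟨h1, h2⟩
          exact (h z h1).1 h2
        · intro h1
          exact ⟨hK h1, (h z (hK h1)).2 h1⟩
    rw [h1]
    refine Finset.measurableSet_biInter _ fun z _ => ?_
    by_cases hz : z ∈ K
    · have : {p | z ≤ p ↔ z ∈ K} = Ici z := by
        ext p
        simp [hz]
      rw [this]
      exact measurableSet_Ici
    · have : {p | z ≤ p ↔ z ∈ K} = Iio z := by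
        ext p
        simp [hz]
      rw [this]
      exact measurableSet_Iio
  · have : {p | kap P p = K} = ∅ := by
      ext p
      simp only [mem_setOf_eq, mem_empty_iff_false, iff_false]
      intro h
      exact hK (h ▸ Finset.filter_subset _ _)
    rw [this]
    exact MeasurableSet.empty

theorem measurable_of_kap (P : Finset ℝ) {β : Type*} [MeasurableSpace β] (F : ℝ → β)
    (h : ∀ p q, kap P p = kap P q → F p = F q) : Measurable F := by
  classical
  intro s hs
  have h1 : F ⁻¹' s = ⋃ K ∈ P.powerset, ⋃ _ : ∃ p, kap P p = K ∧ F p ∈ s, {p | kap P p = K} := by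
    ext p
    simp only [mem_preimage, mem_iUnion, mem_setOf_eq, exists_prop]
    constructor
    · intro hp
      exact ⟨kap P p, kap_mem P p, ⟨p, rfl, hp⟩, rfl⟩
    · rintro ⟨K, -, ⟨q, hq1, hq2⟩, hp⟩
      rw [h p q (hp.trans hq1.symm)]
      exact hq2
  rw [h1]
  exact Finset.measurableSet_biUnion _ fun K _ => MeasurableSet.iUnion fun _ => kap_level P K

theorem finite_range_of_kap (P : Finset ℝ) {β : Type*} (F : ℝ → β)
    (h : ∀ p q, kap P p = kap P q → F p = F q) : (Set.range F).Finite := by
  classical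
  let c : Finset ℝ → Set β := fun K => F '' {p | kap P p = K}
  have h1 : Set.range F ⊆ ⋃ K ∈ P.powerset, c K := by
    rintro _ ⟨p, rfl⟩
    exact Set.mem_biUnion (x := kap P p) (kap_mem P p) ⟨p, rfl, rfl⟩
  refine (P.powerset.finite_toSet.biUnion fun K _ => ?_).subset h1
  refine Set.Subsingleton.finite ?_
  rintro _ ⟨p, hp, rfl⟩ _ ⟨q, hq, rfl⟩
  exact h p q (hp.trans hq.symm)

theorem Disc.kap {T : Equiv.Perm ℝ} {P : Finset ℝ} (hP : Disc T P) {p q : ℝ}
    (h : kap P p = kap P q) : tr T p = tr T q := by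
  rcases le_total p q with h1 | h1
  · exact (hP p q h1 (kap_eq h)).symm
  · exact hP q p h1 (kap_eq h.symm)

theorem tr_measurable {T : Equiv.Perm ℝ} {P : Finset ℝ} (hP : Disc T P) : Measurable (tr T) :=
  measurable_of_kap P _ fun _ _ h => hP.kap h

theorem tr_finite {T : Equiv.Perm ℝ} {P : Finset ℝ} (hP : Disc T P) :
    (Set.range (tr T)).Finite :=
  finite_range_of_kap P _ fun _ _ h => hP.kap h

theorem iet_measurable {T : Equiv.Perm ℝ} {P : Finset ℝ} (hP : Disc T P) : Measurable T := by
  have h1 : (T : ℝ → ℝ) = fun p => p + tr T p := by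
    funext p
    rw [tr]
    ring
  rw [h1]
  exact measurable_id.add (tr_measurable hP)

theorem iet_volume {T : Equiv.Perm ℝ} {P : Finset ℝ} (hP : Disc T P) {B : Set ℝ}
    (hB : MeasurableSet B) : volume (T ⁻¹' B) = volume B := by
  classical
  have hT := iet_measurable hP
  let A : Finset ℝ → Set ℝ := fun K => {p | kap P p = K} ∩ T ⁻¹' B
  have hA : ∀ K, MeasurableSet (A K) := fun K => (kap_level P K).inter (hT hB)
  have hAdisj : ∀ K L, K ≠ L → Disjoint (A K) (A L) := by
    intro K L hKL
    rw [Set.disjoint_left]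
    rintro p ⟨hp1, -⟩ ⟨hp2, -⟩
    exact hKL (hp1.symm.trans hp2)
  have hAU : T ⁻¹' B = ⋃ K ∈ P.powerset, A K := by
    ext p
    simp only [mem_iUnion, exists_prop]
    constructor
    · intro hp
      exact ⟨kap P p, kap_mem P p, rfl, hp⟩
    · rintro ⟨K, -, -, hp⟩
      exact hp
  have hc : ∀ K, ∃ c : ℝ, ∀ p, kap P p = K → T p = p + c := by
    intro K
    by_cases h : ∃ p, kap P p = K
    · obtain ⟨q, hq⟩ := h
      refine ⟨tr T q, fun p hp => ?_⟩
      rw [← hP.kap (hp.trans hq.symm), tr]
      ring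
    · push Not at h
      exact ⟨0, fun p hp => absurd hp (h p)⟩
  choose c hc using hc
  have hBK : ∀ K, T '' (A K) = (fun y => y + -c K) ⁻¹' (A K) := by
    intro K
    ext y
    simp only [mem_image, mem_preimage]
    constructor
    · rintro ⟨p, hp, rfl⟩
      rw [hc K p hp.1]
      simpa using hp
    · intro hy
      refine ⟨y + -c K, hy, ?_⟩
      rw [hc K _ hy.1]
      ring
  have hvol : ∀ K, volume (T '' (A K)) = volume (A K) := by
    intro K
    rw [hBK, measure_preimage_add_right]
  have hBm : ∀ K, MeasurableSet (T '' (A K)) := by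
    intro K
    rw [hBK]
    exact (measurable_id.add_const _) (hA K)
  have hBU : B = ⋃ K ∈ P.powerset, T '' (A K) := by
    rw [← Set.image_iUnion₂, ← hAU, Set.image_preimage_eq _ T.surjective]
  have h1 : volume (T ⁻¹' B) = ∑ K ∈ P.powerset, volume (A K) := by
    rw [hAU]
    exact measure_biUnion_finset (fun K _ L _ h => hAdisj K L h) fun K _ => hA K
  have h2 : volume B = ∑ K ∈ P.powerset, volume (T '' (A K)) := by
    conv_lhs => rw [hBU]
    refine measure_biUnion_finset (fun K _ L _ h => ?_) fun K _ => hBm K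
    exact (Set.disjoint_image_iff T.injective).2 (hAdisj K L h)
  rw [h1, h2]
  exact Finset.sum_congr rfl fun K _ => (hvol K).symm

theorem iet_mp {T : Equiv.Perm ℝ} {P : Finset ℝ} (hP : Disc T P) :
    MeasurePreserving T volume volume := by
  refine ⟨iet_measurable hP, ?_⟩
  ext B hB
  rw [Measure.map_apply (iet_measurable hP) hB, iet_volume hP hB]

/-- Functionals of the translations are integrable. -/
theorem iet_integrable {T : Equiv.Perm ℝ} (hT : IsIET T) (f : ℝ → ℝ) (hf : f 0 = 0) :
    Integrable (fun p => f (tr T p)) volume := by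
  classical
  obtain ⟨⟨a, b, hab⟩, P, hP⟩ := hT
  have hP' : Disc T P := hP
  have hm : Measurable fun p => f (tr T p) :=
    measurable_of_kap P _ fun p q h => by rw [hP'.kap h]
  have hfin : (Set.range fun p => f (tr T p)).Finite :=
    finite_range_of_kap P _ fun p q h => by rw [hP'.kap h]
  obtain ⟨C, hC⟩ := (hfin.image fun y => |y|).bddAbove
  have hsupp : (Function.support fun p => f (tr T p)) ⊆ Ico a b := by
    intro p hp
    by_contra hcon
    apply hp
    simp only
    rw [tr, hab p hcon, sub_self, hf]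
  rw [← integrableOn_iff_integrable_of_support_subset hsupp]
  refine Measure.integrableOn_of_bounded (M := C) (by simp) hm.aestronglyMeasurable ?_
  refine ae_of_all _ fun p => ?_
  rw [Real.norm_eq_abs]
  exact hC ⟨f (tr T p), ⟨p, rfl⟩, rfl⟩

/-- A set of integral combinations of finitely many reals on which the rational functionals are
bounded is finite. -/
theorem finite_of_bounded {V U : Set ℝ} (hV : V.Finite)
    (hU : U ⊆ AddSubgroup.closure V)
    (hf : ∀ f : ℝ →ₗ[ℚ] ℚ, ∃ M : ℚ, ∀ u ∈ U, |f u| ≤ M) : U.Finite := by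
  classical
  let b := Module.Basis.ofVectorSpace ℚ ℝ
  -- the coordinates in use
  let I0 : Finset _ := hV.toFinset.biUnion fun v => (b.repr v).support
  -- a common denominator
  let N : ℕ := ∏ v ∈ hV.toFinset, ∏ i ∈ (b.repr v).support, (b.repr v i).den
  have hN : N ≠ 0 := by
    refine Finset.prod_ne_zero_iff.2 fun v _ => Finset.prod_ne_zero_iff.2 fun i _ => ?_
    exact (b.repr v i).den_nz
  have hsupp : ∀ u ∈ AddSubgroup.closure V, ∀ i, i ∉ I0 → b.repr u i = 0 := by
    intro u hu i hi
    induction hu using AddSubgroup.closure_induction with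
    | mem v hv =>
      by_contra h
      exact hi (Finset.mem_biUnion.2 ⟨v, hV.mem_toFinset.2 hv, Finsupp.mem_support_iff.2 h⟩)
    | zero => simp
    | add x y _ _ hx hy => rw [map_add, Finsupp.add_apply, hx, hy, add_zero]
    | neg x _ hx => rw [map_neg, Finsupp.neg_apply, hx, neg_zero]
  have hint : ∀ u ∈ AddSubgroup.closure V, ∀ i, ∃ z : ℤ, (N : ℚ) * b.repr u i = z := by
    intro u hu i
    induction hu using AddSubgroup.closure_induction with
    | mem v hv =>
      by_cases h : b.repr v i = 0
      · exact ⟨0, by rw [h]; simp⟩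
      · have h1 : (b.repr v i).den ∣ N := by
          refine dvd_trans ?_ (Finset.dvd_prod_of_mem _ (hV.mem_toFinset.2 hv))
          exact Finset.dvd_prod_of_mem (fun i => (b.repr v i).den)
            (Finsupp.mem_support_iff.2 h)
        obtain ⟨k, hk⟩ := h1
        refine ⟨k * (b.repr v i).num, ?_⟩
        rw [hk]
        push_cast
        have h2 := Rat.den_mul_eq_num (b.repr v i)
        calc ((b.repr v i).den : ℚ) * k * b.repr v i =
            k * ((b.repr v i).den * b.repr v i) := by ring
          _ = k * (b.repr v i).num := by rw [h2]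
    | zero => exact ⟨0, by simp⟩
    | add x y _ _ hx hy =>
      obtain ⟨p, hp⟩ := hx
      obtain ⟨q, hq⟩ := hy
      exact ⟨p + q, by rw [map_add, Finsupp.add_apply, mul_add, hp, hq]; push_cast; ring⟩
    | neg x _ hx =>
      obtain ⟨p, hp⟩ := hx
      exact ⟨-p, by rw [map_neg, Finsupp.neg_apply, mul_neg, hp]; push_cast; ring⟩
  choose M hM using hf
  let Φ : ℝ → (I0 → ℚ) := fun u i => b.repr u i
  have hinj : Set.InjOn Φ U := by
    intro u hu w hw huw
    apply b.repr.injective
    ext i
    by_cases hi : i ∈ I0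
    · exact congrFun huw ⟨i, hi⟩
    · rw [hsupp u (hU hu) i hi, hsupp w (hU hw) i hi]
  refine Set.Finite.of_finite_image ?_ hinj
  have hfin : ∀ i : I0, {q : ℚ | |q| ≤ M (b.coord i) ∧ ∃ z : ℤ, (N : ℚ) * q = z}.Finite := by
    intro i
    let m : ℤ := ⌈(N : ℚ) * M (b.coord i)⌉
    refine ((Set.finite_Icc (-m) m).image fun z : ℤ => (z : ℚ) / N).subset ?_
    rintro q ⟨hq1, z, hq2⟩
    have hN' : (N : ℚ) ≠ 0 := by exact_mod_cast hN
    have hN0 : (0 : ℚ) < N := by exact_mod_cast Nat.pos_of_ne_zero hN
    refine ⟨z, ?_, ?_⟩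
    · have h1 : |(z : ℚ)| ≤ N * M (b.coord i) := by
        rw [← hq2, abs_mul, abs_of_pos hN0]
        exact mul_le_mul_of_nonneg_left hq1 hN0.le
      have h2 : |(z : ℚ)| ≤ (m : ℚ) := h1.trans (Int.le_ceil _)
      have h3 : |z| ≤ m := by exact_mod_cast h2
      exact abs_le.1 h3
    · simp only
      rw [← hq2]
      field_simp
  refine (Set.Finite.pi' hfin).subset ?_
  rintro _ ⟨u, hu, rfl⟩ i
  exact ⟨hM (b.coord i) u hu, hint u (hU hu) i⟩

end Vale.Agent.P184.M
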