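import Vale.Agent.P184.R2.H270M.Iet2

set_option linter.all false

/-!
# Interval exchange transformations of infinite order are charged
-/

noncomputable section

open Filter Topology Set MeasureTheory
open scoped Pointwise

namespace Vale.Agent.P184.M

universe u v

theorem exists_right (P : Finset ℝ) (p : ℝ) : ∃ y, p < y ∧ ∀ q, p ≤ q → q < y → kap P q = kap P p := by
  classical
  have h1 : ∃ y, p < y ∧ ∀ z ∈ P, p < z → y ≤ z := by
    by_cases h : (P.filter fun z => p < z).Nonempty
    · refine ⟨(P.filter fun z => p < z).min' h, ?_, fun z hz hpz => ?_⟩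
      · exact (Finset.mem_filter.1 (Finset.min'_mem _ h)).2
      · exact Finset.min'_le _ _ (Finset.mem_filter.2 ⟨hz, hpz⟩)
    · refine ⟨p + 1, by linarith, fun z hz hpz => ?_⟩
      exact absurd ⟨z, Finset.mem_filter.2 ⟨hz, hpz⟩⟩ h
  obtain ⟨y, hy1, hy2⟩ := h1
  refine ⟨y, hy1, fun q hq1 hq2 => ?_⟩
  ext z
  simp only [kap, Finset.mem_filter]
  constructor
  · rintro ⟨h1, h2⟩
    refine ⟨h1, ?_⟩
    by_contra hcon
    push Not at hcon
    have := hy2 z h1 hcon
    linarith
  · rintro ⟨h1, h2⟩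
    exact ⟨h1, h2.trans hq1⟩

variable {G : Type u} [Group G] (ρ : G →* Equiv.Perm ℝ)

theorem tr_mul (g h : G) (p : ℝ) : tr (ρ (g * h)) p = tr (ρ g) (ρ h p) + tr (ρ h) p := by
  simp only [tr, map_mul, Equiv.Perm.mul_apply]
  ring

/-- Vanishing drift for uncharged elements. -/
theorem drift_zero (hρ : ∀ g, IsIET (ρ g)) (x : G) (hx : ¬ Charged x) (f : ℝ →ₗ[ℚ] ℚ)
    {B : Set ℝ} (hB : MeasurableSet B) (hBx : ρ x ⁻¹' B = B) :
    ∫ p in B, ((f (tr (ρ x) p) : ℚ) : ℝ) = 0 := by
  by_contra hne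
  apply hx
  letI : MulAction G ℝ := MulAction.compHom ℝ ρ
  have hmp : ∀ g : G, MeasurePreserving (fun s : ℝ => g • s) volume volume := by
    intro g
    obtain ⟨P, hP⟩ := exists_disc ρ hρ g
    exact iet_mp hP
  have hint : ∀ g, Integrable (fun p => ((f (tr (ρ g) p) : ℚ) : ℝ)) volume := fun g =>
    iet_integrable (hρ g) (fun y => ((f y : ℚ) : ℝ)) (by simp)
  have hco : ∀ g h : G, ∀ᵐ p : ℝ, ((f (tr (ρ (g * h)) p) : ℚ) : ℝ) =
      ((f (tr (ρ g) (h • p)) : ℚ) : ℝ) + ((f (tr (ρ h) p) : ℚ) : ℝ) := by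
    intro g h
    refine ae_of_all _ fun p => ?_
    rw [tr_mul, map_add]
    push_cast
    rfl
  exact (charged_of_cocycle hmp (fun g p => ((f (tr (ρ g) p) : ℚ) : ℝ)) hint hco x hB hBx
    hne).charged (len_mul hmp _ hint hco)

/-- Elements with infinite order in the group of interval exchange transformations. -/
theorem iet_charged (hρ : ∀ g, IsIET (ρ g)) (x : G) (hx : ¬ IsOfFinOrder (ρ x)) : Charged x := by
  classical
  by_contra hnc
  rcases charged_or_incr ρ hρ x with h | ⟨P, D, hD⟩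
  · exact hnc h
  obtain ⟨⟨a, b, hab⟩, -⟩ := hρ x
  let t : ℤ → ℝ → ℝ := fun n p => tr (ρ (x ^ n)) p
  have hcoc : ∀ m n p, t (m + n) p = t m (ρ (x ^ n) p) + t n p := by
    intro m n p
    simp only [t]
    rw [zpow_add, tr_mul]
  let D' : Set ℝ := {d | d ∈ D ∨ -d ∈ D}
  have hD'fin : D'.Finite := by
    have h1 : D' = (D : Set ℝ) ∪ Neg.neg ⁻¹' (D : Set ℝ) := rfl
    rw [h1]
    exact D.finite_toSet.union (D.finite_toSet.preimage neg_injective.injOn)
  have hlev : ∀ n p q, kap P p = kap P q → t n p - t n q ∈ D' := by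
    intro n p q h
    rcases le_total p q with h1 | h1
    · right
      rw [neg_sub]
      exact hD n p q h1 (kap_eq h)
    · left
      exact hD n q p h1 (kap_eq h.symm)
  have hrange : ∀ n : ℤ, (Set.range (t n)).Finite := by
    intro n
    obtain ⟨Q, hQ⟩ := exists_disc ρ hρ (x ^ n)
    exact tr_finite hQ
  have hmeas : ∀ n : ℤ, Measurable (ρ (x ^ n)) := by
    intro n
    obtain ⟨Q, hQ⟩ := exists_disc ρ hρ (x ^ n)
    exact iet_measurable hQ
  -- the interval is invariant
  have hIco : ∀ p, ρ x p ∈ Ico a b ↔ p ∈ Ico a b := by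
    intro p
    constructor
    · intro h
      by_contra hp
      rw [hab p hp] at h
      exact hp h
    · intro hp
      by_contra h
      have h1 := hab _ h
      have h2 := (ρ x).injective h1
      rw [h2] at h
      exact h hp
  have hfix : ∀ (n : ℕ) p, p ∉ Ico a b → t n p = 0 := by
    intro n p hp
    have h1 : ∀ n : ℕ, (ρ x ^ n) p = p := by
      intro n
      induction n with
      | zero => rfl
      | succ n ih => rw [pow_succ, Equiv.Perm.mul_apply, hab p hp, ih]
    simp only [t, tr, zpow_natCast, map_pow]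
    rw [h1, sub_self]
  -- finiteness of the orbits
  have horb : ∀ p1 ∈ Ico a b, {d | ∃ n : ℕ, d = t n p1}.Finite := by
    intro p1 hp1
    let B : Set ℝ := {p | p ∈ Ico a b ∧ ∃ n : ℤ, kap P (ρ (x ^ n) p) = kap P p1}
    have hBm : MeasurableSet B := by
      have h1 : B = Ico a b ∩ ⋃ n : ℤ, (ρ (x ^ n)) ⁻¹' {p | kap P p = kap P p1} := by
        ext p
        simp [B]
      rw [h1]
      exact measurableSet_Ico.inter (MeasurableSet.iUnion fun n => hmeas n (kap_level P _))
    have hBx : ρ x ⁻¹' B = B := by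
      ext p
      simp only [B, mem_preimage, mem_setOf_eq, hIco]
      refine and_congr_right fun _ => ?_
      constructor
      · rintro ⟨n, hn⟩
        refine ⟨n + 1, ?_⟩
        rw [zpow_add, zpow_one, map_mul, Equiv.Perm.mul_apply]
        exact hn
      · rintro ⟨n, hn⟩
        refine ⟨n - 1, ?_⟩
        have h1 : ρ (x ^ (n - 1)) (ρ x p) = ρ (x ^ n) p := by
          rw [← Equiv.Perm.mul_apply, ← map_mul, ← zpow_add_one, sub_add_cancel]
        rw [h1]
        exact hn
    have hBsub : B ⊆ Ico a b := fun p hp => hp.1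
    have hBfin : volume B ≠ ⊤ := by
      refine ne_top_of_le_ne_top ?_ (measure_mono hBsub)
      simp
    have hBpos : 0 < volume.real B := by
      obtain ⟨y, hy1, hy2⟩ := exists_right P p1
      have h1 : Ico p1 (min y b) ⊆ B := by
        intro q hq
        refine ⟨⟨hp1.1.trans hq.1, lt_of_lt_of_le hq.2 (min_le_right _ _)⟩, 0, ?_⟩
        rw [zpow_zero, map_one]
        exact hy2 q hq.1 (lt_of_lt_of_le hq.2 (min_le_left _ _))
      have h2 : 0 < volume B := by
        refine lt_of_lt_of_le ?_ (measure_mono h1)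
        rw [Real.volume_Ico, ENNReal.ofReal_pos, sub_pos]
        exact lt_min hy1 hp1.2
      exact ENNReal.toReal_pos h2.ne' hBfin
    -- the translations on `B`
    have hj : ∀ K : Finset ℝ, ∃ j : ℤ, (∃ p ∈ B, kap P p = K) →
        ∃ p ∈ B, kap P p = K ∧ kap P (ρ (x ^ j) p) = kap P p1 := by
      intro K
      by_cases h : ∃ p ∈ B, kap P p = K
      · obtain ⟨p, hp, hpK⟩ := h
        obtain ⟨j, hj⟩ := hp.2
        exact ⟨j, fun _ => ⟨p, hp, hpK, hj⟩⟩
      · exact ⟨0, fun h1 => absurd h1 h⟩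
    choose j hj using hj
    let D2 : Set ℝ := ⋃ K ∈ P.powerset,
      (D' + (Set.range (t (j K)) - Set.range (t (j K))) + D')
    have hD2 : D2.Finite := by
      refine P.powerset.finite_toSet.biUnion fun K _ => ?_
      exact (hD'fin.add ((hrange _).sub (hrange _))).add hD'fin
    have hdiff : ∀ (n : ℤ), ∀ p ∈ B, t n p - t n p1 ∈ D2 := by
      intro n p hp
      obtain ⟨r, hr, hrK, hrj⟩ := hj (kap P p) ⟨p, hp, rfl⟩
      refine Set.mem_biUnion (x := kap P p) (kap_mem P p) ?_
      have h1 := hlev n p r hrK.symm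
      have h2 := hlev n _ _ hrj
      have h3 : t n r - t n (ρ (x ^ j (kap P p)) r) =
          t (j (kap P p)) r - t (j (kap P p)) (ρ (x ^ n) r) := by
        have h4 := hcoc n (j (kap P p)) r
        have h5 := hcoc (j (kap P p)) n r
        rw [add_comm] at h5
        linarith
      refine ⟨(t n p - t n r) + (t n r - t n (ρ (x ^ j (kap P p)) r)), ?_,
        t n (ρ (x ^ j (kap P p)) r) - t n p1, h2, by ring⟩
      refine ⟨t n p - t n r, h1, t n r - t n (ρ (x ^ j (kap P p)) r), ?_, rfl⟩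
      rw [h3]
      exact ⟨_, ⟨r, rfl⟩, _, ⟨ρ (x ^ n) r, rfl⟩, rfl⟩
    have hset : {d | ∃ n : ℕ, d = t n p1} ⊆
        AddSubgroup.closure (Set.range (tr (ρ x))) := by
      rintro _ ⟨n, rfl⟩
      induction n with
      | zero =>
        have h1 : t ((0 : ℕ) : ℤ) p1 = 0 := by simp [t, tr]
        rw [h1]
        exact AddSubgroup.zero_mem _
      | succ n ih =>
        have h1 : t ((n + 1 : ℕ) : ℤ) p1 = tr (ρ x) (ρ (x ^ (n : ℤ)) p1) + t n p1 := by
          have h2 := hcoc 1 n p1
          rw [add_comm] at h2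
          push_cast
          rw [h2]
          simp [t]
        rw [h1]
        exact AddSubgroup.add_mem _ (AddSubgroup.subset_closure ⟨_, rfl⟩) ih
    obtain ⟨Q, hQ⟩ := exists_disc ρ hρ x
    refine finite_of_bounded (tr_finite hQ) hset fun f => ?_
    obtain ⟨M, hM⟩ := (hD2.image fun d => |f d|).bddAbove
    refine ⟨M, ?_⟩
    rintro _ ⟨n, rfl⟩
    -- the integral over `B`
    have hint0 : ∀ n : ℕ, ∫ p in B, ((f (t n p) : ℚ) : ℝ) = 0 := by
      intro n
      induction n with
      | zero => simp [t, tr]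
      | succ n ih =>
        have h1 : ∀ p, ((f (t ((n + 1 : ℕ) : ℤ) p) : ℚ) : ℝ) =
            ((f (t n (ρ x p)) : ℚ) : ℝ) + ((f (tr (ρ x) p) : ℚ) : ℝ) := by
          intro p
          have h2 := hcoc n 1 p
          push_cast
          rw [h2, map_add]
          push_cast
          simp [t]
        simp only [h1]
        have hI : Integrable (fun p => ((f (t n p) : ℚ) : ℝ)) volume :=
          iet_integrable (hρ (x ^ (n : ℤ))) (fun y => ((f y : ℚ) : ℝ)) (by simp)
        have hI1 : Integrable (fun p => ((f (tr (ρ x) p) : ℚ) : ℝ)) volume :=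
          iet_integrable (hρ x) (fun y => ((f y : ℚ) : ℝ)) (by simp)
        let e : ℝ ≃ᵐ ℝ :=
          { toEquiv := ρ x
            measurable_toFun := iet_measurable hQ
            measurable_invFun := by
              have h3 := hmeas (-1)
              rw [zpow_neg_one, map_inv] at h3
              exact h3 }
        have hemb : MeasurableEmbedding (ρ x) := e.measurableEmbedding
        have hI2 : Integrable (fun p => ((f (t n (ρ x p)) : ℚ) : ℝ)) volume :=
          ((iet_mp hQ).integrable_comp_emb hemb).2 hI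
        rw [integral_add hI2.integrableOn hI1.integrableOn, drift_zero ρ hρ x hnc f hBm hBx,
          add_zero]
        have h4 := (iet_mp hQ).setIntegral_preimage_emb hemb
          (fun p => ((f (t n p) : ℚ) : ℝ)) B
        rw [hBx] at h4
        rw [h4, ih]
    have hI : Integrable (fun p => ((f (t n p) : ℚ) : ℝ)) volume :=
      iet_integrable (hρ (x ^ (n : ℤ))) (fun y => ((f y : ℚ) : ℝ)) (by simp)
    have h1 : ∫ p in B, (((f (t n p) : ℚ) : ℝ) - ((f (t n p1) : ℚ) : ℝ)) =
        - (volume.real B * ((f (t n p1) : ℚ) : ℝ)) := by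
      rw [integral_sub hI.integrableOn (integrableOn_const hBfin), hint0,
        setIntegral_const, smul_eq_mul, zero_sub]
    have h2 : ‖∫ p in B, (((f (t n p) : ℚ) : ℝ) - ((f (t n p1) : ℚ) : ℝ))‖ ≤
        (M : ℝ) * volume.real B := by
      refine norm_setIntegral_le_of_norm_le_const (lt_top_iff_ne_top.2 hBfin) fun p hp => ?_
      have h3 := hM ⟨t n p - t n p1, hdiff n p hp, rfl⟩
      simp only [map_sub] at h3
      rw [Real.norm_eq_abs]
      exact_mod_cast h3
    rw [h1, norm_neg, norm_mul, Real.norm_of_nonneg hBpos.le, mul_comm, Real.norm_eq_abs] at h2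
    have h3 := le_of_mul_le_mul_right h2 hBpos
    exact_mod_cast h3
  -- finitely many translations
  have hall : {d | ∃ (n : ℕ) (p : ℝ), p ∈ Ico a b ∧ d = t n p}.Finite := by
    have hK : ∀ K : Finset ℝ, ∃ U : Set ℝ, U.Finite ∧
        ∀ p ∈ Ico a b, kap P p = K → ∀ n : ℕ, t n p ∈ U := by
      intro K
      by_cases h : ∃ q ∈ Ico a b, kap P q = K
      · obtain ⟨q, hq, hqK⟩ := h
        refine ⟨D' + {d | ∃ n : ℕ, d = t n q}, hD'fin.add (horb q hq), fun p _ hpK n => ?_⟩
        exact ⟨t n p - t n q, hlev n p q (hpK.trans hqK.symm), t n q, ⟨n, rfl⟩, by ring⟩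
      · exact ⟨∅, Set.finite_empty, fun p hp hpK => absurd ⟨p, hp, hpK⟩ h⟩
    choose U hU1 hU2 using hK
    refine (P.powerset.finite_toSet.biUnion fun K _ => hU1 K).subset ?_
    rintro _ ⟨n, p, hp, rfl⟩
    exact Set.mem_biUnion (x := kap P p) (kap_mem P p) (hU2 _ p hp rfl n)
  let Θ : Finset ℝ := insert 0 hall.toFinset
  have hΘ : ∀ (n : ℕ) p, t n p ∈ Θ := by
    intro n p
    by_cases hp : p ∈ Ico a b
    · exact Finset.mem_insert_of_mem (hall.mem_toFinset.2 ⟨n, p, hp, rfl⟩)
    · rw [hfix n p hp]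
      exact Finset.mem_insert_self _ _
  apply hx
  rw [isOfFinOrder_iff_pow_eq_one]
  refine ⟨Θ.card.factorial, Nat.factorial_pos _, ?_⟩
  ext p
  -- two equal translations
  have hex : ∃ i ∈ Finset.range (Θ.card + 1), ∃ k ∈ Finset.range (Θ.card + 1), i ≠ k ∧
      t i p = t k p := by
    refine Finset.exists_ne_map_eq_of_card_lt_of_maps_to (f := fun i : ℕ => t i p) (t := Θ)
      (by simp) fun i _ => hΘ i p
  have hex' : ∃ i k : ℕ, i < k ∧ k ≤ Θ.card ∧ t i p = t k p := by
    obtain ⟨i, hi, k, hk, hne, h⟩ := hex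
    rw [Finset.mem_range] at hi hk
    rcases lt_or_gt_of_ne hne with h1 | h1
    · exact ⟨i, k, h1, by omega, h⟩
    · exact ⟨k, i, h1, by omega, h.symm⟩
  obtain ⟨i, k, hik, hk, h⟩ := hex'
  have h1 : (ρ x ^ i) p = (ρ x ^ k) p := by
    simp only [t, tr, zpow_natCast, map_pow] at h
    linarith
  have h2 : (ρ x ^ (k - i)) p = p := by
    have h3 : (ρ x ^ k) p = (ρ x ^ i) ((ρ x ^ (k - i)) p) := by
      rw [← Equiv.Perm.mul_apply, ← pow_add, Nat.add_sub_cancel' hik.le]
    rw [h3] at h1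
    exact ((ρ x ^ i).injective h1).symm
  have h3 : k - i ∣ Θ.card.factorial := Nat.dvd_factorial (by omega) (by omega)
  obtain ⟨m, hm⟩ := h3
  rw [hm, pow_mul]
  have h4 : ∀ m : ℕ, ((ρ x ^ (k - i)) ^ m) p = p := by
    intro m
    induction m with
    | zero => rfl
    | succ m ih => rw [pow_succ, Equiv.Perm.mul_apply, h2, ih]
  rw [h4]
  rfl

end Vale.Agent.P184.M
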