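import Vale.Agent.P184.R2.H270M.Rot

set_option linter.all false

/-!
# The clauses of the theorem on Lyapunov exponents and rotation vectors
-/

noncomputable section

open Matrix Finset Filter Topology MeasureTheory

namespace Vale.Agent.P184.Pn

universe u v w

theorem charged_all {G : Type u} [Group G] {x : G} (h : Charged x) :
    Mv.LocMoves.{w} x ∧ ¬ IsOfFinOrder x ∧ W.VanishesAt x := by
  have h1 : Mv.LocMoves.{w} x := Mv.moves_of_charged h
  exact ⟨h1, h1.infOrder, h1.vanishesAt⟩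

theorem coc_of {Γ : Type u} [Group Γ] {S : Type v} [MeasurableSpace S] [MulAction Γ S] {n : ℕ}
    {A : Γ → S → (Matrix (Fin n) (Fin n) ℂ)ˣ}
    (h1 : ∀ g h s, A (g * h) s = A g (h • s) * A h s)
    (h2 : ∀ g i j, Measurable fun s => (A g s : Matrix (Fin n) (Fin n) ℂ) i j) : Coc A := ⟨h1, h2⟩

theorem entries_of_size {n : ℕ} (g : (Mt n)ˣ) (i j : Fin n) : ‖(g : Mt n) i j‖ ≤ size g := by
  have h1 : ‖(g : Mt n) i j‖ ≤ ∑ i, ∑ j, ‖(g : Mt n) i j‖ := by
    refine le_trans ?_ (Finset.single_le_sum (f := fun i => ∑ j, ‖(g : Mt n) i j‖)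
      (fun i _ => Finset.sum_nonneg fun j _ => norm_nonneg _) (Finset.mem_univ i))
    exact Finset.single_le_sum (f := fun j => ‖(g : Mt n) i j‖) (fun j _ => norm_nonneg _)
      (Finset.mem_univ j)
  exact h1.trans (le_add_of_nonneg_right (Finset.sum_nonneg fun i _ =>
    Finset.sum_nonneg fun j _ => norm_nonneg _))

end Vale.Agent.P184.Pn
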