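import Vale.Agent.P184.R2.H270M.Comm
import Vale.Agent.P184.R2.H270M.Cat

set_option linter.all false

/-!
# Stabilizers of commensurate sets, and hyperbolic isometries of `CAT(0)` spaces
-/

noncomputable section

namespace Vale.Agent.P184.M

universe u v

section Walls

variable {G : Type u} [Group G] {S : Type v} [MulAction G S]

/-- Either `x` is charged, or it stabilizes a set commensurate to `A`. -/
theorem charged_or_stab (x : G) (A : Set S) (hA : ∀ g : G, (dset A g).Finite) :
    CharLe x (clen A) ∨ ∃ A' : Set S, {s | ¬ (s ∈ A ↔ s ∈ A')}.Finite ∧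
      ∀ s, x • s ∈ A' ↔ s ∈ A' := by
  classical
  rcases charged_or x A hA with h | ⟨R, hR, h⟩
  · exact Or.inl h
  right
  let A' : Set S := {s | {n : ℤ | x ^ n • s ∉ A}.Finite}
  refine ⟨A', ?_, fun s => ?_⟩
  · -- the symmetric difference
    have hsub : {s | ¬ (s ∈ A ↔ s ∈ A')} ⊆ R ∪ ⋃ r ∈ {r ∈ R | ¬ Function.Injective
        fun n : ℤ => x ^ n • r}, Set.range fun n : ℤ => x ^ n • r := by
      intro s hs
      by_cases hsR : s ∈ R
      · exact Or.inl hsR
      right
      have hinvR : ∀ n : ℤ, x ^ n • s ∉ R → (s ∈ A ↔ x ^ n • s ∈ A) := fun n hn =>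
        (h s hsR n).resolve_right hn
      -- some point of the orbit is in `R`
      have hne : ∃ n : ℤ, x ^ n • s ∈ R := by
        by_contra hcon
        push Not at hcon
        apply hs
        constructor
        · intro hsA
          have : {n : ℤ | x ^ n • s ∉ A} = ∅ := by
            ext n
            simp only [Set.mem_setOf_eq, Set.mem_empty_iff_false, iff_false, not_not]
            exact (hinvR n (hcon n)).1 hsA
          change {n : ℤ | x ^ n • s ∉ A}.Finite
          rw [this]
          exact Set.finite_empty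
        · intro hsA'
          by_contra hsA
          have : {n : ℤ | x ^ n • s ∉ A} = Set.univ := by
            ext n
            simp only [Set.mem_setOf_eq, Set.mem_univ, iff_true]
            exact fun h1 => hsA ((hinvR n (hcon n)).2 h1)
          change {n : ℤ | x ^ n • s ∉ A}.Finite at hsA'
          rw [this] at hsA'
          exact Set.infinite_univ hsA'
      obtain ⟨n0, hn0⟩ := hne
      have hback : x ^ (-n0) • x ^ n0 • s = s := by
        rw [← mul_smul, ← zpow_add, neg_add_cancel, zpow_zero, one_smul]
      refine Set.mem_biUnion (x := x ^ n0 • s) ⟨hn0, fun hinj => hs ?_⟩ ⟨-n0, hback⟩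
      -- infinite orbits
      have hinj' : Function.Injective fun n : ℤ => x ^ n • s := by
        intro a b hab
        simp only at hab
        have h1 : x ^ (a - n0) • x ^ n0 • s = x ^ (b - n0) • x ^ n0 • s := by
          rw [← mul_smul, ← mul_smul, ← zpow_add, ← zpow_add, sub_add_cancel, sub_add_cancel]
          exact hab
        have h2 := hinj h1
        omega
      have hfinR : {n : ℤ | x ^ n • s ∈ R}.Finite := hR.preimage hinj'.injOn
      constructor
      · intro hsA
        refine hfinR.subset fun n hn => ?_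
        by_contra hnR
        exact hn ((hinvR n hnR).1 hsA)
      · intro hsA'
        by_contra hsA
        have h1 : (Set.univ : Set ℤ) ⊆ {n : ℤ | x ^ n • s ∉ A} ∪ {n : ℤ | x ^ n • s ∈ R} := by
          intro n _
          by_cases hnR : x ^ n • s ∈ R
          · exact Or.inr hnR
          · exact Or.inl fun h2 => hsA ((hinvR n hnR).2 h2)
        exact Set.infinite_univ ((hsA'.union hfinR).subset h1)
    refine (hR.union ((hR.subset (Set.sep_subset _ _)).biUnion fun r hr => ?_)).subset hsub
    -- finite orbits
    have hinj := hr.2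
    have h3 : ∃ m : ℤ, 0 < m ∧ x ^ m • r = r := by
      simp only [Function.Injective, not_forall] at hinj
      obtain ⟨a, b, hab, hne⟩ := hinj
      rcases lt_or_gt_of_ne hne with h | h
      · refine ⟨b - a, by omega, ?_⟩
        have h5 : x ^ (b - a) • r = (x ^ a)⁻¹ • x ^ b • r := by
          rw [← mul_smul, ← zpow_neg, ← zpow_add]
          congr 2
          ring
        rw [h5, ← hab, inv_smul_smul]
      · refine ⟨a - b, by omega, ?_⟩
        have h5 : x ^ (a - b) • r = (x ^ b)⁻¹ • x ^ a • r := by
          rw [← mul_smul, ← zpow_neg, ← zpow_add]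
          congr 2
          ring
        rw [h5, hab, inv_smul_smul]
    obtain ⟨m, hm, hmt⟩ := h3
    have h4 : ∀ k : ℤ, (x ^ m) ^ k • r = r := by
      intro k
      have h5 : x ^ m ∈ MulAction.stabilizer G r := hmt
      exact (MulAction.stabilizer G r).zpow_mem h5 k
    refine ((Set.finite_Ico (0 : ℤ) m).image fun n : ℤ => x ^ n • r).subset ?_
    rintro _ ⟨n, rfl⟩
    refine ⟨n % m, ⟨Int.emod_nonneg _ hm.ne', Int.emod_lt_of_pos _ hm⟩, ?_⟩
    simp only
    conv_rhs => rw [← Int.emod_add_mul_ediv n m, zpow_add, zpow_mul, mul_smul, h4]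
  · -- invariance
    have h1 : {n : ℤ | x ^ n • x • s ∉ A} = (fun n : ℤ => n + 1) ⁻¹' {n : ℤ | x ^ n • s ∉ A} := by
      ext n
      simp only [Set.mem_setOf_eq, Set.mem_preimage]
      rw [zpow_add_one, mul_smul]
    change {n : ℤ | x ^ n • x • s ∉ A}.Finite ↔ {n : ℤ | x ^ n • s ∉ A}.Finite
    rw [h1]
    constructor
    · intro hfin
      have h2 := hfin.image fun n : ℤ => n + 1
      rw [Set.image_preimage_eq _ fun n => ⟨n - 1, by simp⟩] at h2
      exact h2
    · intro hfin
      exact hfin.preimage fun a _ b _ hab => by simpa using hab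

/-- If the stabilizers of the sets commensurate to `A` are torsion groups, the elements of
infinite order are charged. -/
theorem charged_of_stab (A : Set S) (hA : ∀ g : G, (dset A g).Finite)
    (hst : ∀ A' : Set S, {s | ¬ (s ∈ A ↔ s ∈ A')}.Finite →
      ∀ g : G, (∀ s, g • s ∈ A' ↔ s ∈ A') → IsOfFinOrder g) {x : G} (hx : ¬ IsOfFinOrder x) :
    Charged x := by
  rcases charged_or_stab x A hA with h | ⟨A', h1, h2⟩
  · exact h.charged (clen_mul hA)
  · exact absurd (hst A' h1 x h2) hx

end Walls

section Hyp

variable {G : Type u} [Group G] {X : Type v} [MetricSpace X] [MulAction G X]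

theorem Mid.dist_left {p q m : X} (h : Mid p q m) : dist p m ≤ dist p q / 2 := by
  have := h.dist_le p
  rwa [dist_self, zero_add] at this

theorem Mid.dist_right {p q m : X} (h : Mid p q m) : dist q m ≤ dist p q / 2 := by
  have := h.dist_le q
  rwa [dist_self, add_zero, dist_comm q p] at this

/-- Midpoints of two sides of a triangle. -/
theorem mid_mid {p q r m k : X} (hm : Mid p q m) (hk : Mid q r k) :
    dist m k ≤ dist p r / 2 := by
  -- the inequality for the distances to the midpoints
  have h1 := hk m
  have h2 := hm q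
  have h3 := hm r
  have h4 := hk p
  rw [dist_comm m q, dist_comm m r] at h1
  have h5 : dist q m ≤ dist p q / 2 := hm.dist_right
  have h6 : dist q p = dist p q := dist_comm _ _
  rw [dist_self, h6] at h2
  rw [dist_comm r p, dist_comm r q] at h3
  have h7 : dist m k ^ 2 ≤ (dist p r / 2) ^ 2 := by nlinarith [sq_nonneg (dist q m)]
  exact (pow_le_pow_iff_left₀ dist_nonneg (by positivity) two_ne_zero).1 h7

/-- Hyperbolic isometries have positive translation length. -/
theorem hyp_linear (hX : ∀ p q : X, ∃ m, Mid p q m)
    (hiso : ∀ (g : G) (a b : X), dist (g • a) (g • b) = dist a b) (x : G) {p : X}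
    (hp : ∀ q : X, dist p (x • p) ≤ dist q (x • q)) (n : ℕ) :
    dist p (x • p) * n ≤ dist p (x ^ n • p) := by
  set δ := dist p (x • p) with hδ
  -- powers of two
  have hpow : ∀ (k : ℕ) (q : X), δ * 2 ^ k ≤ dist q (x ^ (2 ^ k) • q) := by
    intro k
    induction k with
    | zero => intro q; simpa using hp q
    | succ k ih =>
      intro q
      set y := x ^ (2 ^ k) with hy
      have hyy : x ^ (2 ^ (k + 1)) = y * y := by
        rw [hy, ← pow_add]
        congr 1
        ring
      obtain ⟨m, hm⟩ := hX q (y • q)
      have hm' : Mid (y • q) (y • y • q) (y • m) := by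
        intro z
        have h1 := hm (y⁻¹ • z)
        have h2 : ∀ a : X, dist (y⁻¹ • z) a = dist z (y • a) := by
          intro a
          rw [← hiso y (y⁻¹ • z) a, smul_inv_smul]
        rw [h2, h2, h2] at h1
        rwa [hiso]
      have h3 := mid_mid hm hm'
      have h4 := ih m
      rw [hyy, mul_smul, pow_succ]
      linarith
  have hupper : ∀ k : ℕ, dist p (x ^ k • p) ≤ k * δ := by
    intro k
    induction k with
    | zero => simp
    | succ k ih =>
      have h1 := dist_triangle p (x ^ k • p) (x ^ (k + 1) • p)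
      have h2 : dist (x ^ k • p) (x ^ (k + 1) • p) = δ := by
        rw [pow_succ, mul_smul, hiso]
      push_cast
      linarith
  obtain ⟨k, hk⟩ : ∃ k : ℕ, n ≤ 2 ^ k := ⟨n, (Nat.lt_two_pow_self).le⟩
  have h1 := hpow k p
  have h2 := dist_triangle p (x ^ n • p) (x ^ (2 ^ k) • p)
  have h3 : dist (x ^ n • p) (x ^ (2 ^ k) • p) = dist p (x ^ (2 ^ k - n) • p) := by
    have h4 : x ^ (2 ^ k) = x ^ n * x ^ (2 ^ k - n) := by
      rw [← pow_add, Nat.add_sub_cancel' hk]
    rw [h4, mul_smul, hiso]
  have h4 := hupper (2 ^ k - n)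
  rw [Nat.cast_sub hk] at h4
  push_cast at h4
  rw [h3] at h2
  nlinarith

end Hyp

end Vale.Agent.P184.M
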