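import Vale.Agent.P184.R2.H270M.MTop
import Vale.Agent.P184.R2.H270M.Stab

set_option linter.all false

/-!
# Actions of the whole group, relatively hyperbolic groups
-/

noncomputable section

open MeasureTheory

namespace Vale.Agent.P184.Mv

open W (Cen)
open M (CharLe)

universe u v w

section Whole

variable {G : Type u} [Group G]

/-- Hyperbolic isometries of `CAT(0)` spaces. -/
theorem moves_hyp {Y : Type w} [MetricSpace Y] [MulAction G Y] (hY : CN Y)
    (hiso : ∀ (g : G) (a b : Y), dist (g • a) (g • b) = dist a b) (x : G) (o : Y)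
    (ho : x • o ≠ o) (hmin : ∀ z : Y, dist o (x • o) ≤ dist z (x • z)) : LocMoves.{w} x :=
  moves_cat hY hiso x o (dist_pos.2 (Ne.symm ho)) fun n => M.hyp_linear hY hiso x hmin n

/-- Banach spaces with strictly convex dual. -/
theorem moves_banach {E : Type w} [NormedAddCommGroup E] [NormedSpace ℝ E] [MulAction G E]
    [StrictConvexSpace ℝ (StrongDual ℝ E)]
    (hiso : ∀ (g : G) (a b : E), dist (g • a) (g • b) = dist a b) (x : G) (o : E) {ε : ℝ}
    (hε : 0 < ε) (hx : ∀ n : ℕ, ε * n ≤ dist o (x ^ n • o)) : LocMoves.{w} x :=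
  Moves.loc (Or.inr (Or.inl ⟨E, inferInstance, inferInstance, inferInstance, inferInstance,
    translates_of hiso x o hε hx⟩))

/-- Integrable cocycles. -/
theorem moves_drift {S : Type w} [MeasurableSpace S] [MulAction G S] {μ : Measure S}
    [SigmaFinite μ] (hmp : ∀ g : G, MeasurePreserving (fun s : S => g • s) μ μ)
    (σ : G → S → ℝ) (hσ : ∀ g, Integrable (σ g) μ)
    (hco : ∀ g h, ∀ᵐ s ∂μ, σ (g * h) s = σ g (h • s) + σ h s) (x : G) {B : Set S}
    (hB : MeasurableSet B) (hBx : (fun s => x • s) ⁻¹' B = B) (hne : ∫ s in B, σ x s ∂μ ≠ 0) :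
    LocMoves.{w} x := by
  refine moves_of_charged ((M.charged_of_cocycle hmp σ hσ hco x hB hBx hne).charged ?_)
  exact fun g h => M.len_mul hmp σ hσ hco g h

/-- Commensurated subsets with torsion stabilizers. -/
theorem moves_stab {S : Type v} [MulAction G S] (A : Set S)
    (hA : ∀ g : G, {s | ¬ (s ∈ A ↔ g • s ∈ A)}.Finite)
    (hst : ∀ A' : Set S, {s | ¬ (s ∈ A ↔ s ∈ A')}.Finite →
      ∀ g : G, (∀ s, g • s ∈ A' ↔ s ∈ A') → IsOfFinOrder g) {x : G} (hx : ¬ IsOfFinOrder x) :
    LocMoves.{w} x :=
  moves_of_charged (M.charged_of_stab A hA hst hx)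

/-- Isometric cocycles over measure preserving actions. -/
theorem moves_field {S : Type v} {Y : Type w} [MeasurableSpace S] [MulAction G S]
    [MetricSpace Y] [SecondCountableTopology Y] [MeasurableSpace Y] [BorelSpace Y] (hY : CN Y)
    {μ : Measure S} {β : G → S → Y → Y} {o : Y} (h : IsoCocycle μ β o) (x : G) {ε : ℝ}
    (hε : 0 < ε) (hx : ∀ n : ℕ, ε * n ≤ √(∫ s, dist o (β (x ^ n) s o) ^ 2 ∂μ)) :
    LocMoves.{w} x :=
  moves_of_charged ((M.charged_of_field h.fld hY x hε hx).charged (M.field_len h.fld))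

theorem sup_len {S Y : Type*} [Nonempty S] [MulAction G S] [MetricSpace Y]
    {β : G → S → Y → Y} {o : Y} (hmul : ∀ g h s y, β (g * h) s y = β g (h • s) (β h s y))
    (hiso : ∀ g s a b, dist (β g s a) (β g s b) = dist a b)
    (hb : ∀ g, BddAbove (Set.range fun s => dist o (β g s o))) (g h : G) :
    (⨆ s, dist o (β (g * h) s o)) ≤ (⨆ s, dist o (β g s o)) + ⨆ s, dist o (β h s o) := by
  refine ciSup_le fun s => ?_
  rw [hmul]
  have h1 := dist_triangle o (β g (h • s) o) (β g (h • s) (β h s o))
  rw [hiso] at h1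
  exact h1.trans (add_le_add (le_ciSup (hb g) (h • s)) (le_ciSup (hb h) s))

/-- Isometric cocycles of bounded displacement, and measures invariant under the centralizer. -/
theorem moves_sup {S Y : Type w} [MeasurableSpace S] [MulAction G S]
    [MetricSpace Y] [SecondCountableTopology Y] [MeasurableSpace Y] [BorelSpace Y] (hY : CN Y)
    {β : G → S → Y → Y} {o : Y} (hone : ∀ s y, β 1 s y = y)
    (hmul : ∀ g h s y, β (g * h) s y = β g (h • s) (β h s y))
    (hiso : ∀ g s a b, dist (β g s a) (β g s b) = dist a b)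
    (hmeas : ∀ g, Measurable fun q : S × Y => β g q.1 q.2)
    (hb : ∀ g, BddAbove (Set.range fun s => dist o (β g s o))) (x : G) {μ : Measure S}
    [IsFiniteMeasure μ] (hμ : ∀ c, Commute c x → MeasurePreserving (fun s : S => c • s) μ μ)
    {ε : ℝ} (hε : 0 < ε) (hx : ∀ n : ℕ, ε * n ≤ ∫ s, dist o (β (x ^ n) s o) ∂μ) :
    LocMoves.{w} x := by
  have hm : ∀ g, Measurable fun s : S => dist o (β g s o) := fun g =>
    measurable_const.dist ((hmeas g).comp (measurable_id.prodMk measurable_const))
  have hle : ∀ g s, dist o (β g s o) ≤ ⨆ s, dist o (β g s o) := fun g s => le_ciSup (hb g) s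
  have hne : Nonempty S := by
    by_contra hcon
    rw [not_nonempty_iff] at hcon
    have h1 := hx 1
    rw [Measure.eq_zero_of_isEmpty μ, integral_zero_measure] at h1
    norm_num at h1
    linarith
  have hint : ∀ g, Integrable (fun s => dist o (β g s o)) μ := fun g =>
    Integrable.of_bound (hm g).aestronglyMeasurable (⨆ s, dist o (β g s o)) (ae_of_all _ fun s => by
      rw [Real.norm_of_nonneg dist_nonneg]
      exact hle g s)
  have hint2 : ∀ g, Integrable (fun s => dist o (β g s o) ^ 2) μ := fun g =>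
    Integrable.of_bound ((hm g).pow_const 2).aestronglyMeasurable ((⨆ s, dist o (β g s o)) ^ 2)
      (ae_of_all _ fun s => by
        rw [Real.norm_of_nonneg (sq_nonneg _)]
        exact pow_le_pow_left₀ dist_nonneg (hle g s) 2)
  have hsup0 : ∀ g, 0 ≤ ⨆ s, dist o (β g s o) := fun g =>
    (dist_nonneg).trans (hle g (Classical.arbitrary S))
  set K := √(μ.real Set.univ) with hK
  have hK0 : 0 ≤ K := Real.sqrt_nonneg _
  -- comparison of the norms
  have hcmp : ∀ g, ∫ s, dist o (β g s o) ∂μ ≤ K * √(∫ s, dist o (β g s o) ^ 2 ∂μ) := by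
    intro g
    rw [hK, ← Real.sqrt_mul measureReal_nonneg]
    refine Real.le_sqrt_of_sq_le ?_
    have hI : 0 ≤ ∫ s, dist o (β g s o) ∂μ := integral_nonneg fun s => dist_nonneg
    set I := ∫ s, dist o (β g s o) ∂μ
    set m := μ.real Set.univ with hmdef
    have h0 : 0 ≤ ∫ s, (m * dist o (β g s o) - I) ^ 2 ∂μ := integral_nonneg fun s => sq_nonneg _
    have h1 : ∫ s, (m * dist o (β g s o) - I) ^ 2 ∂μ =
        m ^ 2 * ∫ s, dist o (β g s o) ^ 2 ∂μ - m * I ^ 2 := by
      have h2 : ∀ s, (m * dist o (β g s o) - I) ^ 2 =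
          (m ^ 2 * dist o (β g s o) ^ 2 - 2 * m * I * dist o (β g s o)) + I ^ 2 := fun s => by
        ring
      simp only [h2]
      have hA : Integrable (fun s => m ^ 2 * dist o (β g s o) ^ 2) μ := (hint2 g).const_mul _
      have hB : Integrable (fun s => 2 * m * I * dist o (β g s o)) μ := (hint g).const_mul _
      have hAB : Integrable (fun s => m ^ 2 * dist o (β g s o) ^ 2 -
        2 * m * I * dist o (β g s o)) μ := hA.sub hB
      rw [integral_add hAB (integrable_const _), integral_sub hA hB, integral_const_mul,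
        integral_const_mul, integral_const, smul_eq_mul]
      change m ^ 2 * _ - 2 * m * I * I + m * I ^ 2 = _
      ring
    rw [h1] at h0
    have hm0 : 0 ≤ m := measureReal_nonneg
    rcases hm0.eq_or_lt with h3 | h3
    · have h4 : I = 0 := by
        have h5 : μ = 0 := by
          have h6 : μ Set.univ = 0 := by
            have := h3.symm
            rw [hmdef, measureReal_def, ENNReal.toReal_eq_zero_iff] at this
            exact this.resolve_right (measure_ne_top _ _)
          exact Measure.measure_univ_eq_zero.1 h6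
        change ∫ s, dist o (β g s o) ∂μ = 0
        rw [h5, integral_zero_measure]
      rw [h4, ← h3]
      simp
    · have h4 : 0 ≤ m * (m * ∫ s, dist o (β g s o) ^ 2 ∂μ - I ^ 2) := by nlinarith
      have h5 := nonneg_of_mul_nonneg_right h4 h3
      linarith
  have hKpos : 0 < K := by
    rcases hK0.eq_or_lt with h1 | h1
    · exfalso
      have h2 := (hx 1).trans (hcmp (x ^ 1))
      rw [← h1] at h2
      norm_num at h2
      linarith
    · exact h1
  refine Moves.loc (Or.inr (Or.inr (Or.inr (Or.inr (Or.inr ⟨S, Y, inferInstance, inferInstance,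
    inferInstance, inferInstance, inferInstance, inferInstance, μ, fun c => β c, o, ε / K, hY,
    ⟨fun c => hμ c (mem_cen.1 c.2), hone, fun g h s y => hmul g h s y, fun g => hiso g,
      fun g => hmeas g, fun g => hint2 g⟩, by positivity, ?_, fun n => ?_⟩)))))
  · refine dominated_of_le (fun g => K * ⨆ s, dist o (β g s o)) (fun g h => ?_) fun c => ?_
    · rw [← mul_add]
      exact mul_le_mul_of_nonneg_left (sup_len hmul hiso hb g h) hK0
    · rw [hK]
      refine Real.sqrt_le_iff.2 ⟨mul_nonneg hK0 (hsup0 _), ?_⟩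
      rw [mul_pow, Real.sq_sqrt measureReal_nonneg]
      have h1 : ∫ s, dist o (β c s o) ^ 2 ∂μ ≤ ∫ s, (⨆ s, dist o (β c s o)) ^ 2 ∂μ :=
        integral_mono (hint2 c) (integrable_const _) fun s =>
          pow_le_pow_left₀ dist_nonneg (hle c s) 2
      rw [integral_const, smul_eq_mul] at h1
      exact h1
  · rw [div_mul_eq_mul_div, div_le_iff₀ hKpos, mul_comm _ K]
    exact (hx n).trans (hcmp (x ^ n))

end Whole

theorem l1Bass_of_mild_moves {G : Type u} [Group G]
    (h : ∀ x : G, ¬ IsOfFinOrder x → W.Mild x ∨ LocMoves.{w} x)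
    (htor : H940.SoftTor G ∨ LocFinTorsion G) : W.L1Bass G :=
  H940.l1Bass_of_soft (fun x hx => (h x hx).imp_right fun h => h.almostCoc)
    (htor.elim id H940.softTor_of_finite)

theorem relHyp_moves {G : Type u} [Group G] {ι : Type v} {H : ι → Subgroup G}
    (hG : W.IsRelHyp H) (hH : ∀ k, ∀ x : H k, ¬ IsOfFinOrder x → W.Mild x ∨ LocMoves.{w} x)
    (htor : ∀ k, H940.SoftTor (H k) ∨ LocFinTorsion (H k)) : W.L1Bass G :=
  H940.l1Bass_of_soft
    (H940.relHyp_softInf hG fun k x hx => (hH k x hx).imp_right fun h => h.almostCoc)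
    (H940.relHyp_softTor hG fun k => (htor k).elim id H940.softTor_of_finite)

end Vale.Agent.P184.Mv
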