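import Vale.Agent.P184.R2.H270M.Pn3
import Vale.Agent.P184.R2.H270M.MTop2

set_option linter.all false

/-!
# Nonzero Lyapunov exponents
-/

noncomputable section

open Matrix Finset Filter Topology MeasureTheory
open scoped ComplexOrder

namespace Vale.Agent.P184.Pn

variable {n : ℕ}

/-- The identity matrix. -/
def one : PD n := ⟨1, Matrix.PosDef.one⟩

/-- The displacement of the identity matrix. -/
def disp (g : (Mt n)ˣ) : ℝ := dist (one : PD n) (g • (one : PD n))

theorem disp_nonneg (g : (Mt n)ˣ) : 0 ≤ disp g := dist_nonneg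

/-- The size of an invertible matrix: the sum of the absolute values of its entries and of the
entries of its inverse. -/
def size (g : (Mt n)ˣ) : ℝ :=
  ∑ i, ∑ j, ‖(g : Mt n) i j‖ + ∑ i, ∑ j, ‖((g⁻¹ : (Mt n)ˣ) : Mt n) i j‖

theorem dl_one {P : Mt n} (hP : P.PosDef) : dl 1 P = fn (lg P) := by
  have h1 := dl_eq (1 : (Mt n)ˣ) (lg_herm P)
  rwa [Units.val_one, conjTranspose_one, one_mul, one_mul, mul_one, ex_lg hP] at h1

theorem dist_one (g : (Mt n)ˣ) : disp g = fn (lg ((g : Mt n) * (g : Mt n)ᴴ)) := by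
  have h1 : (g • one : PD n).1 = (g : Mt n) * (g : Mt n)ᴴ := by
    rw [smul_val]
    change (g : Mt n) * 1 * (g : Mt n)ᴴ = _
    rw [mul_one]
  have h2 : disp g = dl 1 ((g : Mt n) * (g : Mt n)ᴴ) := by
    rw [disp, dist_def, h1]
    rfl
  rw [h2, dl_one]
  rw [← h1]
  exact (g • one : PD n).2

theorem dist_inv (g : (Mt n)ˣ) : disp g⁻¹ = disp g := by
  rw [disp, ← pd_iso g (one : PD n) (g⁻¹ • (one : PD n)), smul_inv_smul, dist_comm, disp]

theorem log_eig_le {P : Mt n} (hP : P.PosDef) (i : Fin n) :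
    |Real.log (hP.isHermitian.eigenvalues i)| ≤ fn (lg P) := by
  refine (pow_le_pow_iff_left₀ (abs_nonneg _) (fn_nonneg _) two_ne_zero).1 ?_
  rw [sq_abs, lg, fn_cfc hP.isHermitian]
  exact Finset.single_le_sum (f := fun i => Real.log (hP.isHermitian.eigenvalues i) ^ 2)
    (fun j _ => sq_nonneg _) (Finset.mem_univ i)

theorem diag_le {P : Mt n} (hP : P.PosDef) (i : Fin n) : (P i i).re ≤ Real.exp (fn (lg P)) := by
  have hH := hP.isHermitian
  have h1 : (P i i).re = ∑ k, hH.eigenvalues k * ‖(hH.eigenvectorUnitary : Mt n) i k‖ ^ 2 := by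
    have h2 := cfc_spec hH fun x => x
    rw [id_cfc hH] at h2
    have h3 := congrFun (congrFun h2 i) i
    rw [h3, mul_apply, Complex.re_sum]
    refine Finset.sum_congr rfl fun k _ => ?_
    rw [mul_diagonal, conjTranspose_apply, Complex.star_def]
    have h4 : (hH.eigenvectorUnitary : Mt n) i k * ((hH.eigenvalues k : ℝ) : ℂ) *
        (starRingEnd ℂ) ((hH.eigenvectorUnitary : Mt n) i k) =
        ((hH.eigenvalues k * ‖(hH.eigenvectorUnitary : Mt n) i k‖ ^ 2 : ℝ) : ℂ) := by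
      have h5 := Complex.mul_conj ((hH.eigenvectorUnitary : Mt n) i k)
      rw [Complex.normSq_eq_norm_sq] at h5
      push_cast at h5 ⊢
      rw [← h5]
      ring
    rw [h4, Complex.ofReal_re]
  have h2 : ∑ k, ‖(hH.eigenvectorUnitary : Mt n) i k‖ ^ 2 = 1 := by
    have h3 := congrFun (congrFun (uni_right hH) i) i
    rw [mul_apply, one_apply_eq] at h3
    have h4 := congrArg Complex.re h3
    rw [Complex.re_sum, Complex.one_re] at h4
    rw [← h4]
    refine Finset.sum_congr rfl fun k _ => ?_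
    rw [conjTranspose_apply, Complex.star_def, Complex.mul_conj, Complex.ofReal_re,
      Complex.normSq_eq_norm_sq]
  rw [h1, ← mul_one (Real.exp (fn (lg P))), ← h2, Finset.mul_sum]
  refine Finset.sum_le_sum fun k _ => mul_le_mul_of_nonneg_right ?_ (sq_nonneg _)
  have h3 := (le_abs_self _).trans (log_eig_le hP k)
  rwa [← Real.log_le_iff_le_exp (hP.eigenvalues_pos k)]

theorem entry_le (g : (Mt n)ˣ) (i j : Fin n) :
    ‖(g : Mt n) i j‖ ≤ Real.exp (disp g / 2) := by
  have hP : ((g : Mt n) * (g : Mt n)ᴴ).PosDef := by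
    have := cong_posDef g (Matrix.PosDef.one (n := Fin n) (R := ℂ))
    rwa [mul_one] at this
  have h1 := diag_le hP i
  rw [← dist_one] at h1
  have h2 : (((g : Mt n) * (g : Mt n)ᴴ) i i).re = ∑ j, ‖(g : Mt n) i j‖ ^ 2 := by
    rw [mul_apply, Complex.re_sum]
    refine Finset.sum_congr rfl fun k _ => ?_
    rw [conjTranspose_apply, Complex.star_def, Complex.mul_conj, Complex.ofReal_re,
      Complex.normSq_eq_norm_sq]
  rw [h2] at h1
  have h3 : ‖(g : Mt n) i j‖ ^ 2 ≤ ∑ j, ‖(g : Mt n) i j‖ ^ 2 :=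
    Finset.single_le_sum (f := fun j => ‖(g : Mt n) i j‖ ^ 2) (fun j _ => sq_nonneg _)
      (Finset.mem_univ j)
  refine (pow_le_pow_iff_left₀ (norm_nonneg _) (Real.exp_pos _).le two_ne_zero).1 ?_
  rw [← Real.exp_nat_mul]
  push_cast
  rw [mul_div_cancel₀ _ two_ne_zero]
  exact h3.trans h1

theorem size_le (g : (Mt n)ˣ) :
    size g ≤ 2 * n ^ 2 * Real.exp (disp g / 2) := by
  have h1 : ∑ i, ∑ j, ‖(g : Mt n) i j‖ ≤
      ∑ _i : Fin n, ∑ _j : Fin n, Real.exp (disp g / 2) :=
    Finset.sum_le_sum fun i _ => Finset.sum_le_sum fun j _ => entry_le g i j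
  have h2 : ∑ i, ∑ j, ‖((g⁻¹ : (Mt n)ˣ) : Mt n) i j‖ ≤
      ∑ _i : Fin n, ∑ _j : Fin n, Real.exp (disp g / 2) :=
    Finset.sum_le_sum fun i _ => Finset.sum_le_sum fun j _ => by
      have := entry_le g⁻¹ i j
      rwa [dist_inv] at this
  simp only [Finset.sum_const, Finset.card_univ, Fintype.card_fin, nsmul_eq_mul] at h1 h2
  rw [size]
  linarith

theorem size_nonneg (g : (Mt n)ˣ) : 0 ≤ size g :=
  add_nonneg (Finset.sum_nonneg fun i _ => Finset.sum_nonneg fun j _ => norm_nonneg _)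
    (Finset.sum_nonneg fun i _ => Finset.sum_nonneg fun j _ => norm_nonneg _)

theorem fn_le_sum (X : Mt n) : fn X ≤ ∑ i, ∑ j, ‖X i j‖ := by
  have h0 : 0 ≤ ∑ i, ∑ j, ‖X i j‖ :=
    Finset.sum_nonneg fun i _ => Finset.sum_nonneg fun j _ => norm_nonneg _
  refine (pow_le_pow_iff_left₀ (fn_nonneg _) h0 two_ne_zero).1 ?_
  rw [fn_sq, sq, Finset.sum_mul]
  refine Finset.sum_le_sum fun i _ => ?_
  rw [Finset.sum_mul]
  refine Finset.sum_le_sum fun j _ => ?_
  rw [sq]
  refine mul_le_mul_of_nonneg_left ?_ (norm_nonneg _)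
  refine le_trans ?_ (Finset.single_le_sum (f := fun i => ∑ j, ‖X i j‖)
    (fun i _ => Finset.sum_nonneg fun j _ => norm_nonneg _) (Finset.mem_univ i))
  exact Finset.single_le_sum (f := fun j => ‖X i j‖) (fun j _ => norm_nonneg _)
    (Finset.mem_univ j)

/-- The displacement of the identity matrix. -/
theorem dist_le (g : (Mt n)ˣ) : disp g ≤ 2 * n * Real.log (size g) := by
  have hP : ((g : Mt n) * (g : Mt n)ᴴ).PosDef := by
    have := cong_posDef g (Matrix.PosDef.one (n := Fin n) (R := ℂ))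
    rwa [mul_one] at this
  have hH := hP.isHermitian
  rcases Nat.eq_zero_or_pos n with rfl | hn
  · rw [dist_one]
    have h1 : fn (lg ((g : Mt 0) * (g : Mt 0)ᴴ)) ^ 2 = 0 := by
      rw [fn_sq]
      simp
    have h2 := pow_eq_zero_iff two_ne_zero |>.1 h1
    rw [h2]
    simp
  have hs0 := size_nonneg g
  have h1 : ∀ i, hH.eigenvalues i ≤ size g ^ 2 := by
    intro i
    have h2 := trace_cfc hH fun x => x
    rw [id_cfc hH] at h2
    have h3 : (trace ((g : Mt n) * (g : Mt n)ᴴ)).re = fn ((g : Mt n)ᴴ) ^ 2 := by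
      rw [fn_sq_trace, conjTranspose_conjTranspose]
    rw [h3, fn_conj] at h2
    have h4 : hH.eigenvalues i ≤ ∑ i, hH.eigenvalues i :=
      Finset.single_le_sum (fun j _ => (hP.eigenvalues_pos j).le) (Finset.mem_univ i)
    rw [← h2] at h4
    refine h4.trans (pow_le_pow_left₀ (fn_nonneg _) ?_ 2)
    refine (fn_le_sum _).trans (le_add_of_nonneg_right ?_)
    exact Finset.sum_nonneg fun i _ => Finset.sum_nonneg fun j _ => norm_nonneg _
  have h1' : ∀ i, (hH.eigenvalues i)⁻¹ ≤ size g ^ 2 := by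
    intro i
    have h2 := trace_cfc hH fun x => x⁻¹
    rw [← inv_cfc hP] at h2
    have h3 : ((g : Mt n) * (g : Mt n)ᴴ)⁻¹ =
        ((g⁻¹ : (Mt n)ˣ) : Mt n)ᴴ * ((g⁻¹ : (Mt n)ˣ) : Mt n) := by
      refine Matrix.inv_eq_right_inv ?_
      calc (g : Mt n) * (g : Mt n)ᴴ * (((g⁻¹ : (Mt n)ˣ) : Mt n)ᴴ * ((g⁻¹ : (Mt n)ˣ) : Mt n))
          = (g : Mt n) * ((g : Mt n)ᴴ * ((g⁻¹ : (Mt n)ˣ) : Mt n)ᴴ) *
            ((g⁻¹ : (Mt n)ˣ) : Mt n) := by simp only [mul_assoc]
        _ = 1 := by rw [conj_inv, mul_one, Units.mul_inv]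
    rw [h3, ← fn_sq_trace] at h2
    have h4 : (hH.eigenvalues i)⁻¹ ≤ ∑ i, (hH.eigenvalues i)⁻¹ :=
      Finset.single_le_sum (f := fun i => (hH.eigenvalues i)⁻¹)
        (fun j _ => (inv_pos.2 (hP.eigenvalues_pos j)).le) (Finset.mem_univ i)
    rw [← h2] at h4
    refine h4.trans (pow_le_pow_left₀ (fn_nonneg _) ?_ 2)
    refine (fn_le_sum _).trans (le_add_of_nonneg_left ?_)
    exact Finset.sum_nonneg fun i _ => Finset.sum_nonneg fun j _ => norm_nonneg _
  have hspos : 0 < size g := by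
    rcases hs0.eq_or_lt with h | h
    · exfalso
      have h2 := h1 ⟨0, hn⟩
      rw [← h] at h2
      have h3 := hP.eigenvalues_pos ⟨0, hn⟩
      norm_num at h2
      linarith
    · exact h
  have h2 : ∀ i, |Real.log (hH.eigenvalues i)| ≤ 2 * Real.log (size g) := by
    intro i
    have hi := hP.eigenvalues_pos i
    rw [abs_le]
    constructor
    · have h3 := Real.log_le_log (inv_pos.2 hi) (h1' i)
      rw [Real.log_inv, Real.log_pow] at h3
      push_cast at h3
      linarith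
    · have h3 := Real.log_le_log hi (h1 i)
      rw [Real.log_pow] at h3
      push_cast at h3
      exact h3
  have hlog0 : 0 ≤ 2 * Real.log (size g) := (abs_nonneg _).trans (h2 ⟨0, hn⟩)
  rw [dist_one]
  have hn1 : (1 : ℝ) ≤ n := by exact_mod_cast hn
  refine (pow_le_pow_iff_left₀ (fn_nonneg _) (by nlinarith) two_ne_zero).1 ?_
  rw [lg, fn_cfc hH]
  calc ∑ i, Real.log (hH.eigenvalues i) ^ 2 ≤ ∑ _i : Fin n, (2 * Real.log (size g)) ^ 2 :=
        Finset.sum_le_sum fun i _ => by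
          rw [← sq_abs]
          exact pow_le_pow_left₀ (abs_nonneg _) (h2 i) 2
    _ = n * (2 * Real.log (size g)) ^ 2 := by simp
    _ ≤ (n : ℝ) ^ 2 * (2 * Real.log (size g)) ^ 2 := by
        refine mul_le_mul_of_nonneg_right ?_ (sq_nonneg _)
        nlinarith
    _ = (2 * n * Real.log (size g)) ^ 2 := by ring

theorem log_size_le (g : (Mt n)ˣ) :
    Real.log (size g) ≤ Real.log (2 * n ^ 2) + disp g / 2 := by
  rcases Nat.eq_zero_or_pos n with rfl | hn
  · have h1 : size g = 0 := by simp [size]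
    rw [h1]
    have h2 := disp_nonneg g
    simp
    linarith
  · have hn1 : (0 : ℝ) < n := by exact_mod_cast hn
    rcases (size_nonneg g).eq_or_lt with h | h
    · rw [← h, Real.log_zero]
      have h2 := disp_nonneg g
      have h3 : (0 : ℝ) ≤ Real.log (2 * n ^ 2) := by
        refine Real.log_nonneg ?_
        have : (1 : ℝ) ≤ n := by exact_mod_cast hn
        nlinarith
      linarith
    · refine (Real.log_le_log h (size_le g)).trans (le_of_eq ?_)
      rw [Real.log_mul (by positivity) (Real.exp_pos _).ne', Real.log_exp]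

end Vale.Agent.P184.Pn
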