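import Vale.Agent.P184.R2.H270M.Lyap

set_option linter.all false

/-!
# Elements with nonzero Lyapunov exponents are charged
-/

noncomputable section

open Matrix Finset Filter Topology MeasureTheory
open scoped ComplexOrder

namespace Vale.Agent.P184.Pn

open W (Cen)
open M (CharLe)
open Mv (self)

universe u v w

/-- Characters of the centralizer. -/
theorem charged_of_cen {G : Type u} [Group G] {x : G} {D : Cen x → ℝ} {L : G → ℝ}
    (hL : ∀ g h, L (g * h) ≤ L g + L h) (h : CharLe (self x) D)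
    (hD : ∀ c : Cen x, D c ≤ L c) : Charged x := by
  classical
  obtain ⟨φ, h1, h2, h3⟩ := h
  let ψ : G → ℝ := fun g => if h : g ∈ Cen x then φ ⟨g, h⟩ else 0
  have hψ : ∀ (g : G) (h : g ∈ Cen x), ψ g = φ ⟨g, h⟩ := fun g h => dif_pos h
  refine ⟨L, ψ, hL, fun g k hg hk => ?_, fun g hg => ?_, ?_⟩
  · have hg' := Mv.mem_cen.2 hg
    have hk' := Mv.mem_cen.2 hk
    rw [hψ g hg', hψ k hk', hψ (g * k) ((Cen x).mul_mem hg' hk')]
    exact h1 ⟨g, hg'⟩ ⟨k, hk'⟩ (Mv.commute_self x _) (Mv.commute_self x _)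
  · have hg' := Mv.mem_cen.2 hg
    rw [hψ g hg']
    exact (h2 ⟨g, hg'⟩ (Mv.commute_self x _)).trans (hD ⟨g, hg'⟩)
  · rw [hψ x (self x).2]
    exact h3

/-- The Cauchy-Schwarz inequality. -/
theorem int_le_sqrt {S : Type v} [MeasurableSpace S] {μ : Measure S} [IsFiniteMeasure μ]
    {f : S → ℝ} (h0 : ∀ s, 0 ≤ f s) (hf : Integrable f μ)
    (hf2 : Integrable (fun s => f s ^ 2) μ) :
    ∫ s, f s ∂μ ≤ √(μ.real Set.univ) * √(∫ s, f s ^ 2 ∂μ) := by
  rw [← Real.sqrt_mul measureReal_nonneg]
  refine Real.le_sqrt_of_sq_le ?_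
  have hI : 0 ≤ ∫ s, f s ∂μ := integral_nonneg h0
  set I := ∫ s, f s ∂μ
  set m := μ.real Set.univ with hmdef
  have h0 : 0 ≤ ∫ s, (m * f s - I) ^ 2 ∂μ := integral_nonneg fun s => sq_nonneg _
  have h1 : ∫ s, (m * f s - I) ^ 2 ∂μ = m ^ 2 * ∫ s, f s ^ 2 ∂μ - m * I ^ 2 := by
    have h2 : ∀ s, (m * f s - I) ^ 2 = (m ^ 2 * f s ^ 2 - 2 * m * I * f s) + I ^ 2 := fun s => by
      ring
    simp only [h2]
    have hA : Integrable (fun s => m ^ 2 * f s ^ 2) μ := hf2.const_mul _
    have hB : Integrable (fun s => 2 * m * I * f s) μ := hf.const_mul _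
    have hAB : Integrable (fun s => m ^ 2 * f s ^ 2 - 2 * m * I * f s) μ := hA.sub hB
    rw [integral_add hAB (integrable_const _), integral_sub hA hB, integral_const_mul,
      integral_const_mul, integral_const, smul_eq_mul]
    change m ^ 2 * _ - 2 * m * I * I + m * I ^ 2 = _
    ring
  rw [h1] at h0
  have hm0 : 0 ≤ m := measureReal_nonneg
  rcases hm0.eq_or_lt with h3 | h3
  · have h4 : I = 0 := by
      have h5 : μ = 0 := by
        have h6 : μ Set.univ = 0 := by
          have := h3.symm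
          rw [hmdef, measureReal_def, ENNReal.toReal_eq_zero_iff] at this
          exact this.resolve_right (measure_ne_top _ _)
        exact Measure.measure_univ_eq_zero.1 h6
      change ∫ s, f s ∂μ = 0
      rw [h5, integral_zero_measure]
    rw [h4, ← h3]
    simp
  · have h4 : 0 ≤ m * (m * ∫ s, f s ^ 2 ∂μ - I ^ 2) := by nlinarith
    have h5 := nonneg_of_mul_nonneg_right h4 h3
    linarith

variable {n : ℕ} {S : Type v} [MeasurableSpace S]

/-- The cocycle of isometries defined by a matrix cocycle. -/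
def bet {Γ : Type*} (A : Γ → S → (Mt n)ˣ) (g : Γ) (s : S) (P : PD n) : PD n := A g s • P

/-- A matrix cocycle. -/
structure Coc {Γ : Type*} [Group Γ] [MulAction Γ S] (A : Γ → S → (Mt n)ˣ) : Prop where
  mul : ∀ g h s, A (g * h) s = A g (h • s) * A h s
  meas : ∀ g i j, Measurable fun s => (A g s : Mt n) i j

section Cocycles

variable {Γ : Type*} [Group Γ] [MulAction Γ S] {A : Γ → S → (Mt n)ˣ}

theorem Coc.one (h : Coc A) (s : S) : A 1 s = 1 := by
  have h1 := h.mul 1 1 s
  rw [one_smul, mul_one] at h1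
  exact left_eq_mul.1 h1

theorem Coc.inv (h : Coc A) (g : Γ) (s : S) : A g⁻¹ (g • s) = (A g s)⁻¹ := by
  have h1 := h.mul g⁻¹ g s
  rw [inv_mul_cancel, h.one] at h1
  exact eq_inv_of_mul_eq_one_left h1.symm

theorem Coc.bet_meas (h : Coc A) (g : Γ) : Measurable fun q : S × PD n => bet A g q.1 q.2 := by
  refine pd_measurable fun i j => ?_
  have h1 : (fun q : S × PD n => (bet A g q.1 q.2).1 i j) = fun q =>
      ∑ k, (∑ l, (A g q.1 : Mt n) i l * q.2.1 l k) * (starRingEnd ℂ) ((A g q.1 : Mt n) j k) := by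
    funext q
    rw [bet, smul_val, mul_apply]
    refine Finset.sum_congr rfl fun k _ => ?_
    rw [mul_apply, conjTranspose_apply, Complex.star_def]
  rw [h1]
  refine Finset.measurable_sum _ fun k _ => Measurable.mul
    (Finset.measurable_sum _ fun l _ => ?_) ?_
  · exact ((h.meas g i l).comp measurable_fst).mul ((val_measurable l k).comp measurable_snd)
  · exact Complex.continuous_conj.measurable.comp ((h.meas g j k).comp measurable_fst)

theorem Coc.disp_meas (h : Coc A) (g : Γ) : Measurable fun s => disp (A g s) := by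
  have h1 : Measurable fun s => bet A g s (Pn.one : PD n) :=
    (h.bet_meas g).comp (f := fun s : S => (s, (Pn.one : PD n)))
      (measurable_id.prodMk measurable_const)
  have h2 : Measurable fun s => dist (Pn.one : PD n) (bet A g s Pn.one) :=
    measurable_const.dist h1
  exact h2

theorem Coc.fld (h : Coc A) {μ : Measure S}
    (hmp : ∀ g : Γ, MeasurePreserving (fun s : S => g • s) μ μ)
    (hint : ∀ g, Integrable (fun s => disp (A g s) ^ 2) μ) :
    M.Fld μ (bet A) (Pn.one : PD n) where
  mp := hmp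
  one s y := by rw [bet, h.one, one_smul]
  mul g k s y := by rw [bet, bet, bet, h.mul, mul_smul]
  iso g s a b := pd_iso _ _ _
  meas g := h.bet_meas g
  int g := hint g

/-- Linear growth. -/
theorem Coc.drift (h : Coc A) {μ : Measure S} [IsFiniteMeasure μ]
    (hmp : ∀ g : Γ, MeasurePreserving (fun s : S => g • s) μ μ)
    (hint : ∀ g, Integrable (fun s => disp (A g s) ^ 2) μ) (x : Γ) {ε C : ℝ} (hε : 0 < ε)
    (hx : ∀ m : ℕ, ε * m - C ≤ ∫ s, Real.log (size (A (x ^ m) s)) ∂μ) :
    ∃ ε' : ℝ, 0 < ε' ∧ ∀ m : ℕ, ε' * m ≤ √(∫ s, disp (A (x ^ m) s) ^ 2 ∂μ) := by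
  have hf := h.fld hmp hint
  set a : ℕ → ℝ := fun m => √(∫ s, disp (A (x ^ m) s) ^ 2 ∂μ) with ha
  have ha0 : ∀ m, 0 ≤ a m := fun m => Real.sqrt_nonneg _
  have hadd : ∀ m k, a (m + k) ≤ a m + a k := by
    intro m k
    have := M.field_len hf (x ^ m) (x ^ k)
    rw [← pow_add] at this
    exact this
  have hmul : ∀ m k : ℕ, a (m * k) ≤ m * a k := by
    intro m k
    induction m with
    | zero =>
      have h1 : a (0 * k) = 0 := by
        have h2 : ∀ s, disp (A (x ^ (0 * k)) s) = 0 := by
          intro s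
          rw [zero_mul, pow_zero, h.one, disp, one_smul, dist_self]
        simp only [ha, h2]
        simp
      rw [h1]
      simp
    | succ m ih =>
      rw [Nat.succ_mul]
      push_cast
      linarith [hadd (m * k) k]
  have hint1 : ∀ g, Integrable (fun s => disp (A g s)) μ := by
    intro g
    refine Integrable.mono' (((hint g).add (integrable_const 1)))
      (h.disp_meas g).aestronglyMeasurable (ae_of_all _ fun s => ?_)
    rw [Real.norm_of_nonneg (disp_nonneg _)]
    simp only [Pi.add_apply]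
    nlinarith [sq_nonneg (disp (A g s) - 1)]
  set K := √(μ.real Set.univ) with hK
  set c := Real.log (2 * n ^ 2) * μ.real Set.univ + |C| with hc
  have hsize : ∀ m : ℕ, ∫ s, Real.log (size (A (x ^ m) s)) ∂μ ≤
      Real.log (2 * n ^ 2) * μ.real Set.univ + K * a m / 2 := by
    intro m
    have h1 : ∫ s, Real.log (size (A (x ^ m) s)) ∂μ ≤
        ∫ s, (Real.log (2 * n ^ 2) + disp (A (x ^ m) s) / 2) ∂μ := by
      by_cases hi : Integrable (fun s => Real.log (size (A (x ^ m) s))) μ
      · exact integral_mono hi ((integrable_const _).add ((hint1 _).div_const 2))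
          fun s => log_size_le _
      · rw [integral_undef hi]
        refine integral_nonneg fun s => ?_
        have h2 : (0 : ℝ) ≤ Real.log (2 * n ^ 2) := by
          rcases Nat.eq_zero_or_pos n with h3 | h3
          · simp [h3]
          · refine Real.log_nonneg ?_
            have : (1 : ℝ) ≤ n := by exact_mod_cast h3
            nlinarith
        have h3 := disp_nonneg (A (x ^ m) s)
        change 0 ≤ Real.log (2 * n ^ 2) + disp (A (x ^ m) s) / 2
        linarith
    refine h1.trans ?_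
    rw [integral_add (integrable_const _) ((hint1 _).div_const 2), integral_const, smul_eq_mul,
      integral_div]
    have h2 := int_le_sqrt (fun s => disp_nonneg (A (x ^ m) s)) (hint1 (x ^ m)) (hint (x ^ m))
    change _ ≤ K * a m at h2
    change μ.real Set.univ * _ + _ ≤ _
    linarith
  have hK0 : 0 ≤ K := Real.sqrt_nonneg _
  have key : ∀ k : ℕ, ε * k ≤ K * a k / 2 := by
    intro k
    by_contra hcon
    push Not at hcon
    obtain ⟨m, hm⟩ := exists_nat_gt (c / (ε * k - K * a k / 2))
    rw [div_lt_iff₀ (by linarith)] at hm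
    have h1 := (hx (m * k)).trans (hsize (m * k))
    have h2 := mul_le_mul_of_nonneg_left (hmul m k) hK0
    push_cast at h1
    have h3 := le_abs_self C
    nlinarith
  have hKpos : 0 < K := by
    rcases hK0.eq_or_lt with h1 | h1
    · exfalso
      have h2 := key 1
      rw [← h1] at h2
      norm_num at h2
      linarith
    · exact h1
  refine ⟨2 * ε / K, by positivity, fun m => ?_⟩
  have h1 := key m
  rw [div_mul_eq_mul_div, div_le_iff₀ hKpos]
  change 2 * ε * m ≤ a m * K
  linarith

end Cocycles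

variable {G : Type u} [Group G] [MulAction G S]

/-- Bounded cocycles, measures invariant under the centralizer. -/
theorem lyap_charged {A : G → S → (Mt n)ˣ} (h : Coc A)
    (hb : ∀ g, ∃ C, ∀ s i j, ‖(A g s : Mt n) i j‖ ≤ C) (x : G) {μ : Measure S}
    [IsFiniteMeasure μ] (hμ : ∀ c, Commute c x → MeasurePreserving (fun s : S => c • s) μ μ)
    {ε C : ℝ} (hε : 0 < ε)
    (hx : ∀ m : ℕ, ε * m - C ≤ ∫ s, Real.log (size (A (x ^ m) s)) ∂μ) : Charged x := by
  -- the displacements are bounded
  have hbd : ∀ g, ∃ K, ∀ s, disp (A g s) ≤ K := by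
    intro g
    obtain ⟨C1, h1⟩ := hb g
    obtain ⟨C2, h2⟩ := hb g⁻¹
    refine ⟨2 * n * Real.log (max 1 (n * (n * C1) + n * (n * C2))), fun s => ?_⟩
    refine (dist_le _).trans (mul_le_mul_of_nonneg_left ?_ (by positivity))
    have h3 : size (A g s) ≤ n * (n * C1) + n * (n * C2) := by
      rw [size]
      refine add_le_add ?_ ?_
      · refine (Finset.sum_le_sum fun i _ => Finset.sum_le_sum fun j _ => h1 s i j).trans ?_
        simp
      · refine (Finset.sum_le_sum fun i _ => Finset.sum_le_sum fun j _ => ?_).trans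
          (b := ∑ _i : Fin n, ∑ _j : Fin n, C2) ?_
        · rw [← h.inv g s]
          exact h2 _ i j
        · simp
    rcases (size_nonneg (A g s)).eq_or_lt with h4 | h4
    · rw [← h4, Real.log_zero]
      exact Real.log_nonneg (le_max_left _ _)
    · exact Real.log_le_log h4 (h3.trans (le_max_right _ _))
  have hbdd : ∀ g, BddAbove (Set.range fun s => dist (Pn.one : PD n) (bet A g s Pn.one)) := by
    intro g
    obtain ⟨K, hK⟩ := hbd g
    exact ⟨K, by rintro _ ⟨s, rfl⟩; exact hK s⟩
  have hne : Nonempty S := by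
    by_contra hcon
    rw [not_nonempty_iff] at hcon
    have hμ0 : μ = 0 := Measure.eq_zero_of_isEmpty μ
    obtain ⟨m, hm⟩ := exists_nat_gt (C / ε)
    rw [div_lt_iff₀ hε] at hm
    have h1 := hx m
    rw [hμ0, integral_zero_measure] at h1
    linarith
  -- the cocycle over the centralizer
  let A' : Cen x → S → (Mt n)ˣ := fun c => A c
  have hA' : Coc A' := ⟨fun g k s => h.mul g k s, fun g => h.meas g⟩
  have hmp : ∀ c : Cen x, MeasurePreserving (fun s : S => c • s) μ μ :=
    fun c => hμ c (Mv.mem_cen.1 c.2)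
  have hint : ∀ c : Cen x, Integrable (fun s => disp (A' c s) ^ 2) μ := by
    intro c
    obtain ⟨K, hK⟩ := hbd c
    refine Integrable.of_bound ((hA'.disp_meas c).pow_const 2).aestronglyMeasurable (K ^ 2)
      (ae_of_all _ fun s => ?_)
    rw [Real.norm_of_nonneg (sq_nonneg _)]
    exact pow_le_pow_left₀ (disp_nonneg _) (hK s) 2
  obtain ⟨ε', hε', hx'⟩ := hA'.drift hmp hint (self x) hε hx
  have hch := M.charged_of_field (hA'.fld hmp hint) pd_cn (self x) hε' hx'
  set K := √(μ.real Set.univ) with hK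
  have hK0 : 0 ≤ K := Real.sqrt_nonneg _
  refine charged_of_cen (L := fun g => K * ⨆ s, dist (Pn.one : PD n) (bet A g s Pn.one))
    (fun g k => ?_) hch fun c => ?_
  · rw [← mul_add]
    exact mul_le_mul_of_nonneg_left (Mv.sup_len (β := bet A)
      (fun g k s y => by rw [bet, bet, bet, h.mul, mul_smul]) (fun g s a b => pd_iso _ _ _)
      hbdd g k) hK0
  · rw [hK]
    have hsup0 : 0 ≤ ⨆ s, dist (Pn.one : PD n) (bet A c s Pn.one) :=
      dist_nonneg.trans (le_ciSup (hbdd c) (Classical.arbitrary S))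
    refine Real.sqrt_le_iff.2 ⟨mul_nonneg hK0 hsup0, ?_⟩
    rw [mul_pow, Real.sq_sqrt measureReal_nonneg]
    have h1 : ∫ s, disp (A' c s) ^ 2 ∂μ ≤
        ∫ s, (⨆ s, dist (Pn.one : PD n) (bet A c s Pn.one)) ^ 2 ∂μ :=
      integral_mono (hint c) (integrable_const _) fun s =>
        pow_le_pow_left₀ dist_nonneg (le_ciSup (hbdd c) s) 2
    rw [integral_const, smul_eq_mul] at h1
    exact h1

/-- Invariant measures. -/
theorem lyap_charged' {A : G → S → (Mt n)ˣ} (h : Coc A) (x : G) {μ : Measure S}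
    [IsFiniteMeasure μ] (hμ : ∀ g : G, MeasurePreserving (fun s : S => g • s) μ μ)
    (hint : ∀ g, Integrable (fun s => Real.log (size (A g s)) ^ 2) μ)
    {ε C : ℝ} (hε : 0 < ε)
    (hx : ∀ m : ℕ, ε * m - C ≤ ∫ s, Real.log (size (A (x ^ m) s)) ∂μ) : Charged x := by
  have hint' : ∀ g, Integrable (fun s => disp (A g s) ^ 2) μ := by
    intro g
    refine Integrable.mono' ((hint g).const_mul ((2 * n) ^ 2))
      ((h.disp_meas g).pow_const 2).aestronglyMeasurable (ae_of_all _ fun s => ?_)
    rw [Real.norm_of_nonneg (sq_nonneg _), ← mul_pow]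
    exact pow_le_pow_left₀ (disp_nonneg _) (dist_le _) 2
  obtain ⟨ε', hε', hx'⟩ := h.drift hμ hint' x hε hx
  have hf := h.fld hμ hint'
  exact (M.charged_of_field hf pd_cn x hε' hx').charged (M.field_len hf)

end Vale.Agent.P184.Pn
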