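import Vale.Agent.P184.WDefs

/-!
# Definitions: elements displaced by isometric actions, cocycles, commensurated subsets,
interval exchange transformations
-/

open MeasureTheory

namespace Vale.Agent.P184.Mv

open W (Cen)

universe w

variable {G : Type*} [Group G]

/-- `x` as an element of its centralizer `Cen x`. -/
def self (x : G) : Cen x := ⟨x, Subgroup.mem_centralizer_singleton_iff.2 rfl⟩

/-- `D c ≤ w 0 + ... + w (l - 1)` for all `c` in the centralizer of `x`, where `l` is the least
natural number with `L c ≤ l`, for some subadditive function `L` on the whole group and some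
nondecreasing positive sequence `w` such that the series of the `1 / w n` diverges. -/
def Dominated (x : G) (D : Cen x → ℝ) : Prop :=
  ∃ (L : G → ℝ) (w : ℕ → ℝ), (∀ g h, L (g * h) ≤ L g + L h) ∧ (∀ n, 0 < w n) ∧ Monotone w ∧
    (¬ Summable fun n => 1 / w n) ∧ ∀ c : Cen x, D c ≤ ∑ n ∈ Finset.range ⌈L c⌉₊, w n

/-- The inequality of Bruhat and Tits, satisfied by all `CAT(0)` spaces. -/
def CN (Y : Type*) [MetricSpace Y] : Prop :=
  ∀ p q : Y, ∃ m, ∀ z, dist z m ^ 2 ≤ (dist z p ^ 2 + dist z q ^ 2) / 2 - dist p q ^ 2 / 4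

/-- The centralizer of `x` acts on `Y` by isometries, the displacement of some point `o` is
dominated, and `x` has positive translation length. -/
def Translates (x : G) (Y : Type*) [MetricSpace Y] [MulAction (Cen x) Y] : Prop :=
  (∀ (c : Cen x) (a b : Y), dist (c • a) (c • b) = dist a b) ∧
    ∃ (o : Y) (ε : ℝ), 0 < ε ∧ Dominated x (fun c => dist o (c • o)) ∧
      ∀ n : ℕ, ε * n ≤ dist o (self x ^ n • o)

/-- `x` has positive translation length in a `CAT(0)` space. -/
def Cat0Moves (x : G) : Prop :=
  ∃ (Y : Type w) (_ : MetricSpace Y) (_ : MulAction (Cen x) Y), CN Y ∧ Translates x Y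

/-- `x` has positive translation length in a real normed space with strictly convex dual. -/
def BanachMoves (x : G) : Prop :=
  ∃ (E : Type w) (_ : NormedAddCommGroup E) (_ : NormedSpace ℝ E) (_ : MulAction (Cen x) E),
    StrictConvexSpace ℝ (StrongDual ℝ E) ∧ Translates x E

/-- The centralizer of `x` preserves a `σ`-finite measure, and has a cocycle `σ` with values in
the integrable functions, with dominated norm, such that the integral of the cocycle of `x` over
some `x`-invariant set does not vanish. -/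
def DriftMoves (x : G) : Prop :=
  ∃ (S : Type w) (_ : MeasurableSpace S) (_ : MulAction (Cen x) S) (μ : Measure S)
    (σ : Cen x → S → ℝ) (B : Set S),
    SigmaFinite μ ∧ (∀ c : Cen x, MeasurePreserving (fun s : S => c • s) μ μ) ∧
    (∀ c, Integrable (σ c) μ) ∧ (∀ c d, ∀ᵐ s ∂μ, σ (c * d) s = σ c (d • s) + σ d s) ∧
    Dominated x (fun c => ∫ s, |σ c s| ∂μ) ∧
    MeasurableSet B ∧ (fun s => self x • s) ⁻¹' B = B ∧ ∫ s in B, σ (self x) s ∂μ ≠ 0

/-- The centralizer of `x` acts on a set `S` and commensurates the subset `A`: the set of the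
`s` such that exactly one of `s`, `c • s` belongs to `A` is finite; its cardinality is dominated,
and unbounded on the powers of `x`. -/
def WallMoves (x : G) : Prop :=
  ∃ (S : Type w) (_ : MulAction (Cen x) S) (A : Set S),
    (∀ c : Cen x, {s | ¬ (s ∈ A ↔ c • s ∈ A)}.Finite) ∧
    Dominated x (fun c => ({s | ¬ (s ∈ A ↔ c • s ∈ A)}.ncard : ℝ)) ∧
    ∀ N : ℕ, ∃ n : ℕ, N < {s | ¬ (s ∈ A ↔ self x ^ n • s ∈ A)}.ncard

/-- The centralizer of `x` has a finite dimensional complex representation, with dominated
logarithms of the matrix entries, such that some eigenvalue of `x` is not of modulus one. -/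
def RepMoves (x : G) : Prop :=
  ∃ (n : ℕ) (ρ : Cen x →* (Matrix (Fin n) (Fin n) ℂ)ˣ) (D : Cen x → ℝ) (l : ℂ) (v : Fin n → ℂ),
    Dominated x D ∧
    (∀ c i j, ‖(ρ c : Matrix (Fin n) (Fin n) ℂ) i j‖ ≤ Real.exp (D c)) ∧ v ≠ 0 ∧
    Matrix.mulVec (ρ (self x) : Matrix (Fin n) (Fin n) ℂ) v = l • v ∧ ‖l‖ ≠ 1

/-- A cocycle `β` with values in the isometries of `Y`, over a measure preserving action of the
group `Γ`, with square integrable displacement of the point `o`. -/
def IsoCocycle {Γ : Type*} [Group Γ] {S Y : Type*} [MeasurableSpace S] [MulAction Γ S]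
    [MetricSpace Y] [MeasurableSpace Y] (μ : Measure S) (β : Γ → S → Y → Y) (o : Y) : Prop :=
  (∀ g : Γ, MeasurePreserving (fun s : S => g • s) μ μ) ∧ (∀ s y, β 1 s y = y) ∧
    (∀ g h s y, β (g * h) s y = β g (h • s) (β h s y)) ∧
    (∀ g s a b, dist (β g s a) (β g s b) = dist a b) ∧
    (∀ g, Measurable fun q : S × Y => β g q.1 q.2) ∧
    ∀ g, Integrable (fun s => dist o (β g s o) ^ 2) μ

/-- The centralizer of `x` acts on `S` preserving a measure, with a cocycle of isometries of a
separable `CAT(0)` space, such that the `L²`-norm of the displacement of some point `o` is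
dominated, and grows linearly along the powers of `x`. -/
def FieldMoves (x : G) : Prop :=
  ∃ (S Y : Type w) (_ : MeasurableSpace S) (_ : MulAction (Cen x) S) (_ : MetricSpace Y)
    (_ : SecondCountableTopology Y) (_ : MeasurableSpace Y) (_ : BorelSpace Y) (μ : Measure S)
    (β : Cen x → S → Y → Y) (o : Y) (ε : ℝ), CN Y ∧ IsoCocycle μ β o ∧ 0 < ε ∧
    Dominated x (fun c => √(∫ s, dist o (β c s o) ^ 2 ∂μ)) ∧
    ∀ n : ℕ, ε * n ≤ √(∫ s, dist o (β (self x ^ n) s o) ^ 2 ∂μ)

/-- `x` is moved by one of the above. -/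
def Moves (x : G) : Prop :=
  Cat0Moves.{w} x ∨ BanachMoves.{w} x ∨ DriftMoves.{w} x ∨ WallMoves.{w} x ∨ RepMoves x ∨
    FieldMoves.{w} x

/-- In every finitely generated subgroup containing `x`, some positive power of `x` is moved in
some subgroup of finite index. -/
def LocMoves (x : G) : Prop :=
  ∀ (S : Finset G) (h : x ∈ Subgroup.closure (S : Set G)),
    ∃ (H : Subgroup (Subgroup.closure (S : Set G))) (m : ℕ) (hm : (⟨x, h⟩ : Subgroup.closure
      (S : Set G)) ^ (m + 1) ∈ H), H.FiniteIndex ∧ Moves.{w} (⟨_, hm⟩ : H)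

/-- `T` is an interval exchange transformation of some interval `[a, b)`, extended by the
identity to a permutation of `ℝ`: `T` is a translation on each of the finitely many intervals
between the consecutive points of a finite set `P`, closed on the left and open on the right. -/
def IsIET (T : Equiv.Perm ℝ) : Prop :=
  (∃ a b : ℝ, ∀ p, p ∉ Set.Ico a b → T p = p) ∧
    ∃ P : Finset ℝ, ∀ p q, p ≤ q → (∀ z ∈ P, ¬ (p < z ∧ z ≤ q)) → T q - q = T p - p

end Vale.Agent.P184.Mv
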