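import Vale.Agent.P184.R2.H270M.Comm

set_option linter.all false

/-!
# Integrable cocycles over measure preserving actions

If the integral of the cocycle of `x` over some `x`-invariant set does not vanish, then `x` is
charged.
-/

noncomputable section

open MeasureTheory Set
open scoped ENNReal NNReal

namespace Vale.Agent.P184.M

universe u v

variable {G : Type u} [Group G] {S : Type v} [MeasurableSpace S] [MulAction G S]
  {μ : Measure S}

/-- The action of `g` as a measurable equivalence. -/
def meq (hmp : ∀ g : G, MeasurePreserving (fun s : S => g • s) μ μ) (g : G) : S ≃ᵐ S where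
  toEquiv := MulAction.toPerm g
  measurable_toFun := (hmp g).measurable
  measurable_invFun := (hmp g⁻¹).measurable

theorem setInt_pre (hmp : ∀ g : G, MeasurePreserving (fun s : S => g • s) μ μ) (g : G)
    (f : S → ℝ) (B : Set S) :
    ∫ s in (fun s => g • s) ⁻¹' B, f (g • s) ∂μ = ∫ s in B, f s ∂μ :=
  (hmp g).setIntegral_preimage_emb (meq hmp g).measurableEmbedding f B

theorem int_comp (hmp : ∀ g : G, MeasurePreserving (fun s : S => g • s) μ μ) (g : G)
    {f : S → ℝ} (hf : Integrable f μ) : Integrable (fun s => f (g • s)) μ :=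
  ((hmp g).integrable_comp_emb (meq hmp g).measurableEmbedding).2 hf

/-- The `x`-invariant measurable sets. -/
@[reducible] def invx (S : Type v) [MeasurableSpace S] [MulAction G S] (x : G) : MeasurableSpace S :=
  MeasurableSpace.invariants (fun s : S => x • s)

theorem charged_of_pos [SigmaFinite μ] (hmp : ∀ g : G, MeasurePreserving (fun s : S => g • s) μ μ)
    (σ : G → S → ℝ) (hσ : ∀ g, Integrable (σ g) μ)
    (hco : ∀ g h, ∀ᵐ s ∂μ, σ (g * h) s = σ g (h • s) + σ h s) (x : G) {B : Set S}
    (hB : MeasurableSet B) (hBx : (fun s => x • s) ⁻¹' B = B) (hpos : 0 < ∫ s in B, σ x s ∂μ) :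
    CharLe x fun g => ∫ s, |σ g s| ∂μ := by
  classical
  obtain ⟨w, hw0, hwm, hwi⟩ := exists_pos_lintegral_lt_of_sigmaFinite μ (ε := 1) one_ne_zero
  let ν : Measure S := μ.withDensity fun s => (w s : ℝ≥0∞)
  have hνfin : IsFiniteMeasure ν := isFiniteMeasure_withDensity (ne_top_of_lt hwi)
  have hνμ : ν ≪ μ := withDensity_absolutelyContinuous μ _
  have hμν : μ ≪ ν := withDensity_absolutelyContinuous' (by fun_prop)
    (Filter.Eventually.of_forall fun s => by simpa using (hw0 s).ne')
  -- the invariant sets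
  have hm : invx S x ≤ ‹MeasurableSpace S› := MeasurableSpace.invariants_le _
  let h : S → ℝ := fun s => (w s : ℝ)⁻¹ * σ x s
  have hh : Integrable h ν := by
    rw [integrable_withDensity_iff_integrable_smul hwm]
    refine (hσ x).congr (Filter.Eventually.of_forall fun s => ?_)
    simp only [h, NNReal.smul_def, smul_eq_mul]
    rw [← mul_assoc, mul_inv_cancel₀ (by exact_mod_cast (hw0 s).ne'), one_mul]
  have hint : ∀ C, MeasurableSet C → ∫ s in C, h s ∂ν = ∫ s in C, σ x s ∂μ := by
    intro C hC
    have h1 := setIntegral_withDensity_eq_setIntegral_smul (μ := μ) hwm h hC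
    rw [h1]
    refine integral_congr_ae (Filter.Eventually.of_forall fun s => ?_)
    simp only [h, NNReal.smul_def, smul_eq_mul]
    rw [← mul_assoc, mul_inv_cancel₀ (by exact_mod_cast (hw0 s).ne'), one_mul]
  let F : S → ℝ := ν[h | invx S x]
  have hFm : Measurable[invx S x] F := stronglyMeasurable_condExp.measurable
  have hFi : Integrable F ν := integrable_condExp
  have hFint : ∀ C, MeasurableSet[invx S x] C → ∫ s in C, F s ∂ν = ∫ s in C, σ x s ∂μ := by
    intro C hC
    rw [setIntegral_condExp hm hh hC, hint C (hm _ hC)]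
  let P : Set S := {s | 0 < F s}
  have hPm : MeasurableSet[invx S x] P := hFm measurableSet_Ioi
  have hP : MeasurableSet P := hm _ hPm
  have hinv : ∀ C, MeasurableSet[invx S x] C ↔ MeasurableSet C ∧ (fun s => x • s) ⁻¹' C = C :=
    fun C => MeasurableSpace.measurableSet_invariants
  -- images under the centralizer
  have hcm : ∀ c : G, Commute c x → ∀ C, MeasurableSet[invx S x] C →
      MeasurableSet[invx S x] ((fun s => c • s) ⁻¹' C) := by
    intro c hc C hC
    rw [hinv] at hC ⊢
    refine ⟨(hmp c).measurable hC.1, ?_⟩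
    ext s
    simp only [mem_preimage]
    have h1 : c • x • s = x • c • s := by rw [← mul_smul, ← mul_smul, hc.eq]
    rw [h1]
    constructor
    · intro h2
      rw [← hC.2]
      exact h2
    · intro h2
      rw [← hC.2] at h2
      exact h2
  have hcint : ∀ c : G, Commute c x → ∀ C, MeasurableSet[invx S x] C →
      ∫ s in (fun s => c • s) ⁻¹' C, σ x s ∂μ = ∫ s in C, σ x s ∂μ := by
    intro c hc C hC
    have h1 := setInt_pre hmp c (σ x) C
    rw [← h1]
    have h2 : ∀ᵐ s ∂μ, σ x (c • s) = σ c (x • s) + σ x s - σ c s := by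
      filter_upwards [hco x c, hco c x] with s h3 h4
      rw [hc.eq, h3] at h4
      linarith
    have h3 : ∫ s in (fun s => c • s) ⁻¹' C, σ x (c • s) ∂μ =
        ∫ s in (fun s => c • s) ⁻¹' C, (σ c (x • s) + σ x s - σ c s) ∂μ :=
      integral_congr_ae (ae_restrict_of_ae h2)
    have h4 := int_comp hmp x (hσ c)
    have h7 : ∫ s in (fun s => c • s) ⁻¹' C, (σ c (x • s) + σ x s - σ c s) ∂μ =
        ∫ s in (fun s => c • s) ⁻¹' C, (σ c (x • s) + σ x s) ∂μ -
          ∫ s in (fun s => c • s) ⁻¹' C, σ c s ∂μ :=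
      integral_sub (h4.add (hσ x)).integrableOn (hσ c).integrableOn
    rw [h3, h7, integral_add h4.integrableOn (hσ x).integrableOn]
    have h5 := (hinv _).1 (hcm c hc C hC)
    have h6 := setInt_pre hmp x (σ c) ((fun s => c • s) ⁻¹' C)
    rw [h5.2] at h6
    rw [h6]
    ring
  -- `P` is invariant under the centralizer
  have hinc : ∀ c : G, Commute c x → μ (P \ (fun s => c • s) ⁻¹' P) = 0 := by
    intro c hc
    set P' : Set S := (fun s => c • s) ⁻¹' P with hP'
    have hP'm : MeasurableSet[invx S x] P' := hcm c hc P hPm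
    have h1 : ∫ s in P, F s ∂ν = ∫ s in P', F s ∂ν := by
      rw [hFint P hPm, hFint P' hP'm, hcint c hc P hPm]
    have h2 : ∫ s in P, F s ∂ν = ∫ s in P ∩ P', F s ∂ν + ∫ s in P \ P', F s ∂ν :=
      (integral_inter_add_diff (hm _ hP'm) hFi.integrableOn).symm
    have h3 : ∫ s in P', F s ∂ν = ∫ s in P' ∩ P, F s ∂ν + ∫ s in P' \ P, F s ∂ν :=
      (integral_inter_add_diff hP hFi.integrableOn).symm
    have h4 : ∫ s in P' \ P, F s ∂ν ≤ 0 := by
      refine setIntegral_nonpos ((hm _ hP'm).diff hP) fun s hs => ?_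
      have := hs.2
      simp only [P, mem_setOf_eq, not_lt] at this
      exact this
    have h5 : ∫ s in P \ P', F s ∂ν ≤ 0 := by
      rw [inter_comm P' P] at h3
      linarith
    have h6 : 0 ≤ᵐ[ν.restrict (P \ P')] F := by
      refine (ae_restrict_iff' (hP.diff (hm _ hP'm))).2 (Filter.Eventually.of_forall ?_)
      intro s hs
      exact hs.1.le
    have h7 : ∫ s in P \ P', F s ∂ν = 0 := le_antisymm h5 (integral_nonneg_of_ae h6)
    rw [setIntegral_eq_zero_iff_of_nonneg_ae h6 hFi.integrableOn] at h7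
    have h8 : ν (P \ P') = 0 := by
      have h9 := (ae_restrict_iff' (hP.diff (hm _ hP'm))).1 h7
      rw [measure_eq_zero_iff_ae_notMem]
      filter_upwards [h9] with s hs hmem
      have h10 := hs hmem
      have h11 : 0 < F s := hmem.1
      simp only [Pi.zero_apply] at h10
      linarith
    exact hμν h8
  have hinc' : ∀ c : G, Commute c x → μ ((fun s => c • s) ⁻¹' P \ P) = 0 := by
    intro c hc
    have h1 := hinc c⁻¹ hc.inv_left
    have h2 : (fun s => c • s) ⁻¹' (P \ (fun s => c⁻¹ • s) ⁻¹' P) =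
        (fun s => c • s) ⁻¹' P \ P := by
      ext s
      simp only [mem_preimage, mem_diff, inv_smul_smul]
    rw [← h2, (hmp c).measure_preimage_emb (meq hmp c).measurableEmbedding]
    exact h1
  have hae : ∀ c : G, Commute c x → (fun s => c • s) ⁻¹' P =ᵐ[μ] P := fun c hc =>
    ae_eq_set.2 ⟨hinc' c hc, hinc c hc⟩
  -- the character
  have hPF : 0 < ∫ s in P, σ x s ∂μ := by
    have hBm : MeasurableSet[invx S x] B := (hinv _).2 ⟨hB, hBx⟩
    rw [← hFint P hPm]
    rw [← hFint B hBm] at hpos
    refine hpos.trans_le ?_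
    have h1 : ∫ s in B, F s ∂ν = ∫ s in B ∩ P, F s ∂ν + ∫ s in B \ P, F s ∂ν :=
      (integral_inter_add_diff hP hFi.integrableOn).symm
    have h2 : ∫ s in B \ P, F s ∂ν ≤ 0 := by
      refine setIntegral_nonpos (hB.diff hP) fun s hs => ?_
      have := hs.2
      simp only [P, mem_setOf_eq, not_lt] at this
      exact this
    have h3 : ∫ s in B ∩ P, F s ∂ν ≤ ∫ s in P, F s ∂ν := by
      refine setIntegral_mono_set hFi.integrableOn ?_ (ae_of_all _ fun s hs => hs.2)
      refine (ae_restrict_iff' hP).2 (Filter.Eventually.of_forall ?_)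
      intro s hs
      exact le_of_lt hs
    linarith
  refine ⟨fun g => ∫ s in P, σ g s ∂μ, ?_, ?_, hPF.ne'⟩
  · intro g h' hg hh'
    simp only
    have h1 : Integrable (fun s => σ g (h' • s)) μ := int_comp hmp h' (hσ g)
    have h2 : ∫ s in P, σ (g * h') s ∂μ = ∫ s in P, (σ g (h' • s) + σ h' s) ∂μ :=
      integral_congr_ae (ae_restrict_of_ae (hco g h'))
    rw [h2, integral_add h1.integrableOn (hσ h').integrableOn]
    congr 1
    rw [← setIntegral_congr_set (hae h' hh')]
    exact setInt_pre hmp h' (σ g) P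
  · intro g _
    refine (le_abs_self _).trans ((abs_integral_le_integral_abs).trans ?_)
    exact setIntegral_le_integral (hσ g).abs (ae_of_all _ fun s => abs_nonneg _)

theorem len_mul (hmp : ∀ g : G, MeasurePreserving (fun s : S => g • s) μ μ)
    (σ : G → S → ℝ) (hσ : ∀ g, Integrable (σ g) μ)
    (hco : ∀ g h, ∀ᵐ s ∂μ, σ (g * h) s = σ g (h • s) + σ h s) (g h' : G) :
    ∫ s, |σ (g * h') s| ∂μ ≤ ∫ s, |σ g s| ∂μ + ∫ s, |σ h' s| ∂μ := by
  have h1 : Integrable (fun s => σ g (h' • s)) μ := int_comp hmp h' (hσ g)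
  have h2 : ∫ s, |σ g (h' • s)| ∂μ = ∫ s, |σ g s| ∂μ := by
    have := setInt_pre hmp h' (fun s => |σ g s|) univ
    simpa using this
  rw [← h2, ← integral_add h1.abs (hσ h').abs]
  refine integral_mono_ae (hσ _).abs (h1.abs.add (hσ h').abs) ?_
  filter_upwards [hco g h'] with s hs
  simp only [hs]
  exact abs_add_le _ _

/-- Integrable cocycles. -/
theorem charged_of_cocycle [SigmaFinite μ]
    (hmp : ∀ g : G, MeasurePreserving (fun s : S => g • s) μ μ)
    (σ : G → S → ℝ) (hσ : ∀ g, Integrable (σ g) μ)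
    (hco : ∀ g h, ∀ᵐ s ∂μ, σ (g * h) s = σ g (h • s) + σ h s) (x : G) {B : Set S}
    (hB : MeasurableSet B) (hBx : (fun s => x • s) ⁻¹' B = B) (hne : ∫ s in B, σ x s ∂μ ≠ 0) :
    CharLe x fun g => ∫ s, |σ g s| ∂μ := by
  rcases lt_or_gt_of_ne hne with h | h
  · have h0 : CharLe x fun g => ∫ s, |-σ g s| ∂μ := by
      refine charged_of_pos hmp (fun g s => - σ g s) (fun g => (hσ g).neg) ?_ x hB hBx ?_
      · intro g h
        filter_upwards [hco g h] with s hs
        rw [hs]
        ring
      · rw [integral_neg]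
        linarith
    simpa only [abs_neg] using h0
  · exact charged_of_pos hmp σ hσ hco x hB hBx h

end Vale.Agent.P184.M
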