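import Vale.Agent.P184.R2.H270M.Comm

set_option linter.all false

/-!
# Finite dimensional representations of the centralizer
-/

noncomputable section

open Module

namespace Vale.Agent.P184.M

universe u

variable {G : Type u} [Group G] {n : ℕ} (ρ : G →* (Matrix (Fin n) (Fin n) ℂ)ˣ)

/-- The endomorphism of the column space. -/
def ev (c : G) : Module.End ℂ (Fin n → ℂ) := Matrix.toLin' (ρ c : Matrix (Fin n) (Fin n) ℂ)

theorem ev_mul (c d : G) : ev ρ (c * d) = ev ρ c * ev ρ d := by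
  simp only [ev, map_mul, Units.val_mul, Matrix.toLin'_mul]
  rfl

theorem ev_mem {x c : G} (hc : Commute c x) (l : ℂ) {v : Fin n → ℂ}
    (hv : v ∈ Module.End.eigenspace (ev ρ x) l) : ev ρ c v ∈ Module.End.eigenspace (ev ρ x) l := by
  rw [Module.End.mem_eigenspace_iff] at hv ⊢
  have h1 : ev ρ x (ev ρ c v) = ev ρ c (ev ρ x v) := by
    have h2 : ev ρ (x * c) = ev ρ (c * x) := by rw [hc.eq]
    rw [ev_mul, ev_mul] at h2
    exact LinearMap.congr_fun h2 v
  rw [h1, hv, map_smul]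

open Classical in
/-- The determinant on the eigenspace. -/
def edet (x : G) (l : ℂ) (c : G) : ℂ :=
  if h : Commute c x then
    LinearMap.det ((ev ρ c).restrict (p := Module.End.eigenspace (ev ρ x) l)
      (q := Module.End.eigenspace (ev ρ x) l) fun _ hv => ev_mem ρ h l hv)
  else 1

theorem edet_mul (x : G) (l : ℂ) {c d : G} (hc : Commute c x) (hd : Commute d x) :
    edet ρ x l (c * d) = edet ρ x l c * edet ρ x l d := by
  rw [edet, edet, edet, dif_pos hc, dif_pos hd, dif_pos (hc.mul_left hd), ← map_mul]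
  congr 1
  ext v
  simp only [LinearMap.restrict_coe_apply, Module.End.mul_apply, ev_mul]

theorem edet_one (x : G) (l : ℂ) : edet ρ x l 1 = 1 := by
  rw [edet, dif_pos (Commute.one_left x)]
  have h1 : (ev ρ 1).restrict (p := Module.End.eigenspace (ev ρ x) l)
      (q := Module.End.eigenspace (ev ρ x) l)
      (fun _ hv => ev_mem ρ (Commute.one_left x) l hv) = LinearMap.id := by
    ext v
    simp only [LinearMap.restrict_coe_apply, LinearMap.id_apply]
    simp [ev]
  rw [h1, LinearMap.det_id]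

theorem edet_ne (x : G) (l : ℂ) {c : G} (hc : Commute c x) : edet ρ x l c ≠ 0 := by
  have h1 := edet_mul ρ x l hc hc.inv_left
  rw [mul_inv_cancel, edet_one] at h1
  intro h
  rw [h, zero_mul] at h1
  exact one_ne_zero h1

theorem edet_self (x : G) (l : ℂ) :
    edet ρ x l x = l ^ finrank ℂ (Module.End.eigenspace (ev ρ x) l) := by
  rw [edet, dif_pos (Commute.refl x)]
  have h1 : (ev ρ x).restrict (p := Module.End.eigenspace (ev ρ x) l)
      (q := Module.End.eigenspace (ev ρ x) l)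
      (fun _ hv => ev_mem ρ (Commute.refl x) l hv) = l • LinearMap.id := by
    ext v
    simp only [LinearMap.restrict_coe_apply, LinearMap.smul_apply, LinearMap.id_apply]
    have h2 := Module.End.mem_eigenspace_iff.1 v.2
    rw [h2]
    rfl
  rw [h1, LinearMap.det_smul, LinearMap.det_id, mul_one]

theorem edet_le (x : G) (l : ℂ) : ∃ (K : ℝ) (d : ℕ), 1 ≤ K ∧ ∀ (c : G), Commute c x → ∀ M : ℝ,
    0 ≤ M → (∀ i j, ‖(ρ c : Matrix (Fin n) (Fin n) ℂ) i j‖ ≤ M) →
      ‖edet ρ x l c‖ ≤ K * M ^ d := by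
  classical
  let W := Module.End.eigenspace (ev ρ x) l
  let b := Module.finBasis ℂ W
  -- the coordinates are continuous
  have hK' : ∃ K : ℝ, 0 ≤ K ∧ ∀ (i j : Fin (finrank ℂ W)) (v : W) (r : ℝ), 0 ≤ r →
      ‖v‖ ≤ r * ‖b j‖ → ‖b.repr v i‖ ≤ K * r := by
    let L : Fin (finrank ℂ W) → W →L[ℂ] ℂ := fun i => LinearMap.toContinuousLinearMap (b.coord i)
    refine ⟨∑ i, ∑ j, ‖L i‖ * ‖b j‖, by positivity, fun i j v r hr hv => ?_⟩
    have h1 : ‖b.repr v i‖ ≤ ‖L i‖ * ‖v‖ := (L i).le_opNorm v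
    have h2 : ‖L i‖ * ‖b j‖ ≤ ∑ i, ∑ j, ‖L i‖ * ‖b j‖ := by
      refine (Finset.single_le_sum (f := fun j => ‖L i‖ * ‖b j‖)
        (fun j _ => by positivity) (Finset.mem_univ j)).trans ?_
      exact Finset.single_le_sum (f := fun i => ∑ j, ‖L i‖ * ‖b j‖)
        (fun i _ => by positivity) (Finset.mem_univ i)
    calc ‖b.repr v i‖ ≤ ‖L i‖ * ‖v‖ := h1
      _ ≤ ‖L i‖ * (r * ‖b j‖) := mul_le_mul_of_nonneg_left hv (by positivity)
      _ = ‖L i‖ * ‖b j‖ * r := by ring
      _ ≤ _ := mul_le_mul_of_nonneg_right h2 hr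
  obtain ⟨K, hK0, hK⟩ := hK'
  refine ⟨max 1 ((finrank ℂ W).factorial * (K * n) ^ finrank ℂ W), finrank ℂ W, le_max_left _ _,
    fun c hc M hM hcM => ?_⟩
  rw [edet, dif_pos hc, ← LinearMap.det_toMatrix b]
  have h1 : ∀ i j, (NormedField.toAbsoluteValue ℂ) (LinearMap.toMatrix b b
      ((ev ρ c).restrict (p := W) (q := W) fun _ hv => ev_mem ρ hc l hv) i j) ≤ K * (n * M) := by
    intro i j
    rw [LinearMap.toMatrix_apply]
    refine hK i j _ (n * M) (by positivity) ?_
    have h2 : ‖(ev ρ c) (b j : Fin n → ℂ)‖ ≤ n * M * ‖(b j : Fin n → ℂ)‖ := by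
      rw [ev, Matrix.toLin'_apply]
      refine (pi_norm_le_iff_of_nonneg (by positivity)).2 fun k => ?_
      rw [Matrix.mulVec, dotProduct]
      refine (norm_sum_le _ _).trans ?_
      refine (Finset.sum_le_sum (g := fun _ => M * ‖(b j : Fin n → ℂ)‖) fun m _ => ?_).trans ?_
      · rw [norm_mul]
        exact mul_le_mul (hcM k m) (norm_le_pi_norm _ m) (norm_nonneg _) hM
      · rw [Finset.sum_const, Finset.card_univ, Fintype.card_fin, nsmul_eq_mul]
        exact le_of_eq (by ring)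
    exact h2
  have h2 := Matrix.det_le h1
  rw [Fintype.card_fin] at h2
  refine le_trans (le_of_eq rfl) (h2.trans ?_)
  rw [nsmul_eq_mul]
  calc ((finrank ℂ W).factorial : ℝ) * (K * (n * M)) ^ finrank ℂ W =
      ((finrank ℂ W).factorial * (K * n) ^ finrank ℂ W) * M ^ finrank ℂ W := by
        rw [← mul_assoc K, mul_pow, mul_assoc]
    _ ≤ _ := mul_le_mul_of_nonneg_right (le_max_right _ _) (by positivity)

/-- Representations of the centralizer with an eigenvalue off the unit circle. -/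
theorem charLe_of_rep (x : G) (D : G → ℝ)
    (hD : ∀ c, Commute c x → ∀ i j, ‖(ρ c : Matrix (Fin n) (Fin n) ℂ) i j‖ ≤ Real.exp (D c))
    {l : ℂ} (hl : ‖l‖ ≠ 1) {v : Fin n → ℂ} (hv : v ≠ 0)
    (hvl : Matrix.mulVec (ρ x : Matrix (Fin n) (Fin n) ℂ) v = l • v) :
    ∃ (a b : ℝ), 0 ≤ a ∧ 0 ≤ b ∧ CharLe x fun c => a * D c + b := by
  obtain ⟨K, d, hK1, hK⟩ := edet_le ρ x l
  refine ⟨d, Real.log K, Nat.cast_nonneg d, Real.log_nonneg hK1,
    fun c => Real.log ‖edet ρ x l c‖, fun g h hg hh => ?_, fun g hg => ?_, ?_⟩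
  · simp only
    rw [edet_mul ρ x l hg hh, norm_mul, Real.log_mul (norm_ne_zero_iff.2 (edet_ne ρ x l hg))
      (norm_ne_zero_iff.2 (edet_ne ρ x l hh))]
  · have h1 := hK g hg (Real.exp (D g)) (Real.exp_pos _).le (hD g hg)
    have h2 : 0 < ‖edet ρ x l g‖ := norm_pos_iff.2 (edet_ne ρ x l hg)
    have h3 := Real.log_le_log h2 h1
    rw [Real.log_mul (by linarith) (by positivity), Real.log_pow, Real.log_exp] at h3
    simp only
    linarith
  · simp only
    have hvW : v ∈ Module.End.eigenspace (ev ρ x) l := by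
      rw [Module.End.mem_eigenspace_iff, ev, Matrix.toLin'_apply]
      exact hvl
    have hl0 : l ≠ 0 := by
      rintro rfl
      have h1 : ev ρ (x⁻¹ * x) v = v := by
        rw [inv_mul_cancel]
        simp [ev]
      rw [ev_mul, Module.End.mul_apply] at h1
      have h2 := Module.End.mem_eigenspace_iff.1 hvW
      rw [h2, zero_smul, map_zero] at h1
      exact hv h1.symm
    have hdim : 0 < finrank ℂ (Module.End.eigenspace (ev ρ x) l) := by
      haveI : Nontrivial (Module.End.eigenspace (ev ρ x) l) :=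
        ⟨⟨⟨v, hvW⟩, 0, fun h => hv (congrArg Subtype.val h)⟩⟩
      exact Module.finrank_pos
    rw [edet_self, norm_pow, Real.log_pow]
    refine mul_ne_zero (by exact_mod_cast hdim.ne') ?_
    refine Real.log_ne_zero_of_pos_of_ne_one (norm_pos_iff.2 hl0) hl

end Vale.Agent.P184.M
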