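import Vale.Agent.P184.R2.H270M.MDefs
import Vale.Agent.P184.R2.H270M.Cat
import Vale.Agent.P184.R2.H270M.Ban
import Vale.Agent.P184.R2.H270M.Meas
import Vale.Agent.P184.R2.H270M.Rep
import Vale.Agent.P184.R2.H270M.Iet3
import Vale.Agent.P184.R2.H270M.Field
import Vale.Agent.P184.R2.H940.Main
import Vale.Agent.P184.H444.Push
import Vale.Agent.P184.H788.ProdN

set_option linter.all false

/-!
# The clauses of the theorem
-/

noncomputable section

open MeasureTheory

namespace Vale.Agent.P184.Mv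

open W (Cen)
open M (CharLe)

universe u v w

theorem mem_cen {G : Type u} [Group G] {x g : G} : g ∈ Cen x ↔ Commute g x :=
  Subgroup.mem_centralizer_singleton_iff

theorem commute_self {G : Type u} [Group G] (x : G) (c : Cen x) : Commute c (self x) :=
  Subtype.ext (mem_cen.1 c.2)

theorem wCharged_of_charLe {G : Type u} [Group G] {x : G} {D : Cen x → ℝ} {a b : ℝ}
    (ha : 0 ≤ a) (hb : 0 ≤ b) (h : Dominated x D)
    (hc : CharLe (self x) fun c => a * D c + b) : H940.WCharged x := by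
  classical
  obtain ⟨L, w, hL, hw, hwm, hns, hD⟩ := h
  obtain ⟨φ, h1, h2, h3⟩ := hc
  let ψ : G → ℝ := fun g => if h : g ∈ Cen x then φ ⟨g, h⟩ else 0
  have hψ : ∀ (g : G) (h : g ∈ Cen x), ψ g = φ ⟨g, h⟩ := fun g h => dif_pos h
  refine ⟨fun g => max (L g) 0 + 1, ψ, fun n => a * w n + (b + 1), fun g h => ?_,
    fun g h hg hh => ?_, fun n => ?_, fun m n hmn => ?_, fun hs => hns ?_, fun g hg => ?_, ?_⟩
  · have h4 := hL g h
    have h5 : max (L (g * h)) 0 ≤ max (L g) 0 + max (L h) 0 := by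
      refine max_le (h4.trans (add_le_add (le_max_left _ _) (le_max_left _ _))) ?_
      exact add_nonneg (le_max_right _ _) (le_max_right _ _)
    simp only
    linarith
  · have hg' := mem_cen.2 hg
    have hh' := mem_cen.2 hh
    rw [hψ g hg', hψ h hh', hψ (g * h) ((Cen x).mul_mem hg' hh')]
    exact h1 ⟨g, hg'⟩ ⟨h, hh'⟩ (commute_self x _) (commute_self x _)
  · have := mul_nonneg ha (hw n).le
    simp only
    linarith
  · have := mul_le_mul_of_nonneg_left (hwm hmn) ha
    simp only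
    linarith
  · -- comparison of the series
    have hK : ∀ n, a * w n + (b + 1) ≤ (a + (b + 1) / w 0) * w n := by
      intro n
      have h4 : (1 : ℝ) ≤ w n / w 0 := by
        rw [le_div_iff₀ (hw 0), one_mul]
        exact hwm (Nat.zero_le n)
      have h5 : (b + 1) * 1 ≤ (b + 1) * (w n / w 0) :=
        mul_le_mul_of_nonneg_left h4 (by linarith)
      have h6 : (b + 1) * (w n / w 0) = (b + 1) / w 0 * w n := by ring
      linarith
    refine Summable.of_nonneg_of_le (fun n => by have := hw n; positivity) (fun n => ?_)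
      (hs.mul_left (a + (b + 1) / w 0))
    have h4 : 0 < a * w n + (b + 1) := by
      have := mul_nonneg ha (hw n).le
      linarith
    rw [mul_one_div, div_le_div_iff₀ (hw n) h4, one_mul]
    exact hK n
  · have hg' := mem_cen.2 hg
    rw [hψ g hg']
    refine (h2 ⟨g, hg'⟩ (commute_self x _)).trans ?_
    have h4 := hD ⟨g, hg'⟩
    have h5 : ⌈L g⌉₊ ≤ ⌈max (L g) 0 + 1⌉₊ :=
      Nat.ceil_mono ((le_max_left _ _).trans (le_add_of_nonneg_right zero_le_one))
    have h6 : 1 ≤ ⌈max (L g) 0 + 1⌉₊ := by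
      rw [Nat.one_le_ceil_iff]
      have := le_max_right (L g) 0
      linarith
    rw [Finset.sum_add_distrib, ← Finset.mul_sum, Finset.sum_const, Finset.card_range,
      nsmul_eq_mul]
    have h7 : ∑ n ∈ Finset.range ⌈L g⌉₊, w n ≤ ∑ n ∈ Finset.range ⌈max (L g) 0 + 1⌉₊, w n :=
      Finset.sum_le_sum_of_subset_of_nonneg (Finset.range_mono h5) fun n _ _ => (hw n).le
    have h8 : a * D ⟨g, hg'⟩ ≤ a * ∑ n ∈ Finset.range ⌈max (L g) 0 + 1⌉₊, w n :=
      mul_le_mul_of_nonneg_left (h4.trans h7) ha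
    have h9 : (1 : ℝ) ≤ (⌈max (L g) 0 + 1⌉₊ : ℝ) := by exact_mod_cast h6
    have h10 : (b + 1) * 1 ≤ ((⌈max (L g) 0 + 1⌉₊ : ℕ) : ℝ) * (b + 1) := by
      rw [mul_comm]
      exact mul_le_mul_of_nonneg_right h9 (by linarith)
    linarith
  · rw [hψ x (self x).2]
    exact h3

theorem wCharged_of_charLe' {G : Type u} [Group G] {x : G} {D : Cen x → ℝ}
    (h : Dominated x D) (hc : CharLe (self x) D) : H940.WCharged x := by
  refine wCharged_of_charLe (a := 1) (b := 0) zero_le_one le_rfl h ?_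
  simpa using hc

theorem Cat0Moves.wCharged {G : Type u} [Group G] {x : G} (h : Cat0Moves.{w} x) :
    H940.WCharged x := by
  obtain ⟨Y, _, _, hY, hiso, o, ε, hε, hD, hx⟩ := h
  exact wCharged_of_charLe' hD (M.charged_of_cat hY hiso (self x) o hε hx)

theorem BanachMoves.wCharged {G : Type u} [Group G] {x : G} (h : BanachMoves.{w} x) :
    H940.WCharged x := by
  obtain ⟨E, _, _, _, hE, hiso, o, ε, hε, hD, hx⟩ := h
  exact wCharged_of_charLe' hD (M.charged_of_banach hiso (self x) o hε hx)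

theorem DriftMoves.wCharged {G : Type u} [Group G] {x : G} (h : DriftMoves.{w} x) :
    H940.WCharged x := by
  obtain ⟨S, _, _, μ, σ, B, hμ, hmp, hσ, hco, hD, hB, hBx, hne⟩ := h
  exact wCharged_of_charLe' hD (M.charged_of_cocycle hmp σ hσ hco (self x) hB hBx hne)

theorem WallMoves.wCharged {G : Type u} [Group G] {x : G} (h : WallMoves.{w} x) :
    H940.WCharged x := by
  obtain ⟨S, _, A, hA, hD, hx⟩ := h
  exact wCharged_of_charLe' hD (M.charged_of_unbounded (self x) A hA hx)

theorem RepMoves.wCharged {G : Type u} [Group G] {x : G} (h : RepMoves x) :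
    H940.WCharged x := by
  obtain ⟨n, ρ, D, l, v, hD, hρ, hv, hvl, hl⟩ := h
  obtain ⟨a, b, ha, hb, hc⟩ := M.charLe_of_rep ρ (self x) D (fun c _ => hρ c) hl hv hvl
  exact wCharged_of_charLe ha hb hD hc

theorem IsoCocycle.fld {Γ : Type*} [Group Γ] {S Y : Type*} [MeasurableSpace S] [MulAction Γ S]
    [MetricSpace Y] [SecondCountableTopology Y] [MeasurableSpace Y] [BorelSpace Y]
    {μ : Measure S} {β : Γ → S → Y → Y} {o : Y} (h : IsoCocycle μ β o) : M.Fld μ β o :=
  ⟨h.1, h.2.1, h.2.2.1, h.2.2.2.1, h.2.2.2.2.1, h.2.2.2.2.2⟩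

theorem FieldMoves.wCharged {G : Type u} [Group G] {x : G} (h : FieldMoves.{w} x) :
    H940.WCharged x := by
  obtain ⟨S, Y, _, _, _, _, _, _, μ, β, o, ε, hY, hβ, hε, hD, hx⟩ := h
  exact wCharged_of_charLe' hD (M.charged_of_field hβ.fld hY (self x) hε hx)

theorem Moves.wCharged {G : Type u} [Group G] {x : G} (h : Moves.{w} x) : H940.WCharged x := by
  rcases h with h | h | h | h | h | h
  exacts [h.wCharged, h.wCharged, h.wCharged, h.wCharged, h.wCharged, h.wCharged]

/-! ### Restriction along homomorphisms -/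

section Hom

variable {G : Type u} {K : Type v} [Group G] [Group K] (f : G →* K) {x : G}

/-- The homomorphism of the centralizers. -/
def fC (x : G) : Cen x →* Cen (f x) :=
  (f.comp (Cen x).subtype).codRestrict _ fun c =>
    mem_cen.2 ((mem_cen.1 c.2).map f)

theorem fC_self (x : G) : fC f x (self x) = self (f x) := rfl

theorem Dominated.hom {D : Cen (f x) → ℝ} (h : Dominated (f x) D) :
    Dominated x fun c => D (fC f x c) := by
  obtain ⟨L, w, hL, hw, hwm, hns, hD⟩ := h
  exact ⟨fun g => L (f g), w, fun g h => by simp only [map_mul]; exact hL _ _, hw, hwm, hns,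
    fun c => hD (fC f x c)⟩

theorem Moves.hom (h : Moves.{w} (f x)) : Moves.{w} x := by
  rcases h with h | h | h | h | h | h
  · obtain ⟨Y, _, _, hY, hiso, o, ε, hε, hD, hx⟩ := h
    refine Or.inl ⟨Y, inferInstance, MulAction.compHom Y (fC f x), hY, fun c a b => hiso _ a b,
      o, ε, hε, hD.hom f, fun n => ?_⟩
    change ε * n ≤ dist o (fC f x (self x ^ n) • o)
    rw [map_pow, fC_self]
    exact hx n
  · obtain ⟨E, _, _, _, hE, hiso, o, ε, hε, hD, hx⟩ := h
    refine Or.inr (Or.inl ⟨E, inferInstance, inferInstance, MulAction.compHom E (fC f x), hE,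
      fun c a b => hiso _ a b, o, ε, hε, hD.hom f, fun n => ?_⟩)
    change ε * n ≤ dist o (fC f x (self x ^ n) • o)
    rw [map_pow, fC_self]
    exact hx n
  · obtain ⟨S, _, _, μ, σ, B, hμ, hmp, hσ, hco, hD, hB, hBx, hne⟩ := h
    refine Or.inr (Or.inr (Or.inl ⟨S, inferInstance, MulAction.compHom S (fC f x), μ,
      fun c => σ (fC f x c), B, hμ, fun c => hmp _, fun c => hσ _, fun c d => ?_, hD.hom f,
      hB, hBx, hne⟩))
    simp only [map_mul]
    exact hco _ _
  · obtain ⟨S, _, A, hA, hD, hx⟩ := h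
    refine Or.inr (Or.inr (Or.inr (Or.inl ⟨S, MulAction.compHom S (fC f x), A, fun c => hA _,
      hD.hom f, fun N => ?_⟩)))
    obtain ⟨n, hn⟩ := hx N
    refine ⟨n, ?_⟩
    change N < {s | ¬ (s ∈ A ↔ fC f x (self x ^ n) • s ∈ A)}.ncard
    rw [map_pow, fC_self]
    exact hn
  · obtain ⟨n, ρ, D, l, v, hD, hρ, hv, hvl, hl⟩ := h
    exact Or.inr (Or.inr (Or.inr (Or.inr (Or.inl ⟨n, ρ.comp (fC f x), fun c => D (fC f x c),
      l, v, hD.hom f, fun c => hρ _, hv, hvl, hl⟩))))
  · obtain ⟨S, Y, _, _, _, _, _, _, μ, β, o, ε, hY, ⟨h1, h2, h3, h4, h5, h6⟩, hε, hD, hx⟩ := h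
    refine Or.inr (Or.inr (Or.inr (Or.inr (Or.inr ⟨S, Y, inferInstance,
      MulAction.compHom S (fC f x), inferInstance, inferInstance, inferInstance, inferInstance,
      μ, fun c => β (fC f x c), o, ε, hY, ⟨fun c => h1 _, fun s y => ?_, fun g k s y => ?_,
      fun c => h4 _, fun c => h5 _, fun c => h6 _⟩, hε, hD.hom f, fun n => ?_⟩))))
    · simp only [map_one]
      exact h2 s y
    · simp only [map_mul]
      exact h3 _ _ _ _
    · simp only [map_pow, fC_self]
      exact hx n

end Hom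

theorem Moves.top {G : Type u} [Group G] {x : G} (h : Moves.{w} x) :
    ∃ (H : Subgroup G) (m : ℕ) (hm : x ^ (m + 1) ∈ H), H.FiniteIndex ∧
      Moves.{w} (⟨_, hm⟩ : H) := by
  refine ⟨⊤, 0, Subgroup.mem_top _, inferInstance, ?_⟩
  refine Moves.hom (⊤ : Subgroup G).subtype ?_
  have h1 : (⊤ : Subgroup G).subtype ⟨x ^ (0 + 1), Subgroup.mem_top _⟩ = x := by simp
  rw [h1]
  exact h

theorem Moves.loc {G : Type u} [Group G] {x : G} (h : Moves.{w} x) : LocMoves.{w} x :=
  fun S hS => Moves.top (Moves.hom (Subgroup.closure (S : Set G)).subtype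
    (x := (⟨x, hS⟩ : Subgroup.closure (S : Set G))) h)

theorem LocMoves.hom {G : Type u} {K : Type v} [Group G] [Group K] (f : G →* K) {x : G}
    (h : LocMoves.{w} (f x)) : LocMoves.{w} x := by
  classical
  intro S hS
  have h1 : ∀ g ∈ Subgroup.closure (S : Set G),
      f g ∈ Subgroup.closure ((S.image f : Finset K) : Set K) := by
    intro g hg
    rw [Finset.coe_image, ← MonoidHom.map_closure]
    exact Subgroup.mem_map_of_mem f hg
  let π : Subgroup.closure (S : Set G) →* Subgroup.closure ((S.image f : Finset K) : Set K) :=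
    (f.comp (Subgroup.subtype _)).codRestrict _ fun g => h1 g g.2
  obtain ⟨H, m, hm, hH, hM⟩ := h (S.image f) (h1 x hS)
  have hm' : (⟨x, hS⟩ : Subgroup.closure (S : Set G)) ^ (m + 1) ∈ H.comap π := by
    rw [Subgroup.mem_comap, map_pow]
    exact hm
  have hfi : (H.comap π).FiniteIndex := by
    refine ⟨?_⟩
    rw [Subgroup.index_comap]
    exact Subgroup.FiniteIndex.index_ne_zero (H := H.subgroupOf π.range)
  refine ⟨H.comap π, m, hm', hfi, ?_⟩
  let θ : H.comap π →* H := (π.comp (Subgroup.subtype _)).codRestrict _ fun g => g.2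
  refine Moves.hom θ ?_
  have h2 : θ ⟨_, hm'⟩ = ⟨_, hm⟩ := Subtype.ext (map_pow π _ _)
  rw [h2]
  exact hM

theorem LocMoves.almostCoc {G : Type u} [Group G] {x : G} (h : LocMoves.{w} x) :
    H940.AlmostCoc x := by
  refine H940.almostCoc_of_local fun S hS => ?_
  obtain ⟨H, m, hm, hH, hM⟩ := h S hS
  exact H940.AlmostCoc.of_pow (Nat.succ_pos m) (H940.AlmostCoc.of_index hM.wCharged.almostCoc)

theorem LocMoves.vanishesAt {G : Type u} [Group G] {x : G} (h : LocMoves.{w} x) :
    W.VanishesAt x :=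
  H940.vanishesAt_of_almostCoc h.almostCoc

/-! ### Actions of the whole group -/

section Whole

variable {G : Type u} [Group G]

theorem dominated_of_le {x : G} {D : Cen x → ℝ} (L : G → ℝ) (hL : ∀ g h, L (g * h) ≤ L g + L h)
    (h : ∀ c : Cen x, D c ≤ L c) : Dominated x D := by
  refine ⟨L, fun _ => 1, hL, fun _ => one_pos, monotone_const, fun hs => ?_, fun c => ?_⟩
  · have h1 := hs.tendsto_atTop_zero
    simp only [div_one] at h1
    exact one_ne_zero (tendsto_nhds_unique tendsto_const_nhds h1)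
  · rw [Finset.sum_const, Finset.card_range, nsmul_eq_mul, mul_one]
    exact (h c).trans (Nat.le_ceil _)

theorem translates_of {Y : Type w} [MetricSpace Y] [MulAction G Y]
    (hiso : ∀ (g : G) (a b : Y), dist (g • a) (g • b) = dist a b) (x : G) (o : Y) {ε : ℝ}
    (hε : 0 < ε) (hx : ∀ n : ℕ, ε * n ≤ dist o (x ^ n • o)) : Translates x Y := by
  refine ⟨fun c a b => hiso c a b, o, ε, hε, ?_, fun n => hx n⟩
  refine dominated_of_le (fun g => dist o (g • o)) (fun g h => ?_) fun c => le_rfl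
  have h1 := dist_triangle o (g • o) ((g * h) • o)
  rw [mul_smul, hiso] at h1
  rw [mul_smul]
  exact h1

theorem moves_cat {Y : Type w} [MetricSpace Y] [MulAction G Y] (hY : CN Y)
    (hiso : ∀ (g : G) (a b : Y), dist (g • a) (g • b) = dist a b) (x : G) (o : Y) {ε : ℝ}
    (hε : 0 < ε) (hx : ∀ n : ℕ, ε * n ≤ dist o (x ^ n • o)) : LocMoves.{w} x :=
  Moves.loc (Or.inl ⟨Y, inferInstance, inferInstance, hY, translates_of hiso x o hε hx⟩)

theorem moves_wall {S : Type w} [MulAction G S] (A : Set S)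
    (hA : ∀ g : G, {s | ¬ (s ∈ A ↔ g • s ∈ A)}.Finite) (x : G)
    (hx : ∀ N : ℕ, ∃ n : ℕ, N < {s | ¬ (s ∈ A ↔ x ^ n • s ∈ A)}.ncard) : LocMoves.{w} x :=
  Moves.loc (Or.inr (Or.inr (Or.inr (Or.inl ⟨S, inferInstance, A, fun c => hA c,
    dominated_of_le (M.clen A) (M.clen_mul hA) fun c => le_rfl, hx⟩))))

/-- Charged elements. -/
theorem moves_of_charged {x : G} (h : Charged x) : LocMoves.{w} x := by
  obtain ⟨L, φ, hL, hφ, hle, hne⟩ := h
  have hφ1 : φ 1 = 0 := by
    have := hφ 1 1 (Commute.one_left x) (Commute.one_left x)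
    rw [mul_one] at this
    linarith
  letI : MulAction (Cen x) PUnit.{w + 1} :=
    { smul := fun _ s => s
      one_smul := fun _ => rfl
      mul_smul := fun _ _ _ => rfl }
  refine Moves.loc (Or.inr (Or.inr (Or.inl ⟨PUnit, ⊤, inferInstance, Measure.dirac PUnit.unit,
    fun c _ => φ c, Set.univ, inferInstance, fun c => ?_, fun c => integrable_const _,
    fun c d => ae_of_all _ fun s => ?_, ?_, MeasurableSet.univ, rfl, ?_⟩)))
  · exact MeasurePreserving.id _
  · exact hφ c d (mem_cen.1 c.2) (mem_cen.1 d.2)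
  · refine dominated_of_le (fun g => max (L g) (L g⁻¹)) (fun g h => ?_) fun c => ?_
    · refine max_le ((hL g h).trans (add_le_add (le_max_left _ _) (le_max_left _ _))) ?_
      rw [mul_inv_rev]
      refine (hL _ _).trans ?_
      rw [add_comm]
      exact add_le_add (le_max_right _ _) (le_max_right _ _)
    · have hc := mem_cen.1 c.2
      have h1 : φ (c : G)⁻¹ = -φ c := by
        have := hφ c (c : G)⁻¹ hc hc.inv_left
        rw [mul_inv_cancel, hφ1] at this
        linarith
      have h2 := hle _ hc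
      have h3 := hle _ hc.inv_left
      rw [h1] at h3
      simp only [integral_const, probReal_univ, smul_eq_mul, one_mul]
      exact abs_le'.2 ⟨h2.trans (le_max_left _ _), h3.trans (le_max_right _ _)⟩
  · simp only [Measure.restrict_univ, integral_const, probReal_univ, smul_eq_mul, one_mul]
    exact hne

theorem moves_iet (ρ : G →* Equiv.Perm ℝ) (hρ : ∀ g, IsIET (ρ g)) {x : G}
    (hx : ¬ IsOfFinOrder (ρ x)) : LocMoves.{w} x :=
  moves_of_charged (M.iet_charged ρ hρ x hx)

end Whole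

/-! ### The conjecture -/

theorem infOrder_of_wCharged {G : Type u} [Group G] {x : G} (h : H940.WCharged x) :
    ¬ IsOfFinOrder x := by
  obtain ⟨L, ψ, w, -, hψ, -, -, -, -, hne⟩ := h
  intro hx
  rw [isOfFinOrder_iff_pow_eq_one] at hx
  obtain ⟨n, hn, hx⟩ := hx
  have hψ1 : ψ 1 = 0 := by
    have := hψ 1 1 (Commute.one_left x) (Commute.one_left x)
    rw [mul_one] at this
    linarith
  have h1 : ∀ m : ℕ, ψ (x ^ m) = m * ψ x := by
    intro m
    induction m with
    | zero => rw [pow_zero, hψ1]; simp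
    | succ m ih =>
      rw [pow_succ, hψ _ _ ((Commute.refl x).pow_left m) (Commute.refl x), ih]
      push_cast
      ring
  have h2 := h1 n
  rw [hx, hψ1] at h2
  rcases mul_eq_zero.1 h2.symm with h3 | h3
  · exact hn.ne' (by exact_mod_cast h3)
  · exact hne h3

theorem LocMoves.infOrder {G : Type u} [Group G] {x : G} (h : LocMoves.{w} x) :
    ¬ IsOfFinOrder x := by
  intro hx
  have h1 : x ∈ Subgroup.closure (({x} : Finset G) : Set G) :=
    Subgroup.subset_closure (by simp)
  obtain ⟨H, m, hm, hH, hM⟩ := h {x} h1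
  refine infOrder_of_wCharged hM.wCharged ?_
  have h2 : IsOfFinOrder (⟨x, h1⟩ : Subgroup.closure (({x} : Finset G) : Set G)) := by
    rw [← Submonoid.isOfFinOrder_coe
      (H := (Subgroup.closure (({x} : Finset G) : Set G)).toSubmonoid)]
    exact hx
  have h3 := h2.pow (n := m + 1)
  rw [← Submonoid.isOfFinOrder_coe (H := H.toSubmonoid)]
  exact h3

theorem l1Bass_of_moves {G : Type u} [Group G]
    (h : ∀ x : G, ¬ IsOfFinOrder x → LocMoves.{w} x)
    (hfin : ∀ S : Finset G, {C : ConjClasses (Subgroup.closure (S : Set G)) |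
      ∀ g ∈ C.carrier, IsOfFinOrder g}.Finite) : W.L1Bass G :=
  H940.l1Bass_of_soft (fun x hx => Or.inr (h x hx).almostCoc) (H940.softTor_of_finite hfin)

/-- Products of arbitrary groups with torsion-free groups. -/
theorem bass_prod_moves {G : Type u} {B : Type v} [Group G] [Group B]
    (h : ∀ x : B, x ≠ 1 → LocMoves.{w} x) : W.L1Bass (G × B) ↔ W.L1Bass G := by
  classical
  constructor
  · exact fun h => H11.l1Bass_retract (MonoidHom.inl G B) (MonoidHom.fst G B) (fun _ => rfl) h
  intro hG q e he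
  have hvan : ∀ y : G × B, y.2 ≠ 1 → W.VanishesAt y := fun y hy =>
    (LocMoves.hom (MonoidHom.snd G B) (h y.2 hy)).vanishesAt
  obtain ⟨F, hF1, hF2⟩ := hG q (H444.push (MonoidHom.fst G B) e) (H444.push_idem _ he)
  refine ⟨F.image fun C => ConjClasses.map (MonoidHom.inl G B) C, fun C hC g hg => ?_,
    fun C hC => ?_⟩
  · obtain ⟨D, hD, rfl⟩ := Finset.mem_image.1 hC
    obtain ⟨d, rfl⟩ := ConjClasses.mk_surjective D
    have h1 : IsOfFinOrder d := hF1 _ hD d ConjClasses.mem_carrier_mk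
    have h2 : IsConj (MonoidHom.inl G B d) g :=
      (ConjClasses.mk_eq_mk_iff_isConj.1 (ConjClasses.mem_carrier_iff_mk_eq.1 hg)).symm
    exact h2.isOfFinOrder ((MonoidHom.inl G B).isOfFinOrder h1)
  · obtain ⟨⟨g, b⟩, rfl⟩ := ConjClasses.mk_surjective C
    by_cases hb : b = 1
    · subst hb
      have h1 := H444.tau_push (MonoidHom.fst G B) he (g, (1 : B)) fun y hy hne => by
        refine hvan y fun hy2 => hne ?_
        obtain ⟨c, hc⟩ := isConj_iff.1 hy
        refine isConj_iff.2 ⟨(c, 1), ?_⟩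
        refine Prod.ext hc ?_
        change (1 : B) * 1 * (1 : B)⁻¹ = y.2
        rw [hy2, mul_one, mul_inv_cancel]
      refine Eq.trans h1 (hF2 _ fun h2 => hC ?_)
      exact Finset.mem_image.2 ⟨_, h2, rfl⟩
    · exact hvan (g, b) hb q e he

end Vale.Agent.P184.Mv
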