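import Mathlib

set_option linter.all false

/-!
# The exponential metric increasing property of positive definite matrices
-/

noncomputable section

open Matrix Finset Filter Topology
open scoped ComplexOrder

namespace Vale.Agent.P184.Pn

/-- Square complex matrices. -/
abbrev Mt (n : ℕ) := Matrix (Fin n) (Fin n) ℂ

variable {n : ℕ}

/-! ### The Frobenius norm -/

/-- A matrix as a vector. -/
def vec2 (X : Mt n) : EuclideanSpace ℂ (Fin n × Fin n) := WithLp.toLp 2 fun p => X p.1 p.2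

/-- The Frobenius norm. -/
def fn (X : Mt n) : ℝ := ‖vec2 X‖

theorem fn_nonneg (X : Mt n) : 0 ≤ fn X := norm_nonneg _

theorem fn_add (X Y : Mt n) : fn (X + Y) ≤ fn X + fn Y := by
  have h1 : vec2 (X + Y) = vec2 X + vec2 Y := rfl
  rw [fn, h1]
  exact norm_add_le _ _

theorem fn_sq (X : Mt n) : fn X ^ 2 = ∑ i, ∑ j, ‖X i j‖ ^ 2 := by
  rw [fn, EuclideanSpace.norm_sq_eq, Fintype.sum_prod_type]
  rfl

theorem fn_eq_zero {X : Mt n} (h : fn X = 0) : X = 0 := by
  have h1 : vec2 X = 0 := norm_eq_zero.1 h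
  ext i j
  have h2 := congrArg (fun v : EuclideanSpace ℂ (Fin n × Fin n) => v (i, j)) h1
  exact h2

theorem fn_neg (X : Mt n) : fn (-X) = fn X := by
  have h1 : vec2 (-X) = -vec2 X := rfl
  rw [fn, h1, norm_neg, fn]

theorem fn_sub_comm (X Y : Mt n) : fn (X - Y) = fn (Y - X) := by
  rw [← fn_neg, neg_sub]

theorem fn_smul (t : ℝ) (X : Mt n) : fn (t • X) = |t| * fn X := by
  have h1 : vec2 (t • X) = t • vec2 X := rfl
  rw [fn, h1, norm_smul, Real.norm_eq_abs, fn]

theorem fn_convex (X W : Mt n) (t : ℝ) : fn X ^ 2 =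
    (1 - t) * fn (X + t • W) ^ 2 + t * fn (X - (1 - t) • W) ^ 2 - t * (1 - t) * fn W ^ 2 := by
  have h1 : vec2 (X + t • W) = vec2 X + t • vec2 W := rfl
  have h2 : vec2 (X - (1 - t) • W) = vec2 X - (1 - t) • vec2 W := rfl
  simp only [fn]
  rw [h1, h2, norm_add_sq_real, norm_sub_sq_real, norm_smul, norm_smul, inner_smul_right,
    inner_smul_right, mul_pow, mul_pow, Real.norm_eq_abs, Real.norm_eq_abs, sq_abs, sq_abs]
  ring

theorem fn_sq_trace (X : Mt n) : fn X ^ 2 = (trace (Xᴴ * X)).re := by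
  rw [fn_sq, trace, Finset.sum_comm]
  simp only [diag_apply, mul_apply, conjTranspose_apply]
  rw [Complex.re_sum]
  refine Finset.sum_congr rfl fun j _ => ?_
  rw [Complex.re_sum]
  refine Finset.sum_congr rfl fun i _ => ?_
  rw [Complex.star_def, ← Complex.normSq_eq_conj_mul_self, Complex.ofReal_re,
    Complex.normSq_eq_norm_sq]

theorem fn_unitary_left {U : Mt n} (hU : Uᴴ * U = 1) (X : Mt n) : fn (U * X) = fn X := by
  have h1 : fn (U * X) ^ 2 = fn X ^ 2 := by
    rw [fn_sq_trace, fn_sq_trace, conjTranspose_mul]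
    congr 2
    rw [mul_assoc, ← mul_assoc Uᴴ, hU, one_mul]
  exact (pow_left_inj₀ (fn_nonneg _) (fn_nonneg _) two_ne_zero).1 h1

theorem fn_conj (X : Mt n) : fn Xᴴ = fn X := by
  have h1 : fn Xᴴ ^ 2 = fn X ^ 2 := by
    rw [fn_sq_trace, fn_sq_trace, conjTranspose_conjTranspose, trace_mul_comm]
  exact (pow_left_inj₀ (fn_nonneg _) (fn_nonneg _) two_ne_zero).1 h1

theorem fn_unitary_right {U : Mt n} (hU : U * Uᴴ = 1) (X : Mt n) : fn (X * U) = fn X := by
  rw [← fn_conj, conjTranspose_mul, fn_unitary_left, fn_conj]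
  rw [conjTranspose_conjTranspose, hU]

/-! ### Functional calculus -/

theorem cont (f : ℝ → ℝ) (P : Mt n) : ContinuousOn f (spectrum ℝ P) :=
  (P.finite_real_spectrum).continuousOn f

theorem cfc_spec {P : Mt n} (hP : P.IsHermitian) (f : ℝ → ℝ) :
    cfc f P = (hP.eigenvectorUnitary : Mt n) *
      diagonal (fun i => ((f (hP.eigenvalues i) : ℝ) : ℂ)) *
      (hP.eigenvectorUnitary : Mt n)ᴴ := by
  rw [hP.cfc_eq, IsHermitian.cfc, Unitary.conjStarAlgAut_apply]
  rfl

theorem uni_left {P : Mt n} (hP : P.IsHermitian) :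
    (hP.eigenvectorUnitary : Mt n)ᴴ * (hP.eigenvectorUnitary : Mt n) = 1 :=
  Unitary.coe_star_mul_self _

theorem uni_right {P : Mt n} (hP : P.IsHermitian) :
    (hP.eigenvectorUnitary : Mt n) * (hP.eigenvectorUnitary : Mt n)ᴴ = 1 :=
  Unitary.coe_mul_star_self _

theorem herm_cfc (P : Mt n) (f : ℝ → ℝ) : (cfc f P).IsHermitian :=
  (cfc_predicate f P : IsSelfAdjoint (cfc f P))

/-- The matrix of the scalar products of the eigenvectors. -/
def wm {P Q : Mt n} (hP : P.IsHermitian) (hQ : Q.IsHermitian) : Mt n :=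
  (hP.eigenvectorUnitary : Mt n)ᴴ * (hQ.eigenvectorUnitary : Mt n)

theorem wm_right {P Q : Mt n} (hP : P.IsHermitian) (hQ : Q.IsHermitian) :
    wm hP hQ * (wm hP hQ)ᴴ = 1 := by
  rw [wm, conjTranspose_mul, conjTranspose_conjTranspose, mul_assoc,
    ← mul_assoc (hQ.eigenvectorUnitary : Mt n), uni_right, one_mul, uni_left]

theorem wm_left {P Q : Mt n} (hP : P.IsHermitian) (hQ : Q.IsHermitian) :
    (wm hP hQ)ᴴ * wm hP hQ = 1 := by
  rw [wm, conjTranspose_mul, conjTranspose_conjTranspose, mul_assoc,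
    ← mul_assoc (hP.eigenvectorUnitary : Mt n), uni_right, one_mul, uni_left]

theorem wm_row {P Q : Mt n} (hP : P.IsHermitian) (hQ : Q.IsHermitian) (i : Fin n) :
    ∑ j, ‖wm hP hQ i j‖ ^ 2 = 1 := by
  have h1 := congrFun (congrFun (wm_right hP hQ) i) i
  rw [mul_apply, one_apply_eq] at h1
  have h2 := congrArg Complex.re h1
  rw [Complex.re_sum, Complex.one_re] at h2
  rw [← h2]
  refine Finset.sum_congr rfl fun j _ => ?_
  rw [conjTranspose_apply, Complex.star_def, Complex.mul_conj, Complex.ofReal_re,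
    Complex.normSq_eq_norm_sq]

theorem wm_col {P Q : Mt n} (hP : P.IsHermitian) (hQ : Q.IsHermitian) (j : Fin n) :
    ∑ i, ‖wm hP hQ i j‖ ^ 2 = 1 := by
  have h1 := congrFun (congrFun (wm_left hP hQ) j) j
  rw [mul_apply, one_apply_eq] at h1
  have h2 := congrArg Complex.re h1
  rw [Complex.re_sum, Complex.one_re] at h2
  rw [← h2]
  refine Finset.sum_congr rfl fun i _ => ?_
  rw [conjTranspose_apply, Complex.star_def, ← Complex.normSq_eq_conj_mul_self,
    Complex.ofReal_re, Complex.normSq_eq_norm_sq]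

/-- The distance of two functions of Hermitian matrices. -/
theorem fn_cfc_sub {P Q : Mt n} (hP : P.IsHermitian) (hQ : Q.IsHermitian) (f g : ℝ → ℝ) :
    fn (cfc f P - cfc g Q) ^ 2 =
      ∑ i, ∑ j, (f (hP.eigenvalues i) - g (hQ.eigenvalues j)) ^ 2 * ‖wm hP hQ i j‖ ^ 2 := by
  have h1 : (hP.eigenvectorUnitary : Mt n)ᴴ * (cfc f P - cfc g Q) *
      (hQ.eigenvectorUnitary : Mt n) =
      diagonal (fun i => ((f (hP.eigenvalues i) : ℝ) : ℂ)) * wm hP hQ -
        wm hP hQ * diagonal (fun i => ((g (hQ.eigenvalues i) : ℝ) : ℂ)) := by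
    rw [mul_sub, sub_mul, cfc_spec hP, cfc_spec hQ]
    congr 1
    · rw [wm]
      simp only [← mul_assoc]
      rw [uni_left, one_mul]
    · rw [wm]
      simp only [mul_assoc]
      rw [uni_left, mul_one]
  rw [← fn_unitary_left (U := (hP.eigenvectorUnitary : Mt n)ᴴ)
    (by rw [conjTranspose_conjTranspose, uni_right]) (cfc f P - cfc g Q),
    ← fn_unitary_right (uni_right hQ), h1, fn_sq]
  refine Finset.sum_congr rfl fun i _ => Finset.sum_congr rfl fun j _ => ?_
  rw [Matrix.sub_apply, diagonal_mul, mul_diagonal, mul_comm (wm hP hQ i j), ← sub_mul, norm_mul,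
    mul_pow, ← Complex.ofReal_sub, Complex.norm_real, Real.norm_eq_abs, sq_abs]

/-- The trace of the product of two functions of Hermitian matrices. -/
theorem trace_cfc_mul {P Q : Mt n} (hP : P.IsHermitian) (hQ : Q.IsHermitian) (f g : ℝ → ℝ) :
    (trace (cfc f P * cfc g Q)).re =
      ∑ i, ∑ j, f (hP.eigenvalues i) * g (hQ.eigenvalues j) * ‖wm hP hQ i j‖ ^ 2 := by
  have h1 : trace (cfc f P * cfc g Q) =
      trace (diagonal (fun i => ((f (hP.eigenvalues i) : ℝ) : ℂ)) * wm hP hQ *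
        (diagonal (fun i => ((g (hQ.eigenvalues i) : ℝ) : ℂ)) * (wm hP hQ)ᴴ)) := by
    rw [cfc_spec hP, cfc_spec hQ, wm, conjTranspose_mul, conjTranspose_conjTranspose]
    simp only [mul_assoc]
    rw [trace_mul_comm (hP.eigenvectorUnitary : Mt n)]
    simp only [mul_assoc]
  rw [h1, trace, Complex.re_sum]
  refine Finset.sum_congr rfl fun i _ => ?_
  rw [diag_apply, mul_apply, Complex.re_sum]
  refine Finset.sum_congr rfl fun j _ => ?_
  rw [diagonal_mul, diagonal_mul, conjTranspose_apply, Complex.star_def]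
  have h2 : ((f (hP.eigenvalues i) : ℝ) : ℂ) * wm hP hQ i j *
      (((g (hQ.eigenvalues j) : ℝ) : ℂ) * (starRingEnd ℂ) (wm hP hQ i j)) =
      ((f (hP.eigenvalues i) * g (hQ.eigenvalues j) * ‖wm hP hQ i j‖ ^ 2 : ℝ) : ℂ) := by
    have h3 := Complex.mul_conj (wm hP hQ i j)
    rw [Complex.normSq_eq_norm_sq] at h3
    push_cast at h3 ⊢
    rw [← h3]
    ring
  rw [h2, Complex.ofReal_re]

theorem id_cfc {P : Mt n} (hP : P.IsHermitian) : cfc (fun x : ℝ => x) P = P :=
  cfc_id' ℝ P hP.isSelfAdjoint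

theorem inv_cfc {P : Mt n} (hP : P.PosDef) : P⁻¹ = cfc (fun x : ℝ => x⁻¹) P := by
  refine Matrix.inv_eq_right_inv ?_
  have h1 : P * cfc (fun x : ℝ => x⁻¹) P = cfc (fun x : ℝ => x) P * cfc (fun x : ℝ => x⁻¹) P := by
    rw [id_cfc hP.isHermitian]
  rw [h1, ← cfc_mul _ _ P (cont _ _) (cont _ _), cfc_spec hP.isHermitian]
  have h2 : (fun i => (((fun x : ℝ => x * x⁻¹) (hP.isHermitian.eigenvalues i) : ℝ) : ℂ)) =
      fun _ => 1 := by
    funext i
    have h3 := hP.eigenvalues_pos i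
    change ((hP.isHermitian.eigenvalues i * (hP.isHermitian.eigenvalues i)⁻¹ : ℝ) : ℂ) = 1
    rw [mul_inv_cancel₀ h3.ne', Complex.ofReal_one]
  rw [h2, diagonal_one, mul_one, uni_right]

/-- The logarithm. -/
def lg (P : Mt n) : Mt n := cfc Real.log P

/-- The local inequality. -/
theorem local_ineq {P Q : Mt n} (hP : P.PosDef) (hQ : Q.PosDef) :
    fn (lg P - lg Q) ^ 2 ≤ (trace (P⁻¹ * Q)).re + (trace (Q⁻¹ * P)).re - 2 * n := by
  have hp := fun i => hP.eigenvalues_pos i
  have hq := fun j => hQ.eigenvalues_pos j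
  have h1 : (trace (P⁻¹ * Q)).re = ∑ i, ∑ j,
      (hP.isHermitian.eigenvalues i)⁻¹ * hQ.isHermitian.eigenvalues j *
        ‖wm hP.isHermitian hQ.isHermitian i j‖ ^ 2 := by
    have h0 := trace_cfc_mul hP.isHermitian hQ.isHermitian (fun x => x⁻¹) fun x => x
    rw [id_cfc hQ.isHermitian, ← inv_cfc hP] at h0
    exact h0
  have h2 : (trace (Q⁻¹ * P)).re = ∑ i, ∑ j,
      hP.isHermitian.eigenvalues i * (hQ.isHermitian.eigenvalues j)⁻¹ *
        ‖wm hP.isHermitian hQ.isHermitian i j‖ ^ 2 := by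
    have h0 := trace_cfc_mul hP.isHermitian hQ.isHermitian (fun x => x) fun x => x⁻¹
    rw [id_cfc hP.isHermitian, ← inv_cfc hQ, trace_mul_comm] at h0
    exact h0
  have h3 : (2 : ℝ) * n = ∑ i, ∑ j, 2 * ‖wm hP.isHermitian hQ.isHermitian i j‖ ^ 2 := by
    simp only [← Finset.mul_sum, wm_row]
    simp
  rw [lg, lg, fn_cfc_sub hP.isHermitian hQ.isHermitian, h1, h2, h3, ← Finset.sum_add_distrib,
    ← Finset.sum_sub_distrib]
  refine Finset.sum_le_sum fun i _ => ?_
  rw [← Finset.sum_add_distrib, ← Finset.sum_sub_distrib]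
  refine Finset.sum_le_sum fun j _ => ?_
  rw [← add_mul, ← sub_mul]
  refine mul_le_mul_of_nonneg_right ?_ (sq_nonneg _)
  set a := hP.isHermitian.eigenvalues i
  set b := hQ.isHermitian.eigenvalues j
  have ha : 0 < a := hp i
  have hb : 0 < b := hq j
  -- the scalar inequality
  set t := Real.log a - Real.log b with ht
  have h4 : a * b⁻¹ = Real.exp t := by
    rw [ht, Real.exp_sub, Real.exp_log ha, Real.exp_log hb]
    rfl
  have h5 : a⁻¹ * b = Real.exp (-t) := by
    rw [ht, neg_sub, Real.exp_sub, Real.exp_log ha, Real.exp_log hb, mul_comm]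
    rfl
  rw [h4, h5]
  have h6 : Real.exp (-t) + Real.exp t = 2 * Real.cosh t := by
    rw [Real.cosh_eq]
    ring
  rw [h6]
  have h7 : t ^ 2 / 2 + 1 ≤ Real.cosh t := by
    have h8 := Real.cosh_two_mul (t / 2)
    rw [Real.cosh_sq, mul_div_cancel₀ t two_ne_zero] at h8
    have h9 : (t / 2) ^ 2 ≤ Real.sinh (t / 2) ^ 2 := by
      rw [sq_le_sq]
      rcases le_total 0 (t / 2) with h | h
      · rw [abs_of_nonneg h, abs_of_nonneg (Real.sinh_nonneg_iff.2 h)]
        exact Real.self_le_sinh_iff.2 h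
      · rw [abs_of_nonpos h, abs_of_nonpos (Real.sinh_nonpos_iff.2 h)]
        have := Real.sinh_le_self_iff.2 h
        linarith
    nlinarith
  nlinarith

end Vale.Agent.P184.Pn
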