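import Vale.Agent.P184.R2.H270M.Pn1

set_option linter.all false

/-!
# The metric space of positive definite matrices
-/

noncomputable section

open Matrix Finset Filter Topology
open scoped ComplexOrder

namespace Vale.Agent.P184.Pn

variable {n : ℕ}

/-- The exponential of `t • W`. -/
def ex (W : Mt n) (t : ℝ) : Mt n := cfc (fun x => Real.exp (t * x)) W

theorem ex_herm (W : Mt n) (t : ℝ) : (ex W t).IsHermitian := herm_cfc _ _

theorem ex_mul (W : Mt n) (s t : ℝ) : ex W s * ex W t = ex W (s + t) := by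
  rw [ex, ex, ← cfc_mul _ _ W (cont _ _) (cont _ _), ex]
  congr 1
  funext x
  rw [add_mul, Real.exp_add]

theorem ex_zero {W : Mt n} (hW : W.IsHermitian) : ex W 0 = 1 := by
  have h1 : (fun x : ℝ => Real.exp (0 * x)) = fun _ => 1 := by
    funext x
    rw [zero_mul, Real.exp_zero]
  rw [ex, h1]
  exact cfc_const_one ℝ W hW.isSelfAdjoint

/-- The exponential as an invertible matrix. -/
def exu {W : Mt n} (hW : W.IsHermitian) (t : ℝ) : (Mt n)ˣ where
  val := ex W t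
  inv := ex W (-t)
  val_inv := by rw [ex_mul, add_neg_cancel, ex_zero hW]
  inv_val := by rw [ex_mul, neg_add_cancel, ex_zero hW]

theorem cong_posDef (g : (Mt n)ˣ) {P : Mt n} (hP : P.PosDef) :
    ((g : Mt n) * P * (g : Mt n)ᴴ).PosDef :=
  (Matrix.IsUnit.posDef_star_right_conjugate_iff g.isUnit).2 hP

theorem ex_posDef {W : Mt n} (hW : W.IsHermitian) (t : ℝ) : (ex W t).PosDef := by
  have h1 := cong_posDef (exu hW (t / 2)) (Matrix.PosDef.one (n := Fin n) (R := ℂ))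
  have h2 : ((exu hW (t / 2) : (Mt n)ˣ) : Mt n) = ex W (t / 2) := rfl
  rw [h2, mul_one, (ex_herm W _).eq, ex_mul, add_halves] at h1
  exact h1

theorem lg_herm (P : Mt n) : (lg P).IsHermitian := herm_cfc _ _

theorem cfc_cfc {W : Mt n} (hW : W.IsHermitian) (f g : ℝ → ℝ) :
    cfc g (cfc f W) = cfc (fun x => g (f x)) W := by
  refine (cfc_comp' g f W ?_ (cont _ _) hW.isSelfAdjoint).symm
  exact ((W.finite_real_spectrum).image f).continuousOn g

theorem smul_cfc {W : Mt n} (hW : W.IsHermitian) (c : ℝ) : cfc (fun x : ℝ => c * x) W = c • W :=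
  cfc_const_mul_id c W hW.isSelfAdjoint

theorem lg_ex {W : Mt n} (hW : W.IsHermitian) (t : ℝ) : lg (ex W t) = t • W := by
  rw [lg, ex, cfc_cfc hW, ← smul_cfc hW]
  congr 1
  funext x
  exact Real.log_exp _

theorem ex_smul {W : Mt n} (hW : W.IsHermitian) (c t : ℝ) : ex (c • W) t = ex W (t * c) := by
  rw [ex, ← smul_cfc hW, cfc_cfc hW, ex]
  congr 1
  funext x
  rw [mul_assoc]

theorem cfc_congr_eig {W : Mt n} (hW : W.IsHermitian) {f g : ℝ → ℝ}
    (h : ∀ i, f (hW.eigenvalues i) = g (hW.eigenvalues i)) : cfc f W = cfc g W := by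
  rw [cfc_spec hW, cfc_spec hW]
  simp only [h]

theorem ex_lg {P : Mt n} (hP : P.PosDef) : ex (lg P) 1 = P := by
  rw [ex, lg, cfc_cfc hP.isHermitian]
  conv_rhs => rw [← id_cfc hP.isHermitian]
  refine cfc_congr_eig hP.isHermitian fun i => ?_
  rw [one_mul, Real.exp_log (hP.eigenvalues_pos i)]

theorem trace_cfc {W : Mt n} (hW : W.IsHermitian) (f : ℝ → ℝ) :
    (trace (cfc f W)).re = ∑ i, f (hW.eigenvalues i) := by
  rw [cfc_spec hW, trace_mul_comm, ← mul_assoc, uni_left, one_mul, trace, Complex.re_sum]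
  refine Finset.sum_congr rfl fun i _ => ?_
  rw [diag_apply, diagonal_apply_eq, Complex.ofReal_re]

theorem fn_cfc {W : Mt n} (hW : W.IsHermitian) (f : ℝ → ℝ) :
    fn (cfc f W) ^ 2 = ∑ i, f (hW.eigenvalues i) ^ 2 := by
  rw [fn_sq_trace, (herm_cfc W f).eq, ← cfc_mul _ _ W (cont _ _) (cont _ _), trace_cfc hW]
  simp only [sq]

theorem fn_eig {W : Mt n} (hW : W.IsHermitian) : fn W ^ 2 = ∑ i, hW.eigenvalues i ^ 2 := by
  have h1 := fn_cfc hW fun x => x
  rw [id_cfc hW] at h1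
  exact h1

theorem conj_inv (g : (Mt n)ˣ) : (g : Mt n)ᴴ * ((g⁻¹ : (Mt n)ˣ) : Mt n)ᴴ = 1 := by
  rw [← conjTranspose_mul, Units.inv_mul, conjTranspose_one]

theorem conj_inv' (g : (Mt n)ˣ) : ((g⁻¹ : (Mt n)ˣ) : Mt n)ᴴ * (g : Mt n)ᴴ = 1 := by
  rw [← conjTranspose_mul, Units.mul_inv, conjTranspose_one]

theorem trace_step {W : Mt n} (hW : W.IsHermitian) (g : (Mt n)ˣ) (s t : ℝ) :
    (trace (((g : Mt n) * ex W s * (g : Mt n)ᴴ)⁻¹ * ((g : Mt n) * ex W t * (g : Mt n)ᴴ))).re =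
      ∑ i, Real.exp ((t - s) * hW.eigenvalues i) := by
  have h1 : ((g : Mt n) * ex W s * (g : Mt n)ᴴ)⁻¹ =
      ((g⁻¹ : (Mt n)ˣ) : Mt n)ᴴ * ex W (-s) * ((g⁻¹ : (Mt n)ˣ) : Mt n) := by
    refine Matrix.inv_eq_right_inv ?_
    calc (g : Mt n) * ex W s * (g : Mt n)ᴴ * (((g⁻¹ : (Mt n)ˣ) : Mt n)ᴴ * ex W (-s) *
          ((g⁻¹ : (Mt n)ˣ) : Mt n))
        = (g : Mt n) * (ex W s * ((g : Mt n)ᴴ * ((g⁻¹ : (Mt n)ˣ) : Mt n)ᴴ) * ex W (-s)) *
          ((g⁻¹ : (Mt n)ˣ) : Mt n) := by simp only [mul_assoc]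
      _ = 1 := by
        rw [conj_inv, mul_one, ex_mul, add_neg_cancel, ex_zero hW, mul_one, Units.mul_inv]
  have h2 : ((g : Mt n) * ex W s * (g : Mt n)ᴴ)⁻¹ * ((g : Mt n) * ex W t * (g : Mt n)ᴴ) =
      ((g⁻¹ : (Mt n)ˣ) : Mt n)ᴴ * (ex W (t - s) * (g : Mt n)ᴴ) := by
    rw [h1]
    calc ((g⁻¹ : (Mt n)ˣ) : Mt n)ᴴ * ex W (-s) * ((g⁻¹ : (Mt n)ˣ) : Mt n) *
          ((g : Mt n) * ex W t * (g : Mt n)ᴴ)
        = ((g⁻¹ : (Mt n)ˣ) : Mt n)ᴴ * (ex W (-s) * (((g⁻¹ : (Mt n)ˣ) : Mt n) * (g : Mt n)) *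
          ex W t * (g : Mt n)ᴴ) := by simp only [mul_assoc]
      _ = _ := by
        rw [Units.inv_mul, mul_one, ex_mul, neg_add_eq_sub]
  rw [h2, trace_mul_comm, mul_assoc, conj_inv, mul_one, ex, trace_cfc hW]

theorem step_le {W : Mt n} (hW : W.IsHermitian) (g : (Mt n)ˣ) (s t : ℝ) :
    fn (lg ((g : Mt n) * ex W s * (g : Mt n)ᴴ) - lg ((g : Mt n) * ex W t * (g : Mt n)ᴴ)) ^ 2 ≤
      ∑ i, ((t - s) * hW.eigenvalues i) ^ 2 * Real.exp (((t - s) * hW.eigenvalues i) ^ 2 / 2) := by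
  refine (local_ineq (cong_posDef g (ex_posDef hW s)) (cong_posDef g (ex_posDef hW t))).trans ?_
  rw [trace_step hW, trace_step hW]
  have h1 : (2 : ℝ) * n = ∑ _i : Fin n, 2 := by simp [mul_comm]
  rw [h1, ← Finset.sum_add_distrib, ← Finset.sum_sub_distrib]
  refine Finset.sum_le_sum fun i _ => ?_
  set y := (t - s) * hW.eigenvalues i
  have h2 : (s - t) * hW.eigenvalues i = -y := by
    simp only [y]
    ring
  rw [h2]
  have h3 : Real.exp y + Real.exp (-y) = 2 * Real.cosh y := by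
    rw [Real.cosh_eq]
    ring
  rw [h3]
  have h4 := Real.cosh_le_exp_half_sq y
  have h5 := Real.add_one_le_exp (-(y ^ 2 / 2))
  have h6 : Real.exp (y ^ 2 / 2) - 1 ≤ y ^ 2 / 2 * Real.exp (y ^ 2 / 2) := by
    have h7 : Real.exp (-(y ^ 2 / 2)) * Real.exp (y ^ 2 / 2) = 1 := by
      rw [← Real.exp_add, neg_add_cancel, Real.exp_zero]
    have h8 := mul_le_mul_of_nonneg_right h5 (Real.exp_pos (y ^ 2 / 2)).le
    rw [h7] at h8
    linarith
  linarith

/-- The exponential metric increasing property. -/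
theorem emi {W : Mt n} (hW : W.IsHermitian) (g : (Mt n)ˣ) :
    fn (lg ((g : Mt n) * (g : Mt n)ᴴ) - lg ((g : Mt n) * ex W 1 * (g : Mt n)ᴴ)) ≤ fn W := by
  set A := fn (lg ((g : Mt n) * (g : Mt n)ᴴ) - lg ((g : Mt n) * ex W 1 * (g : Mt n)ᴴ)) with hA
  have hA0 : 0 ≤ A := fn_nonneg _
  have key : ∀ N : ℕ, A ^ 2 ≤ ∑ i, hW.eigenvalues i ^ 2 *
      Real.exp ((1 / ((N : ℝ) + 1)) ^ 2 * (hW.eigenvalues i ^ 2 / 2)) := by
    intro N
    set m : ℝ := (N : ℝ) + 1 with hm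
    have hmpos : 0 < m := by positivity
    set F : ℕ → Mt n := fun j => lg ((g : Mt n) * ex W (j / m) * (g : Mt n)ᴴ) with hF
    set c := ∑ i, hW.eigenvalues i ^ 2 *
      Real.exp ((1 / m) ^ 2 * (hW.eigenvalues i ^ 2 / 2)) with hc
    have hc0 : 0 ≤ c := Finset.sum_nonneg fun i _ => by positivity
    have h1 : ∀ j, fn (F j - F (j + 1)) ≤ √c / m := by
      intro j
      refine (pow_le_pow_iff_left₀ (fn_nonneg _) (by positivity) two_ne_zero).1 ?_
      refine (step_le hW g _ _).trans (le_of_eq ?_)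
      rw [div_pow, Real.sq_sqrt hc0, hc, Finset.sum_div]
      refine Finset.sum_congr rfl fun i _ => ?_
      have h2 : (((j + 1 : ℕ) : ℝ) / m - (j : ℝ) / m) = 1 / m := by
        push_cast
        ring
      rw [h2]
      have h3 : (1 / m * hW.eigenvalues i) ^ 2 / 2 =
          (1 / m) ^ 2 * (hW.eigenvalues i ^ 2 / 2) := by ring
      rw [h3]
      ring_nf
    have h2 : ∀ j : ℕ, fn (F 0 - F j) ≤ j * (√c / m) := by
      intro j
      induction j with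
      | zero =>
        rw [sub_self]
        have : fn (0 : Mt n) = 0 := by
          have := fn_smul 0 (0 : Mt n)
          simpa using this
        rw [this]
        simp
      | succ j ih =>
        have h3 := fn_add (F 0 - F j) (F j - F (j + 1))
        rw [sub_add_sub_cancel] at h3
        push_cast
        linarith [h1 j]
    have h3 := h2 (N + 1)
    have h4 : F 0 = lg ((g : Mt n) * (g : Mt n)ᴴ) := by
      simp only [hF, Nat.cast_zero, zero_div, ex_zero hW, mul_one]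
    have h5 : F (N + 1) = lg ((g : Mt n) * ex W 1 * (g : Mt n)ᴴ) := by
      have : (((N + 1 : ℕ) : ℝ) / m) = 1 := by
        push_cast
        exact div_self hmpos.ne'
      simp only [hF, this]
    rw [h4, h5] at h3
    have h6 : (((N + 1 : ℕ) : ℝ)) * (√c / m) = √c := by
      push_cast
      rw [← hm]
      field_simp
    rw [h6] at h3
    have h7 := pow_le_pow_left₀ hA0 h3 2
    rwa [Real.sq_sqrt hc0] at h7
  have hlim : Tendsto (fun N : ℕ => ∑ i, hW.eigenvalues i ^ 2 *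
      Real.exp ((1 / ((N : ℝ) + 1)) ^ 2 * (hW.eigenvalues i ^ 2 / 2))) atTop
      (𝓝 (∑ i, hW.eigenvalues i ^ 2)) := by
    refine tendsto_finsetSum _ fun i _ => ?_
    have h1 : Tendsto (fun N : ℕ => Real.exp ((1 / ((N : ℝ) + 1)) ^ 2 *
        (hW.eigenvalues i ^ 2 / 2))) atTop (𝓝 (Real.exp (0 ^ 2 * (hW.eigenvalues i ^ 2 / 2)))) :=
      (Real.continuous_exp.tendsto _).comp
        ((tendsto_one_div_add_atTop_nhds_zero_nat.pow 2).mul_const _)
    rw [zero_pow two_ne_zero, zero_mul, Real.exp_zero] at h1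
    simpa using h1.const_mul (hW.eigenvalues i ^ 2)
  have h1 := ge_of_tendsto' hlim key
  rw [← fn_eig hW] at h1
  exact (pow_le_pow_iff_left₀ hA0 (fn_nonneg _) two_ne_zero).1 h1

/-! ### The distance -/

/-- The inverse of the square root of `P`. -/
def ri (P : Mt n) : Mt n := ex (lg P) (-(1 / 2))

/-- The distance. -/
def dl (P Q : Mt n) : ℝ := fn (lg (ri P * Q * ri P))

theorem dl_nonneg (P Q : Mt n) : 0 ≤ dl P Q := fn_nonneg _

theorem lg_conj {u X : Mt n} (hu : u * uᴴ = 1) (hX : X.IsHermitian) :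
    lg (u * X * uᴴ) = u * lg X * uᴴ := by
  have hu' : uᴴ * u = 1 := mul_eq_one_comm.1 hu
  let U : unitary (Mt n) := ⟨u, Unitary.mem_iff.2 ⟨hu', hu⟩⟩
  have h1 : ∀ Y : Mt n, Unitary.conjStarAlgAut ℂ (Mt n) U Y = u * Y * uᴴ := fun Y => rfl
  have hc : Continuous (Unitary.conjStarAlgAut ℂ (Mt n) U) := by
    have : (Unitary.conjStarAlgAut ℂ (Mt n) U : Mt n → Mt n) = fun Y => u * Y * uᴴ := funext h1
    rw [this]
    fun_prop
  have h2 := StarAlgHomClass.map_cfc (S := ℂ) (Unitary.conjStarAlgAut ℂ (Mt n) U) Real.log X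
    (cont _ _) hc hX.isSelfAdjoint (by
      rw [h1]
      change (u * X * uᴴ)ᴴ = u * X * uᴴ
      rw [conjTranspose_mul, conjTranspose_mul, conjTranspose_conjTranspose, hX.eq, mul_assoc])
  rw [h1, h1] at h2
  exact h2.symm

theorem dl_eq (g : (Mt n)ˣ) {W : Mt n} (hW : W.IsHermitian) :
    dl ((g : Mt n) * (g : Mt n)ᴴ) ((g : Mt n) * ex W 1 * (g : Mt n)ᴴ) = fn W := by
  set P := (g : Mt n) * (g : Mt n)ᴴ with hP
  have hPd : P.PosDef := by
    have := cong_posDef g (Matrix.PosDef.one (n := Fin n) (R := ℂ))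
    rwa [mul_one] at this
  have hri : (ri P)ᴴ = ri P := (ex_herm _ _).eq
  set u := ri P * (g : Mt n) with hu
  have huu : u * uᴴ = 1 := by
    rw [hu, conjTranspose_mul, hri]
    have h1 : ri P * (g : Mt n) * ((g : Mt n)ᴴ * ri P) = ri P * P * ri P := by
      rw [hP]
      simp only [mul_assoc]
    rw [h1]
    nth_rw 2 [← ex_lg hPd]
    rw [ri, ex_mul, ex_mul]
    norm_num
    exact ex_zero (lg_herm _)
  have hu' : uᴴ * u = 1 := mul_eq_one_comm.1 huu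
  have h1 : ri P * ((g : Mt n) * ex W 1 * (g : Mt n)ᴴ) * ri P = u * ex W 1 * uᴴ := by
    rw [hu, conjTranspose_mul, hri]
    simp only [mul_assoc]
  rw [dl, h1, lg_conj huu (ex_herm _ _), lg_ex hW, one_smul, fn_unitary_right (by
    rw [conjTranspose_conjTranspose, hu']), fn_unitary_left hu']

/-- Pairs of positive definite matrices. -/
theorem exists_pair {P Q : Mt n} (hP : P.PosDef) (hQ : Q.PosDef) (t : ℝ) :
    ∃ (g : (Mt n)ˣ) (W : Mt n), W.IsHermitian ∧ P = (g : Mt n) * ex W (-t) * (g : Mt n)ᴴ ∧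
      Q = (g : Mt n) * ex W (1 - t) * (g : Mt n)ᴴ := by
  have h0 := lg_herm P
  let r : (Mt n)ˣ := exu h0 (1 / 2)
  have hr : (r : Mt n) = ex (lg P) (1 / 2) := rfl
  have hrr : (r : Mt n) * (r : Mt n) = P := by
    rw [hr, ex_mul, add_halves, ex_lg hP]
  have hX : (ri P * Q * ri P).PosDef := by
    have := cong_posDef r⁻¹ hQ
    have h1 : ((r⁻¹ : (Mt n)ˣ) : Mt n) = ri P := rfl
    rw [h1] at this
    rwa [show (ri P)ᴴ = ri P from (ex_herm _ _).eq] at this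
  set W := lg (ri P * Q * ri P) with hW
  have hWh : W.IsHermitian := lg_herm _
  refine ⟨r * exu hWh (t / 2), W, hWh, ?_, ?_⟩
  · rw [Units.val_mul, conjTranspose_mul, show ((exu hWh (t / 2) : (Mt n)ˣ) : Mt n) =
      ex W (t / 2) from rfl, (ex_herm W _).eq, hr, (ex_herm (lg P) _).eq, ← hr]
    calc P = (r : Mt n) * (r : Mt n) := hrr.symm
      _ = (r : Mt n) * (ex W (t / 2) * ex W (-t) * ex W (t / 2)) * (r : Mt n) := by
        rw [ex_mul, ex_mul, show t / 2 + -t + t / 2 = 0 by ring, ex_zero hWh, mul_one]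
      _ = _ := by simp only [mul_assoc]
  · rw [Units.val_mul, conjTranspose_mul, show ((exu hWh (t / 2) : (Mt n)ˣ) : Mt n) =
      ex W (t / 2) from rfl, (ex_herm W _).eq, hr, (ex_herm (lg P) _).eq, ← hr]
    have h2 : ex W 1 = ri P * Q * ri P := ex_lg hX
    have h3 : (r : Mt n) * ri P = 1 := r.mul_inv
    have h4 : ri P * (r : Mt n) = 1 := r.inv_mul
    calc Q = ((r : Mt n) * ri P) * Q * (ri P * (r : Mt n)) := by rw [h3, h4, one_mul, mul_one]
      _ = (r : Mt n) * (ri P * Q * ri P) * (r : Mt n) := by simp only [mul_assoc]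
      _ = (r : Mt n) * (ex W (t / 2) * ex W (1 - t) * ex W (t / 2)) * (r : Mt n) := by
        rw [ex_mul, ex_mul, show t / 2 + (1 - t) + t / 2 = 1 by ring, h2]
      _ = _ := by simp only [mul_assoc]

theorem dl_ex (h : (Mt n)ˣ) {W : Mt n} (hW : W.IsHermitian) (s t : ℝ) :
    dl ((h : Mt n) * ex W s * (h : Mt n)ᴴ) ((h : Mt n) * ex W t * (h : Mt n)ᴴ) =
      |t - s| * fn W := by
  have hW' : ((t - s) • W).IsHermitian := by
    rw [← smul_cfc hW]
    exact herm_cfc _ _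
  have h1 := dl_eq (h * exu hW (s / 2)) hW'
  rw [ex_smul hW, one_mul, fn_smul, Units.val_mul, conjTranspose_mul,
    show ((exu hW (s / 2) : (Mt n)ˣ) : Mt n) = ex W (s / 2) from rfl, (ex_herm W _).eq] at h1
  rw [← h1]
  congr 1
  · calc (h : Mt n) * ex W s * (h : Mt n)ᴴ
        = (h : Mt n) * (ex W (s / 2) * ex W (s / 2)) * (h : Mt n)ᴴ := by
          rw [ex_mul, add_halves]
      _ = _ := by simp only [mul_assoc]
  · calc (h : Mt n) * ex W t * (h : Mt n)ᴴ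
        = (h : Mt n) * (ex W (s / 2) * ex W (t - s) * ex W (s / 2)) * (h : Mt n)ᴴ := by
          rw [ex_mul, ex_mul, show s / 2 + (t - s) + s / 2 = t by ring]
      _ = _ := by simp only [mul_assoc]

theorem dl_cong (g : (Mt n)ˣ) {P Q : Mt n} (hP : P.PosDef) (hQ : Q.PosDef) :
    dl ((g : Mt n) * P * (g : Mt n)ᴴ) ((g : Mt n) * Q * (g : Mt n)ᴴ) = dl P Q := by
  obtain ⟨h, W, hW, rfl, rfl⟩ := exists_pair hP hQ 0
  have h1 : ∀ s, (g : Mt n) * ((h : Mt n) * ex W s * (h : Mt n)ᴴ) * (g : Mt n)ᴴ =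
      ((g * h : (Mt n)ˣ) : Mt n) * ex W s * ((g * h : (Mt n)ˣ) : Mt n)ᴴ := by
    intro s
    rw [Units.val_mul, conjTranspose_mul]
    simp only [mul_assoc]
  rw [h1, h1, dl_ex _ hW, dl_ex _ hW]

theorem dl_comm {P Q : Mt n} (hP : P.PosDef) (hQ : Q.PosDef) : dl P Q = dl Q P := by
  obtain ⟨h, W, hW, rfl, rfl⟩ := exists_pair hP hQ 0
  rw [dl_ex _ hW, dl_ex _ hW, abs_sub_comm]

theorem dl_self {P : Mt n} (hP : P.PosDef) : dl P P = 0 := by
  obtain ⟨h, W, hW, h1, -⟩ := exists_pair hP hP 0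
  rw [h1, dl_ex _ hW, sub_self, abs_zero, zero_mul]

theorem eq_of_dl {P Q : Mt n} (hP : P.PosDef) (hQ : Q.PosDef) (h0 : dl P Q = 0) : P = Q := by
  obtain ⟨h, W, hW, rfl, rfl⟩ := exists_pair hP hQ 0
  rw [dl_ex _ hW] at h0
  norm_num at h0
  have h1 : W = 0 := fn_eq_zero h0
  have h2 : ∀ s, ex W s = 1 := by
    intro s
    have h3 : (0 : ℝ) • W = W := by rw [h1, smul_zero]
    rw [← h3, ex_smul hW, mul_zero, ex_zero hW]
  rw [h2, h2]

/-- The exponential metric increasing property. -/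
theorem emi' {P Q : Mt n} (hP : P.PosDef) (hQ : Q.PosDef) : fn (lg P - lg Q) ≤ dl P Q := by
  obtain ⟨h, W, hW, rfl, rfl⟩ := exists_pair hP hQ 0
  rw [dl_ex _ hW]
  have h1 := emi hW h
  norm_num
  rw [ex_zero hW, mul_one]
  exact h1

/-- The weighted inequality of Bruhat and Tits. -/
theorem cn_weight {P Q : Mt n} (hP : P.PosDef) (hQ : Q.PosDef) {t : ℝ} (ht0 : 0 ≤ t)
    (ht1 : t ≤ 1) : ∃ M : Mt n, M.PosDef ∧ ∀ Z : Mt n, Z.PosDef →
      dl Z M ^ 2 ≤ (1 - t) * dl Z P ^ 2 + t * dl Z Q ^ 2 - t * (1 - t) * dl P Q ^ 2 := by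
  obtain ⟨h, W, hW, rfl, rfl⟩ := exists_pair hP hQ t
  have hone := Matrix.PosDef.one (n := Fin n) (R := ℂ)
  refine ⟨(h : Mt n) * 1 * (h : Mt n)ᴴ, cong_posDef h hone, fun Z hZ => ?_⟩
  -- a logarithm of `Z`
  obtain ⟨X, hX, rfl⟩ : ∃ X : Mt n, X.IsHermitian ∧ Z = (h : Mt n) * ex X 1 * (h : Mt n)ᴴ := by
    refine ⟨lg (((h⁻¹ : (Mt n)ˣ) : Mt n) * Z * ((h⁻¹ : (Mt n)ˣ) : Mt n)ᴴ), lg_herm _, ?_⟩
    rw [ex_lg (cong_posDef h⁻¹ hZ)]
    calc Z = ((h : Mt n) * ((h⁻¹ : (Mt n)ˣ) : Mt n)) * Z *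
          (((h⁻¹ : (Mt n)ˣ) : Mt n)ᴴ * (h : Mt n)ᴴ) := by
          rw [Units.mul_inv, conj_inv', one_mul, mul_one]
      _ = _ := by simp only [mul_assoc]
  have h1 : dl ((h : Mt n) * ex X 1 * (h : Mt n)ᴴ) ((h : Mt n) * 1 * (h : Mt n)ᴴ) = fn X := by
    rw [← ex_zero hX, dl_ex h hX]
    norm_num
  have h2 : ∀ s, fn (X - s • W) ≤
      dl ((h : Mt n) * ex X 1 * (h : Mt n)ᴴ) ((h : Mt n) * ex W s * (h : Mt n)ᴴ) := by
    intro s
    rw [dl_cong h (ex_posDef hX 1) (ex_posDef hW s)]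
    refine le_trans (le_of_eq ?_) (emi' (ex_posDef hX 1) (ex_posDef hW s))
    rw [lg_ex hX, lg_ex hW, one_smul]
  have h3 := h2 (-t)
  have h4 := h2 (1 - t)
  rw [neg_smul, sub_neg_eq_add] at h3
  have h5 := fn_convex X W t
  have h6 : dl ((h : Mt n) * ex W (-t) * (h : Mt n)ᴴ) ((h : Mt n) * ex W (1 - t) * (h : Mt n)ᴴ) =
      fn W := by
    rw [dl_ex h hW]
    norm_num
  rw [h1, h6, h5]
  have h7 := pow_le_pow_left₀ (fn_nonneg _) h3 2
  have h8 := pow_le_pow_left₀ (fn_nonneg _) h4 2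
  have h9 := mul_le_mul_of_nonneg_left h7 (sub_nonneg.2 ht1)
  have h10 := mul_le_mul_of_nonneg_left h8 ht0
  linarith

theorem tri_real {a b d : ℝ} (h : 0 < a) (h' : 0 < b) (hd : 0 ≤ d)
    (h1 : 0 ≤ (1 - a / (a + b)) * a ^ 2 + a / (a + b) * b ^ 2 -
      a / (a + b) * (1 - a / (a + b)) * d ^ 2) : d ≤ a + b := by
  have hab : 0 < a + b := by positivity
  have h2 : (1 - a / (a + b)) * a ^ 2 + a / (a + b) * b ^ 2 -
      a / (a + b) * (1 - a / (a + b)) * d ^ 2 = a * b * ((a + b) ^ 2 - d ^ 2) / (a + b) ^ 2 := by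
    field_simp
    ring
  rw [h2] at h1
  have h3 : 0 ≤ (a + b) ^ 2 - d ^ 2 := by
    by_contra hcon
    push Not at hcon
    have h4 : a * b * ((a + b) ^ 2 - d ^ 2) / (a + b) ^ 2 < 0 :=
      div_neg_of_neg_of_pos (mul_neg_of_pos_of_neg (by positivity) hcon) (by positivity)
    linarith
  refine (pow_le_pow_iff_left₀ hd hab.le two_ne_zero).1 ?_
  linarith

theorem dl_triangle {P Z Q : Mt n} (hP : P.PosDef) (hZ : Z.PosDef) (hQ : Q.PosDef) :
    dl P Q ≤ dl P Z + dl Z Q := by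
  rw [dl_comm hP hZ]
  have ha0 : 0 ≤ dl Z P := dl_nonneg _ _
  have hb0 : 0 ≤ dl Z Q := dl_nonneg _ _
  rcases ha0.eq_or_lt with h | h
  · have h1 : Z = P := eq_of_dl hZ hP h.symm
    rw [← h, zero_add, h1]
  rcases hb0.eq_or_lt with h' | h'
  · have h1 : Z = Q := eq_of_dl hZ hQ h'.symm
    rw [← h', add_zero, h1, dl_comm hP hQ]
  obtain ⟨M, -, hM⟩ := cn_weight hP hQ (t := dl Z P / (dl Z P + dl Z Q)) (by positivity)
    ((div_le_one (add_pos h h')).2 (le_add_of_nonneg_right hb0))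
  exact tri_real h h' (dl_nonneg _ _) ((sq_nonneg _).trans (hM Z hZ))

end Vale.Agent.P184.Pn
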