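import Vale.Agent.P184.R2.H270M.Pn2

set_option linter.all false

/-!
# The topology of the space of positive definite matrices, the action of the linear group
-/

noncomputable section

open Matrix Finset Filter Topology MeasureTheory
open scoped ComplexOrder

namespace Vale.Agent.P184.Pn

variable {n : ℕ}

/-- Positive definite matrices. -/
def PD (n : ℕ) : Type := {P : Mt n // P.PosDef}

instance : MetricSpace (PD n) where
  dist P Q := dl P.1 Q.1
  dist_self P := dl_self P.2
  dist_comm P Q := dl_comm P.2 Q.2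
  dist_triangle P Q R := dl_triangle P.2 Q.2 R.2
  eq_of_dist_eq_zero {P Q} h := Subtype.ext (eq_of_dl P.2 Q.2 h)

theorem dist_def (P Q : PD n) : dist P Q = dl P.1 Q.1 := rfl

instance : MulAction (Mt n)ˣ (PD n) where
  smul g P := ⟨(g : Mt n) * P.1 * (g : Mt n)ᴴ, cong_posDef g P.2⟩
  one_smul P := by
    refine Subtype.ext ?_
    change ((1 : (Mt n)ˣ) : Mt n) * P.1 * ((1 : (Mt n)ˣ) : Mt n)ᴴ = P.1
    rw [Units.val_one, conjTranspose_one, one_mul, mul_one]
  mul_smul g h P := by
    refine Subtype.ext ?_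
    change ((g * h : (Mt n)ˣ) : Mt n) * P.1 * ((g * h : (Mt n)ˣ) : Mt n)ᴴ =
      (g : Mt n) * ((h : Mt n) * P.1 * (h : Mt n)ᴴ) * (g : Mt n)ᴴ
    rw [Units.val_mul, conjTranspose_mul]
    simp only [mul_assoc]

theorem smul_val (g : (Mt n)ˣ) (P : PD n) : (g • P).1 = (g : Mt n) * P.1 * (g : Mt n)ᴴ := rfl

theorem pd_iso (g : (Mt n)ˣ) (P Q : PD n) : dist (g • P) (g • Q) = dist P Q :=
  dl_cong g P.2 Q.2

theorem pd_cn (P Q : PD n) : ∃ M : PD n, ∀ Z : PD n,
    dist Z M ^ 2 ≤ (dist Z P ^ 2 + dist Z Q ^ 2) / 2 - dist P Q ^ 2 / 4 := by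
  obtain ⟨M, hM, h⟩ := cn_weight P.2 Q.2 (t := 1 / 2) (by norm_num) (by norm_num)
  refine ⟨⟨M, hM⟩, fun Z => ?_⟩
  have h1 := h Z.1 Z.2
  change dl Z.1 M ^ 2 ≤ (dl Z.1 P.1 ^ 2 + dl Z.1 Q.1 ^ 2) / 2 - dl P.1 Q.1 ^ 2 / 4
  linarith

/-! ### The topology -/

theorem entry_le_fn (X : Mt n) (i j : Fin n) : ‖X i j‖ ≤ fn X := by
  refine (pow_le_pow_iff_left₀ (norm_nonneg _) (fn_nonneg _) two_ne_zero).1 ?_
  rw [fn_sq]
  refine le_trans ?_ (Finset.single_le_sum (f := fun i => ∑ j, ‖X i j‖ ^ 2)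
    (fun i _ => Finset.sum_nonneg fun j _ => sq_nonneg _) (Finset.mem_univ i))
  exact Finset.single_le_sum (f := fun j => ‖X i j‖ ^ 2) (fun j _ => sq_nonneg _)
    (Finset.mem_univ j)

theorem fn_continuous : Continuous (fn : Mt n → ℝ) := by
  have h1 : (fn : Mt n → ℝ) = fun X => √(∑ i, ∑ j, ‖X i j‖ ^ 2) := by
    funext X
    rw [← fn_sq, Real.sqrt_sq (fn_nonneg _)]
  rw [h1]
  refine Real.continuous_sqrt.comp ?_
  refine continuous_finset_sum _ fun i _ => continuous_finset_sum _ fun j _ => ?_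
  exact ((continuous_id.matrix_elem i j).norm).pow 2

theorem tendsto_of_fn {ι : Type*} {l : Filter ι} {X : ι → Mt n} {Y : Mt n}
    (h : Tendsto (fun a => fn (X a - Y)) l (𝓝 0)) : Tendsto X l (𝓝 Y) := by
  refine tendsto_pi_nhds.2 fun i => tendsto_pi_nhds.2 fun j => ?_
  rw [tendsto_iff_norm_sub_tendsto_zero]
  refine squeeze_zero (fun _ => norm_nonneg _) (fun a => ?_) h
  exact entry_le_fn (X a - Y) i j

theorem eig_le_fn {W : Mt n} (hW : W.IsHermitian) (i : Fin n) : |hW.eigenvalues i| ≤ fn W := by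
  refine (pow_le_pow_iff_left₀ (abs_nonneg _) (fn_nonneg _) two_ne_zero).1 ?_
  rw [sq_abs, fn_eig hW]
  exact Finset.single_le_sum (f := fun i => hW.eigenvalues i ^ 2) (fun j _ => sq_nonneg _)
    (Finset.mem_univ i)

/-- Continuity of the exponential at the origin. -/
theorem fn_ex_sub_one {W : Mt n} (hW : W.IsHermitian) :
    fn (ex W 1 - 1) ≤ fn W * Real.exp (fn W) := by
  have h1 : ex W 1 - 1 = cfc (fun x => Real.exp x - 1) W := by
    have h2 : (1 : Mt n) = cfc (fun _ : ℝ => (1 : ℝ)) W := (cfc_const_one ℝ W hW.isSelfAdjoint).symm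
    rw [h2, ex, ← cfc_sub _ _ W (cont _ _) (cont _ _)]
    congr 1
    funext x
    rw [one_mul]
  refine (pow_le_pow_iff_left₀ (fn_nonneg _) (mul_nonneg (fn_nonneg _) (Real.exp_pos _).le)
    two_ne_zero).1 ?_
  rw [h1, fn_cfc hW, mul_pow, fn_eig hW, Finset.sum_mul]
  refine Finset.sum_le_sum fun i _ => ?_
  rw [← mul_pow, sq_le_sq, abs_mul, abs_of_pos (Real.exp_pos (fn W))]
  have h2 := eig_le_fn hW i
  have h3 : |Real.exp (hW.eigenvalues i) - 1| ≤ |hW.eigenvalues i| *
      Real.exp |hW.eigenvalues i| := by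
    set y := hW.eigenvalues i
    have h4 := Real.add_one_le_exp y
    have h5 := Real.add_one_le_exp (-y)
    have h6 : Real.exp (-y) * Real.exp y = 1 := by rw [← Real.exp_add, neg_add_cancel, Real.exp_zero]
    have h7 := mul_le_mul_of_nonneg_right h5 (Real.exp_pos y).le
    rw [h6] at h7
    rcases le_total 0 y with h | h
    · rw [abs_of_nonneg h, abs_of_nonneg (by linarith)]
      linarith
    · rw [abs_of_nonpos h, abs_of_nonpos (by linarith [Real.exp_le_one_iff.2 h])]
      have h8 : 1 ≤ Real.exp (-y) := Real.one_le_exp_iff.2 (by linarith)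
      nlinarith
  exact h3.trans (mul_le_mul_of_nonneg_left (Real.exp_le_exp.2 h2) (abs_nonneg _))

/-- Continuity of the logarithm at one. -/
theorem fn_lg_le {N : Mt n} (hN : N.PosDef) (h : fn (N - 1) ≤ 1 / 2) :
    fn (lg N) ≤ 2 * fn (N - 1) := by
  have hH := hN.isHermitian
  have h1 : N - 1 = cfc (fun x : ℝ => x - 1) N := by
    rw [cfc_sub _ _ N (cont _ _) (cont _ _), id_cfc hH,
      cfc_const_one ℝ N hH.isSelfAdjoint]
  have h2 : fn (N - 1) ^ 2 = ∑ i, (hH.eigenvalues i - 1) ^ 2 := by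
    rw [h1, fn_cfc hH]
  refine (pow_le_pow_iff_left₀ (fn_nonneg _) (by have := fn_nonneg (N - 1); positivity)
    two_ne_zero).1 ?_
  rw [lg, fn_cfc hH, mul_pow, h2, Finset.mul_sum]
  refine Finset.sum_le_sum fun i _ => ?_
  have h3 : |hH.eigenvalues i - 1| ≤ 1 / 2 := by
    refine le_trans ?_ h
    refine (pow_le_pow_iff_left₀ (abs_nonneg _) (fn_nonneg _) two_ne_zero).1 ?_
    rw [sq_abs, h2]
    exact Finset.single_le_sum (f := fun i => (hH.eigenvalues i - 1) ^ 2)
      (fun j _ => sq_nonneg _) (Finset.mem_univ i)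
  rw [← mul_pow, sq_le_sq, abs_mul, abs_two]
  set y := hH.eigenvalues i
  obtain ⟨h4, h5⟩ := abs_le.1 h3
  have hy : 0 < y := by linarith
  rcases le_total 1 y with h6 | h6
  · rw [abs_of_nonneg (Real.log_nonneg h6), abs_of_nonneg (by linarith)]
    have := Real.log_le_sub_one_of_pos hy
    linarith
  · rw [abs_of_nonpos (Real.log_nonpos hy.le h6), abs_of_nonpos (by linarith), ← Real.log_inv]
    have h7 := Real.log_le_sub_one_of_pos (inv_pos.2 hy)
    have h8 : y⁻¹ - 1 ≤ 2 * (1 - y) := by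
      rw [inv_eq_one_div, div_sub_one hy.ne', div_le_iff₀ hy]
      nlinarith
    linarith

theorem ri_mul {P : Mt n} (hP : P.PosDef) : ri P * P * ri P = 1 := by
  nth_rw 2 [← ex_lg hP]
  rw [ri, ex_mul, ex_mul]
  norm_num
  exact ex_zero (lg_herm _)

/-- The metric topology is the usual one. -/
theorem pd_inducing : IsInducing (fun P : PD n => P.1) := by
  rw [isInducing_iff_nhds]
  intro P
  refine le_antisymm ?_ ?_
  · rw [← tendsto_iff_comap]
    -- the logarithms tend to zero
    have h1 : Tendsto (fun Q : PD n => ri P.1 * Q.1 * ri P.1) (𝓝 P) (𝓝 1) := by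
      refine tendsto_of_fn ?_
      have h2 : Tendsto (fun Q : PD n => dist P Q * Real.exp (dist P Q)) (𝓝 P) (𝓝 0) := by
        have h3 : Continuous fun Q : PD n => dist P Q * Real.exp (dist P Q) := by fun_prop
        have h4 := h3.tendsto P
        rwa [dist_self, zero_mul] at h4
      refine squeeze_zero (fun _ => fn_nonneg _) (fun Q => ?_) h2
      have hX : (ri P.1 * Q.1 * ri P.1).PosDef := by
        have h5 := cong_posDef (exu (lg_herm P.1) (-(1 / 2))) Q.2
        rwa [show ((exu (lg_herm P.1) (-(1 / 2)) : (Mt n)ˣ) : Mt n) = ri P.1 from rfl,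
          show (ri P.1)ᴴ = ri P.1 from (ex_herm _ _).eq] at h5
      have h5 := fn_ex_sub_one (lg_herm (ri P.1 * Q.1 * ri P.1))
      rw [ex_lg hX] at h5
      exact h5
    have h2 : Continuous fun X : Mt n => ex (lg P.1) (1 / 2) * X * ex (lg P.1) (1 / 2) := by
      fun_prop
    have h3 := (h2.tendsto 1).comp h1
    rw [mul_one, ex_mul, add_halves, ex_lg P.2] at h3
    refine h3.congr fun Q => ?_
    simp only [Function.comp_apply]
    have h4 : ex (lg P.1) (1 / 2) * ri P.1 = 1 := by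
      rw [ri, ex_mul, add_neg_cancel, ex_zero (lg_herm _)]
    have h5 : ri P.1 * ex (lg P.1) (1 / 2) = 1 := by
      rw [ri, ex_mul, neg_add_cancel, ex_zero (lg_herm _)]
    calc ex (lg P.1) (1 / 2) * (ri P.1 * Q.1 * ri P.1) * ex (lg P.1) (1 / 2)
        = (ex (lg P.1) (1 / 2) * ri P.1) * Q.1 * (ri P.1 * ex (lg P.1) (1 / 2)) := by
          simp only [mul_assoc]
      _ = Q.1 := by rw [h4, h5, one_mul, mul_one]
  · rw [Metric.nhds_basis_ball.ge_iff]
    intro ε hε
    have h1 : Continuous fun X : Mt n => fn (ri P.1 * X * ri P.1 - 1) := by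
      exact fn_continuous.comp (by fun_prop)
    have h2 : fn (ri P.1 * P.1 * ri P.1 - 1) = 0 := by
      rw [ri_mul P.2, sub_self]
      have := fn_smul 0 (0 : Mt n)
      simpa using this
    have h3 : ∀ᶠ X in 𝓝 P.1, fn (ri P.1 * X * ri P.1 - 1) < min (1 / 2) (ε / 2) := by
      refine (h1.tendsto P.1).eventually (gt_mem_nhds ?_)
      rw [h2]
      exact lt_min (by norm_num) (by linarith)
    refine ⟨_, h3, fun Q hQ => ?_⟩
    rw [Metric.mem_ball, dist_comm]
    have hX : (ri P.1 * Q.1 * ri P.1).PosDef := by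
      have h5 := cong_posDef (exu (lg_herm P.1) (-(1 / 2))) Q.2
      rwa [show ((exu (lg_herm P.1) (-(1 / 2)) : (Mt n)ˣ) : Mt n) = ri P.1 from rfl,
        show (ri P.1)ᴴ = ri P.1 from (ex_herm _ _).eq] at h5
    have hQ' : fn (ri P.1 * Q.1 * ri P.1 - 1) < min (1 / 2) (ε / 2) := hQ
    have h5 := fn_lg_le hX (hQ'.le.trans (min_le_left _ _))
    have h6 := hQ'.trans_le (min_le_right _ _)
    change fn (lg (ri P.1 * Q.1 * ri P.1)) < ε
    linarith

instance : SecondCountableTopology (PD n) :=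
  haveI : SecondCountableTopology (Mt n) :=
    inferInstanceAs (SecondCountableTopology (Fin n → Fin n → ℂ))
  pd_inducing.secondCountableTopology

instance : MeasurableSpace (PD n) := borel _

instance : BorelSpace (PD n) := ⟨rfl⟩

/-- The entries. -/
def ent (P : PD n) : Fin n → Fin n → ℂ := fun i j => P.1 i j

theorem ent_inducing : IsInducing (ent : PD n → Fin n → Fin n → ℂ) := pd_inducing

theorem pd_borel : borel (PD n) = MeasurableSpace.comap
    (ent : PD n → Fin n → Fin n → ℂ) (borel (Fin n → Fin n → ℂ)) :=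
  (congrArg (@borel (PD n)) ent_inducing.eq_induced).trans borel_comap

theorem pd_measurable {α : Type*} [MeasurableSpace α] {f : α → PD n}
    (h : ∀ i j, Measurable fun a => (f a).1 i j) : Measurable f := by
  have h0 : Measurable fun a => ent (f a) :=
    measurable_pi_iff.2 fun i => measurable_pi_iff.2 fun j => h i j
  intro s hs
  have h1 : MeasurableSet[borel (PD n)] s := hs
  rw [pd_borel] at h1
  obtain ⟨t, ht, rfl⟩ := h1
  rw [← BorelSpace.measurable_eq] at ht
  exact h0 ht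

theorem val_measurable (i j : Fin n) : Measurable fun P : PD n => P.1 i j :=
  (((continuous_apply j).comp (continuous_apply i)).comp pd_inducing.continuous).measurable

end Vale.Agent.P184.Pn
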