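import Vale.Agent.P184.R2.H270M.Tor

set_option linter.all false

/-!
# Homeomorphisms with several rotation vectors
-/

noncomputable section

open Finset Filter Topology MeasureTheory

namespace Vale.Agent.P184.Pn

universe u v w

section Abstract

variable {G : Type u} [Group G] {S : Type v} [MeasurableSpace S] [MulAction G S]

/-- Cocycles up to constants, and two measures invariant under the centralizer. -/
theorem rot_charged {σ : G → S → ℝ} {k : G → G → ℝ}
    (hσ : ∀ g h s, σ (g * h) s = σ g (h • s) + σ h s + k g h) (hm : ∀ g, Measurable (σ g))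
    (hb : ∀ g, ∃ C, ∀ s, |σ g s| ≤ C) (x : G) {μ ν : Measure S} [IsProbabilityMeasure μ]
    [IsProbabilityMeasure ν] (hμ : ∀ c, Commute c x → MeasurePreserving (fun s : S => c • s) μ μ)
    (hν : ∀ c, Commute c x → MeasurePreserving (fun s : S => c • s) ν ν)
    (hne : ∫ s, σ x s ∂μ ≠ ∫ s, σ x s ∂ν) : Charged x := by
  have hS : Nonempty S := by
    by_contra hcon
    rw [not_nonempty_iff] at hcon
    apply hne
    simp [Measure.eq_zero_of_isEmpty μ, Measure.eq_zero_of_isEmpty ν]
  have hint : ∀ g (τ : Measure S) [IsProbabilityMeasure τ], Integrable (σ g) τ := by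
    intro g τ _
    obtain ⟨C, hC⟩ := hb g
    exact Integrable.of_bound (hm g).aestronglyMeasurable C (ae_of_all _ fun s => hC s)
  have hbdd : ∀ g, BddAbove (Set.range fun p : S × S => σ g p.1 - σ g p.2) := by
    intro g
    obtain ⟨C, hC⟩ := hb g
    refine ⟨C + C, ?_⟩
    rintro _ ⟨p, rfl⟩
    have h1 := abs_le.1 (hC p.1)
    have h2 := abs_le.1 (hC p.2)
    simp only
    linarith [h1.2, h2.1]
  have hle : ∀ g s t, σ g s - σ g t ≤ ⨆ p : S × S, σ g p.1 - σ g p.2 :=
    fun g s t => le_ciSup (hbdd g) (s, t)
  have hcomp : ∀ (τ : Measure S) [IsProbabilityMeasure τ],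
      (∀ c, Commute c x → MeasurePreserving (fun s : S => c • s) τ τ) →
      ∀ g h, Commute h x → ∫ s, σ (g * h) s ∂τ = ∫ s, σ g s ∂τ + ∫ s, σ h s ∂τ + k g h := by
    intro τ _ hτ g h hh
    have h1 : ∫ s, σ g (h • s) ∂τ = ∫ s, σ g s ∂τ := by
      let e : S ≃ᵐ S :=
        { toFun := fun s => h • s
          invFun := fun s => h⁻¹ • s
          left_inv := inv_smul_smul h
          right_inv := smul_inv_smul h
          measurable_toFun := (hτ h hh).measurable
          measurable_invFun := (hτ h⁻¹ hh.inv_left).measurable }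
      exact (hτ h hh).integral_comp e.measurableEmbedding (σ g)
    have h2 : Integrable (fun s => σ g (h • s)) τ :=
      (hτ h hh).integrable_comp_of_integrable (hint g τ)
    simp only [hσ]
    have h3 : Integrable (fun s => σ g (h • s) + σ h s) τ := h2.add (hint h τ)
    rw [integral_add h3 (integrable_const _), integral_add h2 (hint h τ), h1, integral_const]
    simp
  refine ⟨fun g => ⨆ p : S × S, σ g p.1 - σ g p.2, fun g => ∫ s, σ g s ∂μ - ∫ s, σ g s ∂ν,
    fun g h => ?_, fun g h _ hh => ?_, fun g _ => ?_, sub_ne_zero.2 hne⟩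
  · refine ciSup_le fun p => ?_
    rw [hσ, hσ]
    linarith [hle g (h • p.1) (h • p.2), hle h p.1 p.2]
  · simp only [hcomp μ hμ g h hh, hcomp ν hν g h hh]
    ring
  · have h1 : ∀ t, ∫ s, σ g s ∂μ - σ g t ≤ ⨆ p : S × S, σ g p.1 - σ g p.2 := by
      intro t
      have h2 : ∫ s, (σ g s - σ g t) ∂μ ≤ ∫ s, (⨆ p : S × S, σ g p.1 - σ g p.2) ∂μ :=
        integral_mono ((hint g μ).sub (integrable_const _)) (integrable_const _)
          fun s => hle g s t
      rw [integral_sub (hint g μ) (integrable_const _), integral_const, integral_const] at h2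
      simpa using h2
    have h2 : ∫ t, (∫ s, σ g s ∂μ - σ g t) ∂ν ≤
        ∫ t, (⨆ p : S × S, σ g p.1 - σ g p.2) ∂ν :=
      integral_mono ((integrable_const _).sub (hint g ν)) (integrable_const _) fun t => h1 t
    rw [integral_sub (integrable_const _) (hint g ν), integral_const, integral_const] at h2
    simpa using h2

end Abstract

variable {d : ℕ} {G : Type u} [Group G] [MulAction G (To d)] {F : G → (Fin d → ℝ) → Fin d → ℝ}

/-- Homeomorphisms of the torus isotopic to the identity, with two rotation vectors. -/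
theorem torus_rot (h : TDat F) (hper : ∀ g t k, pr k = 0 → F g (t + k) = F g t + k) (x : G)
    {μ ν : Measure (To d)} [IsProbabilityMeasure μ] [IsProbabilityMeasure ν]
    (hμ : ∀ c, Commute c x → MeasurePreserving (fun s : To d => c • s) μ μ)
    (hν : ∀ c, Commute c x → MeasurePreserving (fun s : To d => c • s) ν ν) (i : Fin d)
    (hne : ∫ s, (F x (lift s) i - lift s i) ∂μ ≠ ∫ s, (F x (lift s) i - lift s i) ∂ν) :
    Charged x := by
  choose c hc using fun g k => h.comp g k
  have hinv : ∀ g {s t : Fin d → ℝ}, pr s = pr t → F g s - s = F g t - t := by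
    intro g s t hst
    have h1 := hper g t (s - t) (by rw [pr_sub, hst, sub_self])
    rw [add_sub_cancel] at h1
    rw [h1]
    abel
  refine rot_charged (σ := fun g s => F g (lift s) i - lift s i) (k := fun g k => c g k i)
    (fun g k s => ?_) (fun g => ?_) (fun g => ?_) x hμ hν hne
  · have h1 := hinv g (s := F k (lift s)) (t := lift (k • s)) (by rw [h.hF, pr_lift, pr_lift])
    have h2 := congrFun h1 i
    rw [Pi.sub_apply, Pi.sub_apply] at h2
    rw [hc g k (lift s), Pi.add_apply]
    linarith
  · have h1 : Continuous fun t => F g t i - t i :=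
      ((continuous_apply i).comp (h.hc g)).sub (continuous_apply i)
    exact h1.measurable.comp lift_measurable
  · have h1 : Continuous fun t => F g t i - t i :=
      ((continuous_apply i).comp (h.hc g)).sub (continuous_apply i)
    obtain ⟨C, hC⟩ := (isCompact_Icc (a := (0 : Fin d → ℝ)) (b := 1)).exists_bound_of_continuousOn
      h1.continuousOn
    exact ⟨C, fun s => hC (lift s) (lift_mem s)⟩

end Vale.Agent.P184.Pn
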