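import Vale.Agent.P184.R2.H270M.Lyap2
import Vale.Agent.P184.R2.H270M.Circ

set_option linter.all false

/-!
# Diffeomorphisms of the torus
-/

noncomputable section

open Matrix Finset Filter Topology MeasureTheory
open scoped ComplexOrder

namespace Vale.Agent.P184.Pn

universe u v w

variable {d : ℕ}

/-- The torus. -/
abbrev To (d : ℕ) := Fin d → AddCircle (1 : ℝ)

/-- The projection. -/
def pr (t : Fin d → ℝ) : To d := fun i => (t i : AddCircle (1 : ℝ))

/-- The representatives with coordinates in `[0, 1)`. -/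
def lift (s : To d) : Fin d → ℝ := fun i => (AddCircle.equivIco 1 0 (s i) : ℝ)

theorem pr_lift (s : To d) : pr (lift s) = s := funext fun i => AddCircle.coe_equivIco

theorem lift_mem (s : To d) : lift s ∈ Set.Icc (0 : Fin d → ℝ) 1 := by
  refine ⟨fun i => (AddCircle.equivIco (1 : ℝ) 0 (s i)).2.1, fun i => ?_⟩
  have := (AddCircle.equivIco (1 : ℝ) 0 (s i)).2.2
  simp only [zero_add] at this
  exact this.le

theorem lift_measurable : Measurable (lift : To d → Fin d → ℝ) := by
  refine measurable_pi_iff.2 fun i => ?_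
  exact measurable_subtype_coe.comp
    ((AddCircle.measurableEquivIco 1 0).measurable.comp (measurable_pi_apply i))

theorem pr_sub (s t : Fin d → ℝ) : pr (s - t) = pr s - pr t :=
  funext fun i => AddCircle.coe_sub _ _ _

theorem pr_add (s t : Fin d → ℝ) : pr (s + t) = pr s + pr t :=
  funext fun i => AddCircle.coe_add _ _ _

theorem const_of_pr {H : (Fin d → ℝ) → Fin d → ℝ} (hc : Continuous H)
    (h : ∀ t, pr (H t) = 0) (s t : Fin d → ℝ) : H s = H t := by
  funext i
  have h1 : Continuous fun r : ℝ => H (s + r • (t - s)) i :=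
    (continuous_apply i).comp (hc.comp (by fun_prop))
  have h2 := M.Circ.int_const h1 (fun r => by
    have h3 := congrFun (h (s + r • (t - s))) i
    have h4 := M.Circ.ex_int (s := H (s + r • (t - s)) i) (t := 0) (by
      rw [AddCircle.coe_zero]
      exact h3)
    simpa using h4) 0 1
  simpa using h2

variable {G : Type u} [Group G] [MulAction G (To d)]

/-- Lifts of the homeomorphisms of the torus. -/
structure TDat (F : G → (Fin d → ℝ) → Fin d → ℝ) : Prop where
  hF : ∀ g t, pr (F g t) = g • pr t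
  hc : ∀ g, Continuous (F g)

variable {F : G → (Fin d → ℝ) → Fin d → ℝ}

theorem TDat.shift (h : TDat F) (g : G) {k : Fin d → ℝ} (hk : pr k = 0) :
    ∃ c, ∀ t, F g (t + k) = F g t + c := by
  have h1 : Continuous fun t => F g (t + k) - F g t :=
    ((h.hc g).comp (continuous_id.add continuous_const)).sub (h.hc g)
  have h2 := const_of_pr h1 fun t => by rw [pr_sub, h.hF, h.hF, pr_add, hk, add_zero, sub_self]
  refine ⟨F g (0 + k) - F g 0, fun t => ?_⟩
  have h3 := h2 t 0
  rw [← h3]
  abel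

theorem TDat.comp (h : TDat F) (g k : G) : ∃ c, ∀ t, F (g * k) t = F g (F k t) + c := by
  have h1 : Continuous fun t => F (g * k) t - F g (F k t) :=
    (h.hc _).sub ((h.hc g).comp (h.hc k))
  have h2 := const_of_pr h1 fun t => by
    rw [pr_sub, h.hF, h.hF, h.hF, mul_smul, sub_self]
  refine ⟨F (g * k) 0 - F g (F k 0), fun t => ?_⟩
  have h3 := h2 t 0
  rw [← h3]
  abel

theorem TDat.one (h : TDat F) : ∃ c, ∀ t, F 1 t = t + c := by
  have h1 : Continuous fun t => F 1 t - t := (h.hc _).sub continuous_id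
  have h2 := const_of_pr h1 fun t => by
    rw [pr_sub, h.hF, one_smul, sub_self]
  refine ⟨F 1 0 - 0, fun t => ?_⟩
  have h3 := h2 t 0
  rw [← h3]
  abel

theorem TDat.fd_congr (h : TDat F) (g : G) {s t : Fin d → ℝ} (hst : pr s = pr t) :
    fderiv ℝ (F g) s = fderiv ℝ (F g) t := by
  obtain ⟨c, hc⟩ := h.shift g (k := s - t) (by rw [pr_sub, hst, sub_self])
  have h1 : (fun u => F g (u + (s - t))) = fun u => F g u + c := funext hc
  have h2 := congrArg (fun f => fderiv ℝ f t) h1
  simp only [fderiv_comp_add_right, fderiv_add_const] at h2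
  rw [add_sub_cancel] at h2
  exact h2

theorem TDat.fd_mul (h : TDat F) (hd : ∀ g, ContDiff ℝ 1 (F g)) (g k : G) (t : Fin d → ℝ) :
    fderiv ℝ (F (g * k)) t = (fderiv ℝ (F g) (F k t)).comp (fderiv ℝ (F k) t) := by
  obtain ⟨c, hc⟩ := h.comp g k
  have h1 : F (g * k) = fun t => (F g ∘ F k) t + c := funext hc
  rw [h1, fderiv_add_const]
  exact fderiv_comp t ((hd g).differentiable one_ne_zero _)
    ((hd k).differentiable one_ne_zero _)

theorem TDat.fd_one (h : TDat F) (t : Fin d → ℝ) :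
    fderiv ℝ (F 1) t = ContinuousLinearMap.id ℝ _ := by
  obtain ⟨c, hc⟩ := h.one
  have h1 : F 1 = fun t => id t + c := funext hc
  rw [h1, fderiv_add_const, fderiv_id]

variable (F) in
/-- The derivative at a point of the torus. -/
def Dv (g : G) (s : To d) : (Fin d → ℝ) →L[ℝ] (Fin d → ℝ) := fderiv ℝ (F g) (lift s)

theorem TDat.dv_mul (h : TDat F) (hd : ∀ g, ContDiff ℝ 1 (F g)) (g k : G) (s : To d) :
    Dv F (g * k) s = (Dv F g (k • s)).comp (Dv F k s) := by
  rw [Dv, h.fd_mul hd, Dv, Dv]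
  congr 1
  refine h.fd_congr g ?_
  rw [h.hF, pr_lift, pr_lift]

theorem TDat.dv_one (h : TDat F) (s : To d) : Dv F 1 s = ContinuousLinearMap.id ℝ _ := h.fd_one _

/-- The matrix of a linear map. -/
def mat (L : (Fin d → ℝ) →L[ℝ] (Fin d → ℝ)) : Mt d :=
  (LinearMap.toMatrix' (L : (Fin d → ℝ) →ₗ[ℝ] (Fin d → ℝ))).map (algebraMap ℝ ℂ)

theorem mat_apply (L : (Fin d → ℝ) →L[ℝ] (Fin d → ℝ)) (i j : Fin d) :
    mat L i j = ((L (Pi.single j 1) i : ℝ) : ℂ) := by
  rw [mat, map_apply, LinearMap.toMatrix'_apply]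
  congr 3

theorem mat_mul (L N : (Fin d → ℝ) →L[ℝ] (Fin d → ℝ)) : mat (L.comp N) = mat L * mat N := by
  have h1 : ((L.comp N : (Fin d → ℝ) →L[ℝ] (Fin d → ℝ)) : (Fin d → ℝ) →ₗ[ℝ] (Fin d → ℝ)) =
      (L : (Fin d → ℝ) →ₗ[ℝ] (Fin d → ℝ)) ∘ₗ (N : (Fin d → ℝ) →ₗ[ℝ] (Fin d → ℝ)) := rfl
  rw [mat, h1, LinearMap.toMatrix'_comp, Matrix.map_mul]
  rfl

theorem mat_one : mat (ContinuousLinearMap.id ℝ (Fin d → ℝ)) = 1 := by
  rw [mat, ContinuousLinearMap.coe_id, LinearMap.toMatrix'_id, Matrix.map_one]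
  · exact map_zero _
  · exact map_one _

/-- The derivative cocycle. -/
def dco (h : TDat F) (hd : ∀ g, ContDiff ℝ 1 (F g)) (g : G) (s : To d) : (Mt d)ˣ where
  val := mat (Dv F g s)
  inv := mat (Dv F g⁻¹ (g • s))
  val_inv := by
    have h1 := h.dv_mul hd g g⁻¹ (g • s)
    rw [mul_inv_cancel, h.dv_one, inv_smul_smul] at h1
    rw [← mat_mul, ← h1, mat_one]
  inv_val := by
    have h1 := h.dv_mul hd g⁻¹ g s
    rw [inv_mul_cancel, h.dv_one] at h1
    rw [← mat_mul, ← h1, mat_one]

theorem dco_coc (h : TDat F) (hd : ∀ g, ContDiff ℝ 1 (F g)) : Coc (dco h hd) where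
  mul g k s := by
    refine Units.ext ?_
    rw [Units.val_mul]
    change mat (Dv F (g * k) s) = mat (Dv F g (k • s)) * mat (Dv F k s)
    rw [h.dv_mul hd, mat_mul]
  meas g i j := by
    have h1 : (fun s => ((dco h hd g s : (Mt d)ˣ) : Mt d) i j) = fun s =>
        ((fderiv ℝ (F g) (lift s) (Pi.single j 1) i : ℝ) : ℂ) := by
      funext s
      exact mat_apply _ i j
    rw [h1]
    have h2 : Continuous fun t : Fin d → ℝ => ((fderiv ℝ (F g) t (Pi.single j 1) i : ℝ) : ℂ) := by
      have h3 : Continuous (fderiv ℝ (F g)) := (hd g).continuous_fderiv one_ne_zero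
      have h4 : Continuous fun t => fderiv ℝ (F g) t (Pi.single j 1) := h3.clm_apply continuous_const
      exact Complex.continuous_ofReal.comp ((continuous_apply i).comp h4)
    exact h2.measurable.comp lift_measurable

theorem dco_bdd (h : TDat F) (hd : ∀ g, ContDiff ℝ 1 (F g)) (g : G) :
    ∃ C, ∀ s i j, ‖((dco h hd g s : (Mt d)ˣ) : Mt d) i j‖ ≤ C := by
  have h3 : Continuous (fderiv ℝ (F g)) := (hd g).continuous_fderiv one_ne_zero
  obtain ⟨C, hC⟩ := (isCompact_Icc (a := (0 : Fin d → ℝ)) (b := 1)).exists_bound_of_continuousOn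
    h3.continuousOn
  refine ⟨C, fun s i j => ?_⟩
  have h1 : ((dco h hd g s : (Mt d)ˣ) : Mt d) i j =
      ((fderiv ℝ (F g) (lift s) (Pi.single j 1) i : ℝ) : ℂ) := mat_apply _ i j
  rw [h1, Complex.norm_real]
  refine (norm_le_pi_norm _ i).trans ((ContinuousLinearMap.le_opNorm _ _).trans ?_)
  have h2 : ‖(Pi.single j 1 : Fin d → ℝ)‖ ≤ 1 := by
    refine (pi_norm_le_iff_of_nonneg zero_le_one).2 fun k => ?_
    by_cases hk : k = j
    · subst hk
      simp
    · simp [Pi.single_eq_of_ne hk]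
  have h4 := hC (lift s) (lift_mem s)
  calc _ ≤ ‖fderiv ℝ (F g) (lift s)‖ * 1 := mul_le_mul_of_nonneg_left h2 (norm_nonneg _)
    _ ≤ C := by rwa [mul_one]

theorem opnorm_le (L : (Fin d → ℝ) →L[ℝ] (Fin d → ℝ)) : ‖L‖ ≤ ∑ i, ∑ j, ‖mat L i j‖ := by
  have h0 : 0 ≤ ∑ i, ∑ j, ‖mat L i j‖ :=
    Finset.sum_nonneg fun i _ => Finset.sum_nonneg fun j _ => norm_nonneg _
  refine ContinuousLinearMap.opNorm_le_bound _ h0 fun v => ?_
  refine (pi_norm_le_iff_of_nonneg (mul_nonneg h0 (norm_nonneg _))).2 fun i => ?_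
  have h1 : L v i = ∑ j, v j * L (Pi.single j 1) i := by
    have h2 : v = ∑ j, v j • (Pi.single j 1 : Fin d → ℝ) := by
      funext k
      simp [Finset.sum_apply, Pi.single_apply]
    conv_lhs => rw [h2]
    rw [map_sum, Finset.sum_apply]
    refine Finset.sum_congr rfl fun j _ => ?_
    rw [map_smul, Pi.smul_apply, smul_eq_mul]
  rw [h1]
  refine (norm_sum_le _ _).trans ?_
  calc ∑ j, ‖v j * L (Pi.single j 1) i‖ ≤ ∑ j, ‖mat L i j‖ * ‖v‖ := by
        refine Finset.sum_le_sum fun j _ => ?_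
        rw [norm_mul, mat_apply, Complex.norm_real, mul_comm]
        exact mul_le_mul_of_nonneg_left (norm_le_pi_norm v j) (norm_nonneg _)
    _ = (∑ j, ‖mat L i j‖) * ‖v‖ := by rw [Finset.sum_mul]
    _ ≤ _ := mul_le_mul_of_nonneg_right (Finset.single_le_sum (f := fun i => ∑ j, ‖mat L i j‖)
        (fun i _ => Finset.sum_nonneg fun j _ => norm_nonneg _) (Finset.mem_univ i))
        (norm_nonneg _)

theorem log_size_nonneg (g : (Mt d)ˣ) : 0 ≤ Real.log (size g) := by
  rcases Nat.eq_zero_or_pos d with rfl | hd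
  · have h1 : size g = 0 := by simp [size]
    rw [h1, Real.log_zero]
  · have h1 := (disp_nonneg g).trans (dist_le g)
    have h2 : (0 : ℝ) < 2 * d := by
      have : (0 : ℝ) < d := by exact_mod_cast hd
      linarith
    exact nonneg_of_mul_nonneg_right h1 h2

/-- Diffeomorphisms of the torus with nonzero Lyapunov exponents. -/
theorem torus_charged (h : TDat F) (hd : ∀ g, ContDiff ℝ 1 (F g)) (x : G)
    {μ : Measure (To d)} [IsFiniteMeasure μ]
    (hμ : ∀ c, Commute c x → MeasurePreserving (fun s : To d => c • s) μ μ)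
    {ε C : ℝ} (hε : 0 < ε)
    (hx : ∀ m : ℕ, ε * m - C ≤ ∫ s, Real.log ‖Dv F (x ^ m) s‖ ∂μ) : Charged x := by
  refine lyap_charged (dco_coc h hd) (dco_bdd h hd) x hμ hε (C := C) fun m => (hx m).trans ?_
  have hcoc := dco_coc h hd
  -- the logarithm of the size is integrable
  have hint : Integrable (fun s => Real.log (size (dco h hd (x ^ m) s))) μ := by
    obtain ⟨C1, h1⟩ := dco_bdd h hd (x ^ m)
    obtain ⟨C2, h2⟩ := dco_bdd h hd (x ^ m)⁻¹
    have hm : Measurable fun s => size (dco h hd (x ^ m) s) := by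
      refine Measurable.add ?_ ?_
      · exact Finset.measurable_sum _ fun i _ => Finset.measurable_sum _ fun j _ =>
          (hcoc.meas _ i j).norm
      · refine Finset.measurable_sum _ fun i _ => Finset.measurable_sum _ fun j _ => ?_
        have h3 : (fun s => ‖(((dco h hd (x ^ m) s)⁻¹ : (Mt d)ˣ) : Mt d) i j‖) = fun s =>
            ‖((dco h hd (x ^ m)⁻¹ (x ^ m • s) : (Mt d)ˣ) : Mt d) i j‖ := by
          funext s
          rw [hcoc.inv]
        rw [h3]
        exact ((hcoc.meas _ i j).comp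
          (hμ (x ^ m) ((Commute.refl x).pow_left m)).measurable).norm
    refine Integrable.of_bound (Real.measurable_log.comp hm).aestronglyMeasurable
      (Real.log (max 1 (d * (d * C1) + d * (d * C2)))) (ae_of_all _ fun s => ?_)
    have h3 : size (dco h hd (x ^ m) s) ≤ d * (d * C1) + d * (d * C2) := by
      rw [size]
      refine add_le_add ?_ ?_
      · refine (Finset.sum_le_sum fun i _ => Finset.sum_le_sum fun j _ => h1 s i j).trans ?_
        simp
      · refine (Finset.sum_le_sum fun i _ => Finset.sum_le_sum fun j _ => ?_).trans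
          (b := ∑ _i : Fin d, ∑ _j : Fin d, C2) ?_
        · rw [← hcoc.inv]
          exact h2 _ i j
        · simp
    rw [Real.norm_of_nonneg (log_size_nonneg _)]
    rcases (size_nonneg (dco h hd (x ^ m) s)).eq_or_lt with h4 | h4
    · rw [← h4, Real.log_zero]
      exact Real.log_nonneg (le_max_left _ _)
    · exact Real.log_le_log h4 (h3.trans (le_max_right _ _))
  have hle : ∀ s, Real.log ‖Dv F (x ^ m) s‖ ≤ Real.log (size (dco h hd (x ^ m) s)) := by
    intro s
    have h1 : ‖Dv F (x ^ m) s‖ ≤ size (dco h hd (x ^ m) s) :=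
      (opnorm_le _).trans (le_add_of_nonneg_right
        (Finset.sum_nonneg fun i _ => Finset.sum_nonneg fun j _ => norm_nonneg _))
    rcases (norm_nonneg (Dv F (x ^ m) s)).eq_or_lt with h2 | h2
    · rw [← h2, Real.log_zero]
      exact log_size_nonneg _
    · exact Real.log_le_log h2 h1
  by_cases hi : Integrable (fun s => Real.log ‖Dv F (x ^ m) s‖) μ
  · exact integral_mono hi hint hle
  · rw [integral_undef hi]
    exact integral_nonneg fun s => log_size_nonneg _

end Vale.Agent.P184.Pn
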